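import Vale.Agent.P025.R2.H222.Pol
import Vale.Agent.P025.R2.H507.LocDef

/-!
# P025 G-LA-b (helper970): P2, from `Core` to `Dat` and `Loc`
-/

universe u

namespace P025H222

open Polynomial P025H373

noncomputable section

set_option linter.unusedSectionVars false
set_option linter.unusedVariables false

section Pieces

variable {C : Type u} [NontriviallyNormedField C] [IsUltrametricDist C] [CompleteSpace C]
  [IsAlgClosed C] [CharZero C]

/-- P2 : from `Core` to `Dat` and `Loc` -/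
theorem exists_dat {p h l : ℕ} (hp : p.Prime) (hpC : ‖(p : C)‖ < 1) (hh : p ∣ h) (h0 : h ≠ 0)
    (c : P025H507.Core C p h l) (hl : l ≠ 0) :
    ∃ (ζ κ Y0 ρ : C) (A V : C[X]) (D : P025H507.Loc C p l), Dat p h l ζ κ Y0 ρ A V ∧
      D.φ = Ph h κ ρ ∧ D.α = A ∧ D.u = V ∧ D.ζ = ζ := by
  have hh1 : ‖(h : C)‖ < 1 := by
    obtain ⟨k, rfl⟩ := hh
    rw [Nat.cast_mul, norm_mul]
    exact mul_lt_one_of_nonneg_of_lt_one_left (norm_nonneg _) hpC
      (IsUltrametricDist.norm_natCast_le_one C k)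
  have hκh : ‖c.κ‖ * ‖(h : C)‖ = 1 := by rw [← norm_mul]; exact c.hκ
  have hhpos : 0 < ‖(h : C)‖ := norm_pos_iff.2 (Nat.cast_ne_zero.2 h0)
  have hκ1 : 1 < ‖c.κ‖ := by
    by_contra hle
    push Not at hle
    have : ‖c.κ‖ * ‖(h : C)‖ < 1 := by
      calc ‖c.κ‖ * ‖(h : C)‖ ≤ 1 * ‖(h : C)‖ := by gcongr
        _ < 1 := by rwa [one_mul]
    exact absurd hκh this.ne
  have hκne : c.κ ≠ 1 := by
    intro h1
    rw [h1, norm_one] at hκ1
    exact lt_irrefl _ hκ1
  have hκne0 : c.κ ≠ 0 := norm_pos_iff.1 (zero_lt_one.trans hκ1)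
  have hκκ : ‖c.κ - 1‖ = ‖c.κ‖ := by
    have h1 := IsUltrametricDist.norm_add_eq_max_of_norm_ne_norm (x := c.κ) (y := -1) (by
      rw [norm_neg, norm_one]; exact hκ1.ne')
    rw [sub_eq_add_neg, h1, norm_neg, norm_one, max_eq_left hκ1.le]
  have hκ10 : c.κ - 1 ≠ 0 := sub_ne_zero.2 hκne
  have hκinv : ‖c.κ‖⁻¹ = ‖(h : C)‖ := inv_eq_of_mul_eq_one_right hκh
  obtain ⟨Y0, hY0⟩ := IsAlgClosed.exists_pow_nat_eq (c.κ / (c.κ - 1)) (Nat.pos_of_ne_zero h0)
  have hyh : Y0 ^ h * (c.κ - 1) = c.κ := by rw [hY0, div_mul_cancel₀ _ hκ10]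
  have hyn : ‖Y0 ^ h‖ = 1 := by
    rw [hY0, norm_div, hκκ, div_self (zero_lt_one.trans hκ1).ne']
  have hρpos : 0 < ‖c.ρ‖ := norm_pos_iff.2 c.hρ0
  -- the polynomial `Φ`
  have hPh : Ph h c.κ c.ρ = (P025H507.Phi c.κ h).comp (Polynomial.C c.ρ * X) := by
    simp only [Ph, P025H507.Phi, add_comp, mul_comp, pow_comp, C_comp, X_comp, one_comp]
    rw [add_comm (1 : C[X]) (Polynomial.C c.ρ * X)]
  have hPhc : ∀ i, (Ph h c.κ c.ρ).coeff i = (P025H507.Phi c.κ h).coeff i * c.ρ ^ i := by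
    intro i
    rw [hPh, comp_C_mul_X_coeff]
  have hchle : ∀ i ≥ 1, ‖c.κ * (h.choose i : C)‖ * ‖c.ρ‖ ^ i < 1 := c.hch
  have hPh1 : gp (Ph h c.κ c.ρ - 1) < 1 := by
    rw [gp_lt_iff]
    intro i
    rw [coeff_sub, hPhc, coeff_one]
    rcases Nat.eq_zero_or_pos i with rfl | hi
    · rw [P025H507.Phi_coeff_zero, if_pos rfl, pow_zero, mul_one, sub_self, norm_zero]
      exact one_pos
    · rw [if_neg hi.ne', sub_zero, norm_mul, norm_pow]
      rcases Nat.lt_or_ge 1 i with h2 | h2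
      · rw [P025H507.Phi_coeff _ _ h2]
        obtain ⟨j, rfl⟩ : ∃ j, i = j + 1 := ⟨i - 1, by omega⟩
        have e1 : c.κ * ((h + 1).choose (j + 1) : C) =
            c.κ * (h.choose j : C) + c.κ * (h.choose (j + 1) : C) := by
          rw [Nat.choose_succ_succ]
          push_cast
          ring
        rw [e1]
        have h3 : ‖c.κ * (h.choose j : C)‖ * ‖c.ρ‖ ^ (j + 1) < 1 := by
          rw [pow_succ, ← mul_assoc]
          exact mul_lt_one_of_nonneg_of_lt_one_left (by positivity) (hchle j (by omega)) c.hρ1.le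
        have h4 := hchle (j + 1) (by omega)
        refine (mul_le_mul_of_nonneg_right (IsUltrametricDist.norm_add_le_max _ _)
          (by positivity)).trans_lt ?_
        rw [max_mul_of_nonneg _ _ (by positivity)]
        exact max_lt h3 h4
      · have : i = 1 := by omega
        subst this
        rw [P025H507.Phi_coeff_one, pow_one]
        have h3 : ‖1 + c.κ * h‖ ≤ 1 := by
          refine (IsUltrametricDist.norm_add_le_max _ _).trans ?_
          rw [norm_one, c.hκ, max_self]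
        exact mul_lt_one_of_nonneg_of_lt_one_right h3 hρpos.le c.hρ1
  -- `A`
  set A : C[X] := c.A.comp (Polynomial.C c.ρ * X) with hA
  have hAc : ∀ i, A.coeff i = c.A.coeff i * c.ρ ^ i := by
    intro i
    rw [hA, comp_C_mul_X_coeff]
  have hA0 : A.coeff 0 = 1 := by rw [hAc, c.hA0, pow_zero, mul_one]
  have hA1 : gp (A - 1) < 1 := by
    rw [gp_lt_iff]
    intro i
    rw [coeff_sub, coeff_one]
    rcases Nat.eq_zero_or_pos i with rfl | hi
    · rw [if_pos rfl, hA0, sub_self, norm_zero]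
      exact one_pos
    · rw [if_neg hi.ne', sub_zero, hAc, norm_mul, norm_pow]
      exact c.hA i hi
  -- `V`
  set V : C[X] := Polynomial.C (c.ρ ^ l) * c.Q.comp (Polynomial.C c.ρ * X) with hV
  have hVc : ∀ i, V.coeff i = c.ρ ^ l * (c.Q.coeff i * c.ρ ^ i) := by
    intro i
    rw [hV, coeff_C_mul, comp_C_mul_X_coeff]
  have hV0 : ‖V.coeff 0‖ = ‖c.Q.coeff 0‖ * ‖c.ρ‖ ^ l := by
    rw [hVc, pow_zero, mul_one, norm_mul, norm_pow, mul_comm]
  have hVpos : 0 < ‖V.coeff 0‖ := by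
    rw [hV0]
    have := norm_pos_iff.2 c.hQ0
    positivity
  have hVi : ∀ i, 1 ≤ i → ‖V.coeff i‖ < ‖V.coeff 0‖ := by
    intro i hi
    rw [hV0, hVc, norm_mul, norm_mul, norm_pow, norm_pow, mul_comm]
    exact mul_lt_mul_of_pos_right (c.hQ i hi) (by positivity)
  have hv : Ph h c.κ c.ρ = A ^ p + X ^ l * V := by
    rw [hPh, c.hPhi, add_comp, pow_comp, mul_comp, pow_comp, X_comp, hA, hV, mul_pow,
      Polynomial.C_pow]
    ring
  have hgpV : gp V = ‖V.coeff 0‖ := by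
    refine le_antisymm ?_ (norm_coeff_le V 0)
    rw [gp_le_iff]
    intro i
    rcases Nat.eq_zero_or_pos i with rfl | hi
    · exact le_rfl
    · exact (hVi i hi).le
  have hgap : ‖c.ζ - 1‖ ^ p < ‖V.coeff 0‖ := by rw [hV0]; exact c.hbig
  have hlt : ‖V.coeff 0‖ < 1 := by
    rw [← hgpV]
    have hgpA : gp A = 1 := by
      have h1 : A = (A - 1) + 1 := by ring
      have h2 := gp_add_le_max (A - 1) 1
      rw [← h1, gp_one, max_eq_right hA1.le] at h2
      refine le_antisymm h2 ?_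
      have h3 := norm_coeff_le A 0
      rwa [hA0, norm_one] at h3
    have hAp : ∀ n : ℕ, gp (A ^ n - 1) < 1 := by
      intro n
      induction n with
      | zero => rw [pow_zero, sub_self, gp_zero]; exact one_pos
      | succ n ih =>
        have h1 : A ^ (n + 1) - 1 = (A ^ n - 1) * A + (A - 1) := by ring
        rw [h1]
        refine (gp_add_le_max _ _).trans_lt (max_lt ?_ hA1)
        rwa [gp_mul, hgpA, mul_one]
    have h1 : X ^ l * V = (Ph h c.κ c.ρ - 1) + -(A ^ p - 1) := by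
      rw [hv]; ring
    have h2 : gp (X ^ l * V) < 1 := by
      rw [h1]
      refine (gp_add_le_max _ _).trans_lt (max_lt hPh1 ?_)
      rw [gp_neg]
      exact hAp p
    rwa [gp_mul, gp_X_pow, one_mul] at h2
  -- `Q`
  have hq : gp (Qp h Y0 c.ρ) ≤ ‖(h : C)‖ := by
    rw [gp_le_iff]
    intro i
    have e1 : ((1 : C[X]) + Polynomial.C c.ρ * X) ^ h = ((1 + X) ^ h : C[X]).comp (Polynomial.C c.ρ * X) := by
      simp only [add_comp, pow_comp, X_comp, one_comp]
    rw [Qp, coeff_sub, coeff_C_mul, e1, comp_C_mul_X_coeff, coeff_one_add_X_pow, coeff_one]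
    rcases Nat.eq_zero_or_pos i with rfl | hi
    · rw [if_pos rfl, Nat.choose_zero_right, Nat.cast_one, pow_zero, mul_one, mul_one, hY0]
      have e2 : c.κ / (c.κ - 1) - 1 = (c.κ - 1)⁻¹ := by
        field_simp
        ring
      rw [e2, norm_inv, hκκ, hκinv]
    · rw [if_neg hi.ne', sub_zero, norm_mul, hyn, one_mul, norm_mul, norm_pow]
      have h1 := hchle i hi
      rw [norm_mul, mul_assoc] at h1
      have h2 : ‖(h.choose i : C)‖ * ‖c.ρ‖ ^ i ≤ ‖c.κ‖⁻¹ * 1 :=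
        (le_inv_mul_iff₀ (zero_lt_one.trans hκ1)).2 h1.le
      rwa [hκinv, mul_one] at h2
  have hζ1 : (Polynomial.C (V.coeff 0) : C[X]).coeff 0 = V.coeff 0 := coeff_C_zero
  refine ⟨c.ζ, c.κ, Y0, c.ρ, A, V, ⟨c.ζ, V.coeff 0, Ph h c.κ c.ρ, A, V, c.hζ, hv, hA1, hPh1, ?_,
    hgap, hlt⟩, ⟨hκne, ?_, c.hρ0, hyh, hq, ?_, hA0, hA1, hVi, hgap⟩, rfl, rfl, rfl, rfl⟩
  · rw [gp_lt_iff]
    intro i
    rw [coeff_sub, coeff_C]
    rcases Nat.eq_zero_or_pos i with rfl | hi
    · rw [if_pos rfl, sub_self, norm_zero]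
      exact hVpos
    · rw [if_neg hi.ne', sub_zero]
      exact hVi i hi
  · rintro rfl
    rw [zero_pow h0, norm_zero] at hyn
    exact zero_ne_one hyn
  · rw [hv]; ring

end Pieces

end

end P025H222
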