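import Vale.Agent.P025.R2.H970.Smith

/-!
Smith theory for pro-`q` groups acting on profinite bipartite graphs.
-/

namespace P025H970

open Set Topology MulAction

section Ind

variable {P A B E : Type*} [Group P] [TopologicalSpace P] [CompactSpace P]
  [TopologicalSpace A] [CompactSpace A] [T2Space A] [TotallyDisconnectedSpace A]
  [MulAction P A] [ContinuousSMul P A]
  [TopologicalSpace B] [CompactSpace B] [T2Space B] [TotallyDisconnectedSpace B]
  [MulAction P B] [ContinuousSMul P B]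
  [TopologicalSpace E] [CompactSpace E] [T2Space E] [TotallyDisconnectedSpace E]
  [MulAction P E] [ContinuousSMul P E]

/-- the whole graph is nonempty and connected -/
def Conn0 (q : ℕ) {A B E : Type*} [TopologicalSpace A] [TopologicalSpace B]
    (a : E → A) (b : E → B) : Prop :=
  (Nonempty A ∨ Nonempty B) ∧
  ∀ (f : A → ZMod q) (g : B → ZMod q), IsLocallyConstant f → IsLocallyConstant g →
    (∀ e, f (a e) = g (b e)) → ∃ c, (∀ x, f x = c) ∧ ∀ y, g y = c

omit [TopologicalSpace P] [CompactSpace P] [CompactSpace A] [T2Space A]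
  [TotallyDisconnectedSpace A] [ContinuousSMul P A] [CompactSpace B]
  [T2Space B] [TotallyDisconnectedSpace B] [ContinuousSMul P B]
  [TopologicalSpace E] [CompactSpace E] [T2Space E] [TotallyDisconnectedSpace E]
  [ContinuousSMul P E] in
theorem conn_self (q : ℕ) {a : E → A} {b : E → B} (h0 : Conn0 q a b) (U : Subgroup P) :
    Conn q U U a b := by
  constructor
  · rcases h0.1 with ⟨⟨x⟩⟩ | ⟨⟨x⟩⟩
    · exact Or.inl ⟨x, (le_sup_left : U ≤ U ⊔ stabilizer P x)⟩
    · exact Or.inr ⟨x, (le_sup_left : U ≤ U ⊔ stabilizer P x)⟩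
  · intro f g hf hg _ _ h
    obtain ⟨c, hc1, hc2⟩ := h0.2 f g hf hg fun e => h e (le_sup_left : U ≤ U ⊔ stabilizer P e)
    exact ⟨c, fun x _ => hc1 x, fun x _ => hc2 x⟩

theorem conn_top (q : ℕ) [hq : Fact q.Prime] {a : E → A} {b : E → B} (ha : Continuous a)
    (hb : Continuous b) (hae : ∀ (g : P) e, a (g • e) = g • a e)
    (hbe : ∀ (g : P) e, b (g • e) = g • b e) (h0 : Conn0 q a b) (U : Subgroup P) [hUn : U.Normal]
    (hU : IsClosed (U : Set P)) (hS : SurjInv q U a b) (N : ℕ) (hN : U.index = q ^ N) :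
    Conn q U ⊤ a b := by
  have hcard : Nat.card (P ⧸ U) = q ^ N := hN
  have : Finite (P ⧸ U) := Nat.finite_of_card_ne_zero (by
    rw [hcard]; exact pow_ne_zero _ hq.out.ne_zero)
  have key : ∀ n : ℕ, n ≤ N → ∃ H : Subgroup (P ⧸ U), Nat.card H = q ^ n ∧
      Conn q U (H.comap (QuotientGroup.mk' U)) a b := by
    intro n
    induction n with
    | zero =>
      intro _
      refine ⟨⊥, by simp, ?_⟩
      have : (⊥ : Subgroup (P ⧸ U)).comap (QuotientGroup.mk' U) = U := by
        rw [MonoidHom.comap_bot, QuotientGroup.ker_mk']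
      rw [this]
      exact conn_self q h0 U
    | succ n ih =>
      intro hn
      obtain ⟨K, hK, hC⟩ := ih (by omega)
      obtain ⟨H, hH, hKH⟩ := Sylow.exists_subgroup_card_pow_succ (p := q) (n := n)
        (by rw [hcard]; exact pow_dvd_pow q hn) hK
      refine ⟨H, hH, ?_⟩
      have hidx : (K.subgroupOf H).index = q := by
        have h1 := (K.subgroupOf H).card_mul_index
        have h2 : Nat.card (K.subgroupOf H) = q ^ n := by
          rw [← hK]
          exact Nat.card_congr (Subgroup.subgroupOfEquivOfLe hKH).toEquiv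
        rw [h2, hH, pow_succ] at h1
        exact Nat.eq_of_mul_eq_mul_left (pow_pos hq.out.pos n) h1
      have hnormal : (K.subgroupOf H).Normal := by
        apply Subgroup.normal_of_index_eq_minFac_card
        rw [hidx, hH, hq.out.pow_minFac (Nat.succ_ne_zero n)]
      -- choose a generator
      have hne : ∃ τ : H, τ ∉ K.subgroupOf H := by
        by_contra hcon
        push Not at hcon
        have : K.subgroupOf H = ⊤ := by
          rw [eq_top_iff]; intro x _; exact hcon x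
        rw [this, Subgroup.index_top] at hidx
        exact hq.out.one_lt.ne hidx
      obtain ⟨τ, hτ⟩ := hne
      obtain ⟨σ, hσ⟩ := QuotientGroup.mk'_surjective U τ.1
      have hτq : τ ^ q ∈ K.subgroupOf H := by
        have := (K.subgroupOf H).pow_index_mem τ
        rwa [hidx] at this
      refine smith_step q ha hb hae hbe U _ _ hU (Subgroup.comap_mono hKH) σ ?_ ?_ ?_ ?_ hS hC
      · rw [Subgroup.mem_comap, hσ]; exact τ.2
      · intro h hh
        rw [Subgroup.mem_comap] at hh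
        have hcq : Nat.card (H ⧸ K.subgroupOf H) = q := hidx
        have h1 : (QuotientGroup.mk' (K.subgroupOf H)) τ ≠ 1 := by
          intro h
          rw [← MonoidHom.mem_ker, QuotientGroup.ker_mk'] at h
          exact hτ h
        obtain ⟨i, hi⟩ := mem_powers_of_prime_card hcq
          (g' := QuotientGroup.mk' (K.subgroupOf H) ⟨_, hh⟩) h1
        refine ⟨i, (σ ^ i)⁻¹ * h, ?_, by group⟩
        rw [Subgroup.mem_comap]
        have h2 : QuotientGroup.mk' (K.subgroupOf H) ((τ ^ i)⁻¹ * ⟨_, hh⟩) = 1 := by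
          rw [map_mul, map_inv, map_pow]
          simp only at hi
          rw [hi, inv_mul_cancel]
        rw [← MonoidHom.mem_ker, QuotientGroup.ker_mk', Subgroup.mem_subgroupOf] at h2
        have h3 : QuotientGroup.mk' U ((σ ^ i)⁻¹ * h)
            = ((τ ^ i)⁻¹ * (⟨QuotientGroup.mk' U h, hh⟩ : H) : H).1 := by
          rw [map_mul, map_inv, map_pow, hσ]; rfl
        rw [h3]
        exact h2
      · rw [Subgroup.mem_comap, map_pow, hσ]
        exact hτq
      · intro k hk
        rw [Subgroup.mem_comap] at hk ⊢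
        rw [map_mul, map_mul, map_inv, hσ]
        have h1 := hnormal.conj_mem ⟨QuotientGroup.mk' U k, hKH hk⟩ hk τ⁻¹
        rw [Subgroup.mem_subgroupOf] at h1
        simpa using h1
  obtain ⟨H, hH, hC⟩ := key N le_rfl
  have : H = ⊤ := by
    apply Subgroup.eq_top_of_card_eq
    rw [hH, hcard]
  rw [this, Subgroup.comap_top] at hC
  exact hC

omit [CompactSpace P] [TopologicalSpace A] [CompactSpace A] [T2Space A]
  [TotallyDisconnectedSpace A] [ContinuousSMul P A] [TopologicalSpace P] in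
theorem fixMod_mono {U U' K : Subgroup P} (h : U' ≤ U) : FixMod U' K A ⊆ FixMod U K A :=
  fun _ hx => le_trans hx (sup_le_sup_right h _)

omit [TotallyDisconnectedSpace A] in
/-- compactness: fixed points modulo small subgroups give fixed points -/
theorem exists_fixed_of_mod (𝒰 : Set (Subgroup P))
    (hcof : ∀ O ∈ 𝓝 (1 : P), ∃ U ∈ 𝒰, (U : Set P) ⊆ O)
    (hn : ∀ U ∈ 𝒰, U.Normal ∧ IsClosed (U : Set P) ∧ (U : Set P) ∈ 𝓝 (1 : P)) {C : Set A}
    (hC : IsClosed C) (h : ∀ U ∈ 𝒰, (FixMod U ⊤ A ∩ C).Nonempty) :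
    ∃ x ∈ C, ∀ g : P, g • x = x := by
  have hne : 𝒰.Nonempty := by
    obtain ⟨U, hU, _⟩ := hcof univ Filter.univ_mem
    exact ⟨U, hU⟩
  have : Nonempty 𝒰 := hne.to_subtype
  have h1 : (⋂ U : 𝒰, (FixMod U.1 ⊤ A ∩ C)).Nonempty := by
    apply IsCompact.nonempty_iInter_of_directed_nonempty_isCompact_isClosed
    · intro U V
      obtain ⟨W, hW, hWs⟩ := hcof ((U.1 : Set P) ∩ V.1)
        (Filter.inter_mem (hn U.1 U.2).2.2 (hn V.1 V.2).2.2)
      refine ⟨⟨W, hW⟩, ?_, ?_⟩
      · exact inter_subset_inter_left _ (fixMod_mono fun x hx => (hWs hx).1)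
      · exact inter_subset_inter_left _ (fixMod_mono fun x hx => (hWs hx).2)
    · intro U; exact h U.1 U.2
    · intro U
      have := (hn U.1 U.2).1
      exact ((isClosed_fixMod U.1 ⊤ (hn U.1 U.2).2.1).inter hC).isCompact
    · intro U
      have := (hn U.1 U.2).1
      exact (isClosed_fixMod U.1 ⊤ (hn U.1 U.2).2.1).inter hC
  obtain ⟨x, hx⟩ := h1
  rw [mem_iInter] at hx
  refine ⟨x, (hx (Classical.arbitrary _)).2, fun g => ?_⟩
  by_contra hg
  have hO : {u : P | u • x ≠ g • x} ∈ 𝓝 (1 : P) := by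
    refine IsOpen.mem_nhds ?_ ?_
    · exact isOpen_ne_fun (continuous_id.smul continuous_const) continuous_const
    · simpa using Ne.symm hg
  obtain ⟨U, hU, hUO⟩ := hcof _ hO
  have := (hn U hU).1
  have h2 := (hx ⟨U, hU⟩).1 (Subgroup.mem_top g)
  obtain ⟨u, hu, h3⟩ := (mem_sup_stab U g x).1 h2
  exact hUO hu h3.symm

omit [CompactSpace P] [T2Space A] [TotallyDisconnectedSpace A] in
/-- a locally constant function is invariant under a neighbourhood of `1` -/
theorem exists_nhds_inv {R : Type*} {f : A → R} (hf : IsLocallyConstant f) :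
    {u : P | ∀ x : A, f (u • x) = f x} ∈ 𝓝 (1 : P) := by
  have h1 : IsLocallyConstant (fun y : P × A => (f (y.1 • y.2), f y.2)) :=
    (hf.comp_continuous (continuous_smul (M := P) (X := A))).prodMk
      (hf.comp_continuous continuous_snd)
  have h2 : IsClosed {y : P × A | f (y.1 • y.2) ≠ f y.2} := by
    rw [← isOpen_compl_iff]
    convert! h1 {z | z.1 = z.2} using 1
    ext y
    simp
  have h3 := isClosedMap_fst_of_compactSpace _ h2
  have h4 : {u : P | ∀ x : A, f (u • x) = f x}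
      = (Prod.fst '' {y : P × A | f (y.1 • y.2) ≠ f y.2})ᶜ := by
    ext u
    simp
  rw [h4]
  exact h3.isOpen_compl.mem_nhds (by simp)

/-- Smith theory for pro-`q` groups with vanishing connecting maps -/
theorem smith_pro (q : ℕ) [hq : Fact q.Prime] {a : E → A} {b : E → B} (ha : Continuous a)
    (hb : Continuous b) (hae : ∀ (g : P) e, a (g • e) = g • a e)
    (hbe : ∀ (g : P) e, b (g • e) = g • b e) (h0 : Conn0 q a b) (𝒰 : Set (Subgroup P))
    (hcof : ∀ O ∈ 𝓝 (1 : P), ∃ U ∈ 𝒰, (U : Set P) ⊆ O)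
    (hn : ∀ U ∈ 𝒰, U.Normal ∧ IsClosed (U : Set P) ∧ (U : Set P) ∈ 𝓝 (1 : P))
    (hidx : ∀ U ∈ 𝒰, ∃ n : ℕ, U.index = q ^ n)
    (hS : ∀ U ∈ 𝒰, SurjInv q U a b) :
    ((∃ x : A, ∀ g : P, g • x = x) ∨ (∃ y : B, ∀ g : P, g • y = y)) ∧
    ∀ (f : A → ZMod q) (g : B → ZMod q), IsLocallyConstant f → IsLocallyConstant g →
      (∀ e, (∀ s : P, s • e = e) → f (a e) = g (b e)) →
      ∃ c, (∀ x, (∀ s : P, s • x = x) → f x = c) ∧ ∀ y, (∀ s : P, s • y = y) → g y = c := by
  have hconn : ∀ U ∈ 𝒰, Conn q U ⊤ a b := by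
    intro U hU
    have := (hn U hU).1
    obtain ⟨n, hn'⟩ := hidx U hU
    exact conn_top q ha hb hae hbe h0 U (hn U hU).2.1 (hS U hU) n hn'
  have hmemA : ∀ (U : Subgroup P) (x : A), (∀ s : P, s • x = x) → x ∈ FixMod U ⊤ A :=
    fun U x hx s _ => Subgroup.mem_sup_right (mem_stabilizer_iff.2 (hx s))
  have hmemB : ∀ (U : Subgroup P) (x : B), (∀ s : P, s • x = x) → x ∈ FixMod U ⊤ B :=
    fun U x hx s _ => Subgroup.mem_sup_right (mem_stabilizer_iff.2 (hx s))
  constructor
  · by_cases hA : ∀ U ∈ 𝒰, (FixMod U ⊤ A ∩ univ).Nonempty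
    · obtain ⟨x, _, hx⟩ := exists_fixed_of_mod 𝒰 hcof hn isClosed_univ hA
      exact Or.inl ⟨x, hx⟩
    · right
      push Not at hA
      obtain ⟨U0, hU0, hA0⟩ := hA
      have hB : ∀ U ∈ 𝒰, (FixMod U ⊤ B ∩ univ).Nonempty := by
        intro U hU
        obtain ⟨W, hW, hWs⟩ := hcof ((U : Set P) ∩ U0)
          (Filter.inter_mem (hn U hU).2.2 (hn U0 hU0).2.2)
        rcases (hconn W hW).1 with ⟨x, hx⟩ | ⟨x, hx⟩
        · exfalso
          have : x ∈ FixMod U0 ⊤ A ∩ univ := ⟨fixMod_mono (fun x hx => (hWs hx).2) hx, mem_univ _⟩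
          rw [hA0] at this
          exact this
        · exact ⟨x, fixMod_mono (fun x hx => (hWs hx).1) hx, mem_univ _⟩
      obtain ⟨x, _, hx⟩ := exists_fixed_of_mod 𝒰 hcof hn isClosed_univ hB
      exact ⟨x, hx⟩
  · intro f g hf hg hfg
    have hO : {u : P | ∀ x : A, f (u • x) = f x} ∩ {u : P | ∀ x : B, g (u • x) = g x} ∈ 𝓝 (1 : P) :=
      Filter.inter_mem (exists_nhds_inv hf) (exists_nhds_inv hg)
    have hC : IsClosed {e : E | f (a e) ≠ g (b e)} := by
      rw [← isOpen_compl_iff]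
      convert! ((hf.comp_continuous ha).prodMk (hg.comp_continuous hb)) {z | z.1 = z.2} using 1
      ext y
      simp
    have hex : ∃ U ∈ 𝒰, (U : Set P) ⊆ {u : P | ∀ x : A, f (u • x) = f x} ∩
        {u : P | ∀ x : B, g (u • x) = g x} ∧ ∀ e ∈ FixMod U ⊤ E, f (a e) = g (b e) := by
      by_contra hcon
      push Not at hcon
      have hne : ∀ U ∈ 𝒰, (FixMod U ⊤ E ∩ {e : E | f (a e) ≠ g (b e)}).Nonempty := by
        intro U hU
        obtain ⟨W, hW, hWs⟩ := hcof _ (Filter.inter_mem hO (hn U hU).2.2)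
        obtain ⟨e, he1, he2⟩ := hcon W hW (fun x hx => (hWs hx).1)
        exact ⟨e, fixMod_mono (fun x hx => (hWs hx).2) he1, he2⟩
      obtain ⟨e, he, hfix⟩ := exists_fixed_of_mod 𝒰 hcof hn hC hne
      exact he (hfg e hfix)
    obtain ⟨U, hU, hUs, hUe⟩ := hex
    obtain ⟨c, hc1, hc2⟩ := (hconn U hU).2 f g hf hg (fun u hu x => (hUs hu).1 x)
      (fun u hu x => (hUs hu).2 x) hUe
    exact ⟨c, fun x hx => hc1 x (hmemA U x hx), fun x hx => hc2 x (hmemB U x hx)⟩

end Ind

end P025H970
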