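import Vale.Agent.P025.R2.H970.NTpt
import Vale.Agent.P025.R2.H613.SideMoves

/-!
# P025, (7.5) (NT): `nt_pt` of helper621's `Spec7` (helper970)
-/

open Polynomial TensorProduct

universe u

namespace P025H970

open Vale.Agent.P019P P025H373 P025H544 P025H613 P025H621 P025H725

variable {C K : Type u} [NontriviallyNormedField C] [IsUltrametricDist C] [CompleteSpace C]
  [IsAlgClosed C] [Field K] [Algebra C K] [CFF C K] [Algebra (RatFunc C) K]
  [IsScalarTower C (RatFunc C) K] [FiniteDimensional (RatFunc C) K]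

/-- S1 of `H621/Spec7` -/
theorem nt_pt [CharZero C] {p : ℕ} (hp : p.Prime) (_hpC : ‖(p : C)‖ < 1)
    (hw : ∀ f : K, f ≠ 0 → DivN C p f → ∀ e : Pt (RatFunc C) (F0 C) K,
      (p : ℤ) ∣ wind C (Algebra.norm (F0 C)
        (Ideal.Quotient.mk e.asIdeal ((1 : F0 C) ⊗ₜ[RatFunc C] f))))
    {x : K} (hx : x ≠ 0) (h1 : PowIn (RatFunc C) (F1 C) p x) (h2 : PowIn (RatFunc C) (F2 C) p x) :
    ∃ y : K, y ^ p = x :=
  nt_pt_of hp (moves1 hp.ne_zero) hw hx h1 h2

end P025H970
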