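import Vale.Agent.P025.R2.H970.Div

/-!
# P025 G-DICT: approximation of units of `Fi ⊗ K` by elements of `K` (helper970)

`hH : Half B A Fi`, `β` a basis of `K` over `F` with structure constants in `B`.  `Sm β δ x`: the
coordinates of `x : Fi ⊗[F] K` are in `A` and of norm at most `δ`.
-/

open TensorProduct P025H731

namespace P025H970

section denom

variable {C F : Type*} [Field C] [Field F] [Algebra C F] {B : Subalgebra C F}

theorem exists_denom (hB : ∀ z : F, ∃ b ∈ B, ∃ b' ∈ B, b' ≠ 0 ∧ z = b / b') {ι : Type*}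
    (s : Finset ι) (z : ι → F) : ∃ d ∈ B, d ≠ 0 ∧ ∀ i ∈ s, d * z i ∈ B := by
  classical
  induction s using Finset.induction_on with
  | empty => exact ⟨1, B.one_mem, one_ne_zero, fun i hi => absurd hi (Finset.notMem_empty i)⟩
  | insert a s ha ih =>
    obtain ⟨d, hd, hd0, h⟩ := ih
    obtain ⟨b, hb, b', hb', hb'0, h1⟩ := hB (z a)
    refine ⟨d * b', B.mul_mem hd hb', mul_ne_zero hd0 hb'0, fun i hi => ?_⟩
    rcases Finset.mem_insert.1 hi with rfl | hi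
    · rw [h1, mul_assoc, mul_div_cancel₀ _ hb'0]
      exact B.mul_mem hd hb
    · rw [mul_right_comm]
      exact B.mul_mem (h i hi) hb'

/-- a basis with structure constants in `B` -/
theorem exists_basis (hB : ∀ z : F, ∃ b ∈ B, ∃ b' ∈ B, b' ≠ 0 ∧ z = b / b') (K : Type*) [Field K]
    [Algebra F K] [FiniteDimensional F K] :
    ∃ β : Module.Basis (Fin (Module.finrank F K)) F K,
      ∀ i j k, β.repr (β i * β j) k ∈ B := by
  classical
  let b := Module.finBasis F K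
  obtain ⟨d, hd, hd0, h⟩ := exists_denom hB (Finset.univ : Finset (Fin (Module.finrank F K) ×
    Fin (Module.finrank F K) × Fin (Module.finrank F K))) fun x => b.repr (b x.1 * b x.2.1) x.2.2
  let u : Fˣ := Units.mk0 d hd0
  refine ⟨b.unitsSMul fun _ => u, fun i j k => ?_⟩
  rw [Module.Basis.repr_unitsSMul, Module.Basis.unitsSMul_apply, Module.Basis.unitsSMul_apply,
    Units.smul_def, Units.smul_def, Units.smul_def, smul_mul_smul_comm, map_smul,
    Finsupp.smul_apply, smul_eq_mul, smul_eq_mul]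
  have h1 := h (i, j, k) (Finset.mem_univ _)
  have h2 : ((u⁻¹ : Fˣ) : F) * (((u : F) * (u : F)) * b.repr (b i * b j) k) =
      d * b.repr (b i * b j) k := by
    rw [Units.val_inv_eq_inv_val, Units.val_mk0]
    field_simp
  rw [h2]
  exact h1

end denom

section alg

variable {F Fi K : Type*} [Field F] [Field Fi] [Field K] [Algebra F Fi] [Algebra F K]

theorem one_tmul_mul (x y : K) : (1 : Fi) ⊗ₜ[F] (x * y) =
    ((1 : Fi) ⊗ₜ[F] x) * ((1 : Fi) ⊗ₜ[F] y) := by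
  rw [Algebra.TensorProduct.tmul_mul_tmul, one_mul]

theorem isUnit_tmul {f : K} (hf : f ≠ 0) : IsUnit ((1 : Fi) ⊗ₜ[F] f) := by
  refine IsUnit.of_mul_eq_one ((1 : Fi) ⊗ₜ[F] f⁻¹) ?_
  rw [← one_tmul_mul, mul_inv_cancel₀ hf]
  rfl

theorem isUnit_of_pow_eq {n : ℕ} (hn : n ≠ 0) {f : K} (hf : f ≠ 0) {α : Fi ⊗[F] K}
    (hα : α ^ n = (1 : Fi) ⊗ₜ[F] f) : IsUnit α := by
  rw [← isUnit_pow_iff hn, hα]
  exact isUnit_tmul hf

theorem tmul_pow_div {n : ℕ} {f g : K} (hf : f ≠ 0) {α h : Fi ⊗[F] K}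
    (hα : α ^ n = (1 : Fi) ⊗ₜ[F] f) (hg : (1 : Fi) ⊗ₜ[F] g = α * (1 + h)) :
    (1 : Fi) ⊗ₜ[F] (g ^ n / f - 1) = (1 + h) ^ n - 1 := by
  have h1 : (1 : Fi) ⊗ₜ[F] (g ^ n) = ((1 : Fi) ⊗ₜ[F] g) ^ n := by
    rw [Algebra.TensorProduct.tmul_pow, one_pow]
  have h2 : (1 : Fi) ⊗ₜ[F] (g ^ n / f) * ((1 : Fi) ⊗ₜ[F] f) =
      (1 + h) ^ n * ((1 : Fi) ⊗ₜ[F] f) := by
    rw [← one_tmul_mul, div_mul_cancel₀ _ hf, h1, hg, mul_pow, hα, mul_comm]
  rw [TensorProduct.tmul_sub, (isUnit_tmul hf).mul_right_cancel h2]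
  rfl

end alg

section lat

variable {C F F0 : Type*} [NormedField C] [Field F] [NormedField F0]
  [Algebra C F] [Algebra F F0] [NormedAlgebra C F0] [IsScalarTower C F F0]
  {B : Subalgebra C F} {A : Subalgebra C F0} {Fi : IntermediateField F F0}

/-- denominators of elements of `Fi` -/
theorem exists_clear (hH : Half B A Fi) (m : Fi) :
    ∃ e ∈ B, e ≠ 0 ∧ algebraMap F F0 e * m ∈ A := by
  by_cases hm : m = 0
  · exact ⟨1, B.one_mem, one_ne_zero, by
      rw [hm, ZeroMemClass.coe_zero, mul_zero]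
      exact A.zero_mem⟩
  obtain ⟨g, hg, h, hh, -, h2⟩ := (hH.mem_iff m (by rwa [Ne, ZeroMemClass.coe_eq_zero])).1 m.2
  obtain ⟨b, hb, b', hb', hb'0, h3⟩ := hH.frac g
  refine ⟨b', hb', hb'0, ?_⟩
  have h4 : algebraMap F F0 b' * algebraMap F F0 g = algebraMap F F0 b := by
    rw [← map_mul, h3, mul_div_cancel₀ _ hb'0]
  rw [h2, ← mul_assoc, h4]
  exact A.mul_mem (hH.sub b hb) (A.add_mem A.one_mem hh)

theorem exists_clear' (hH : Half B A Fi) {ι : Type*} (s : Finset ι)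
    (m : ι → Fi) : ∃ e ∈ B, e ≠ 0 ∧ ∀ i ∈ s, algebraMap F F0 e * m i ∈ A := by
  classical
  induction s using Finset.induction_on with
  | empty => exact ⟨1, B.one_mem, one_ne_zero, fun i hi => absurd hi (Finset.notMem_empty i)⟩
  | insert a s ha ih =>
    obtain ⟨d, hd, hd0, h⟩ := ih
    obtain ⟨b', hb', hb'0, h1⟩ := exists_clear hH (m a)
    refine ⟨d * b', B.mul_mem hd hb', mul_ne_zero hd0 hb'0, fun i hi => ?_⟩
    rw [map_mul]
    rcases Finset.mem_insert.1 hi with rfl | hi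
    · rw [mul_assoc]
      exact A.mul_mem (hH.sub d hd) h1
    · rw [mul_right_comm]
      exact A.mul_mem (h i hi) (hH.sub b' hb')

variable {K : Type*} [Field K] [Algebra F K] {N : Type*} [Fintype N]

/-- coordinates on `Fi ⊗ K` -/
noncomputable def bs (Fi : IntermediateField F F0) (β : Module.Basis N F K) :
    Module.Basis N Fi (Fi ⊗[F] K) := Algebra.TensorProduct.basis Fi β

theorem bs_repr_tmul (β : Module.Basis N F K) (y : K) (k : N) :
    (bs Fi β).repr ((1 : Fi) ⊗ₜ[F] y) k = algebraMap F Fi (β.repr y k) := by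
  rw [bs, Algebra.TensorProduct.basis_repr_tmul]
  simp [Algebra.algebraMap_eq_smul_one]

theorem bs_apply (β : Module.Basis N F K) (i : N) : bs Fi β i = (1 : Fi) ⊗ₜ[F] β i :=
  Algebra.TensorProduct.basis_apply _ _

/-- small elements of the lattice -/
def Sm (A : Subalgebra C F0) (β : Module.Basis N F K) (δ : ℝ) (x : Fi ⊗[F] K) : Prop :=
  ∀ k, (((bs Fi β).repr x k : Fi) : F0) ∈ A ∧ ‖(((bs Fi β).repr x k : Fi) : F0)‖ ≤ δ

variable {β : Module.Basis N F K}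

theorem Sm.add [IsUltrametricDist F0] {δ : ℝ} {x y : Fi ⊗[F] K} (hx : Sm A β δ x)
    (hy : Sm A β δ y) : Sm A β δ (x + y) := by
  intro k
  rw [map_add, Finsupp.add_apply, AddMemClass.coe_add]
  exact ⟨A.add_mem (hx k).1 (hy k).1,
    (IsUltrametricDist.norm_add_le_max _ _).trans (max_le (hx k).2 (hy k).2)⟩

theorem Sm.zero {δ : ℝ} (hδ : 0 ≤ δ) : Sm A β δ (0 : Fi ⊗[F] K) := by
  intro k
  rw [map_zero, Finsupp.zero_apply, ZeroMemClass.coe_zero, norm_zero]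
  exact ⟨A.zero_mem, hδ⟩

/-- coordinates of a product -/
theorem repr_mul (x y : Fi ⊗[F] K) (k : N) :
    (bs Fi β).repr (x * y) k =
      ∑ i, (bs Fi β).repr x i * (bs Fi β).repr (bs Fi β i * y) k := by
  conv_lhs => rw [← (bs Fi β).sum_repr x, Finset.sum_mul, map_sum, Finsupp.finsetSum_apply]
  refine Finset.sum_congr rfl fun i _ => ?_
  rw [smul_mul_assoc, map_smul, Finsupp.smul_apply, smul_eq_mul]

theorem repr_mul' (x y : Fi ⊗[F] K) (k : N) :
    (bs Fi β).repr (x * y) k =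
      ∑ i, ∑ j, (bs Fi β).repr x i * ((bs Fi β).repr y j *
        algebraMap F Fi (β.repr (β i * β j) k)) := by
  rw [repr_mul]
  refine Finset.sum_congr rfl fun i _ => ?_
  rw [mul_comm (bs Fi β i) y, repr_mul, Finset.mul_sum]
  refine Finset.sum_congr rfl fun j _ => ?_
  rw [bs_apply, bs_apply, Algebra.TensorProduct.tmul_mul_tmul, one_mul, bs_repr_tmul,
    mul_comm (β j)]

/-- a bound for the structure constants -/
theorem exists_M (β : Module.Basis N F K) : ∃ M : ℝ, 1 ≤ M ∧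
    ∀ i j k, ‖algebraMap F F0 (β.repr (β i * β j) k)‖ ≤ M := by
  obtain ⟨M, hM⟩ := (Set.finite_range fun x : N × N × N =>
    ‖algebraMap F F0 (β.repr (β x.1 * β x.2.1) x.2.2)‖).bddAbove
  exact ⟨max M 1, le_max_right _ _, fun i j k =>
    (hM ⟨(i, j, k), rfl⟩).trans (le_max_left _ _)⟩

theorem Sm.mul [IsUltrametricDist F0] (hH : Half B A Fi)
    (hβ : ∀ i j k, β.repr (β i * β j) k ∈ B) {M : ℝ} (hM1 : 1 ≤ M)
    (hM : ∀ i j k, ‖algebraMap F F0 (β.repr (β i * β j) k)‖ ≤ M) {δ δ' : ℝ} (hδ : 0 ≤ δ)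
    (hδ' : 0 ≤ δ') {x y : Fi ⊗[F] K} (hx : Sm A β δ x) (hy : Sm A β δ' y) :
    Sm A β (M * δ * δ') (x * y) := by
  intro k
  rw [repr_mul']
  simp only [AddSubmonoidClass.coe_finsetSum, MulMemClass.coe_mul]
  constructor
  · refine A.sum_mem fun i _ => A.sum_mem fun j _ => ?_
    exact A.mul_mem (hx i).1 (A.mul_mem (hy j).1 (hH.sub _ (hβ i j k)))
  · have h0 : 0 ≤ M * δ * δ' := mul_nonneg (mul_nonneg (by linarith) hδ) hδ'
    refine IsUltrametricDist.norm_sum_le_of_forall_le_of_nonneg h0 fun i _ => ?_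
    refine IsUltrametricDist.norm_sum_le_of_forall_le_of_nonneg h0 fun j _ => ?_
    rw [norm_mul, norm_mul]
    calc _ ≤ δ * (δ' * M) := by
          refine mul_le_mul (hx i).2 ?_ (by positivity) hδ
          exact mul_le_mul (hy j).2 (hM i j k) (norm_nonneg _) hδ'
      _ = M * δ * δ' := by ring

/-- powers of `1 + h` -/
theorem Sm.pow_sub_one [IsUltrametricDist F0] (hH : Half B A Fi)
    (hβ : ∀ i j k, β.repr (β i * β j) k ∈ B) {M : ℝ} (hM1 : 1 ≤ M)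
    (hM : ∀ i j k, ‖algebraMap F F0 (β.repr (β i * β j) k)‖ ≤ M) {δ : ℝ} (hδ : 0 ≤ δ)
    (hMδ : M * δ ≤ 1) {h : Fi ⊗[F] K} (hh : Sm A β δ h) (n : ℕ) :
    Sm A β δ ((1 + h) ^ n - 1) := by
  induction n with
  | zero =>
    rw [pow_zero, sub_self]
    exact Sm.zero hδ
  | succ n ih =>
    have h1 : (1 + h) ^ (n + 1) - 1 = ((1 + h) ^ n - 1) + ((1 + h) ^ n - 1) * h + h := by ring
    rw [h1]
    refine (ih.add ?_).add hh
    intro k
    have h2 := ih.mul hH hβ hM1 hM hδ hδ hh k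
    refine ⟨h2.1, h2.2.trans ?_⟩
    calc M * δ * δ ≤ 1 * δ := mul_le_mul_of_nonneg_right hMδ hδ
      _ = δ := one_mul δ

/-- multiplication by a fixed element: clear denominators -/
theorem exists_mul_clear [IsUltrametricDist F0] (hH : Half B A Fi) (y : Fi ⊗[F] K) :
    ∃ e ∈ B, e ≠ 0 ∧ ∃ M : ℝ, 0 < M ∧ ∀ (δ : ℝ), 0 ≤ δ → ∀ x : Fi ⊗[F] K,
      (∀ i, ∃ q ∈ A, ‖q‖ ≤ δ ∧ (((bs Fi β).repr x i : Fi) : F0) = algebraMap F F0 e * q) →
      Sm A β (M * δ) (x * y) := by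
  classical
  obtain ⟨e, he, he0, h⟩ := exists_clear' hH (Finset.univ : Finset (N × N)) fun x =>
    (bs Fi β).repr (bs Fi β x.1 * y) x.2
  obtain ⟨M, hM⟩ := (Set.finite_range fun x : N × N =>
    ‖algebraMap F F0 e * ((bs Fi β).repr (bs Fi β x.1 * y) x.2 : Fi)‖).bddAbove
  refine ⟨e, he, he0, max M 1, lt_max_of_lt_right zero_lt_one, fun δ hδ x hx k => ?_⟩
  choose q hq hqδ hqe using hx
  have h1 : (((bs Fi β).repr (x * y) k : Fi) : F0) =
      ∑ i, q i * (algebraMap F F0 e * ((bs Fi β).repr (bs Fi β i * y) k : Fi)) := by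
    rw [repr_mul]
    simp only [AddSubmonoidClass.coe_finsetSum, MulMemClass.coe_mul]
    refine Finset.sum_congr rfl fun i _ => ?_
    rw [hqe i]
    ring
  rw [h1]
  constructor
  · exact A.sum_mem fun i _ => A.mul_mem (hq i) (h (i, k) (Finset.mem_univ _))
  · have hM0 : (0 : ℝ) ≤ max M 1 := (zero_le_one).trans (le_max_right _ _)
    refine IsUltrametricDist.norm_sum_le_of_forall_le_of_nonneg (mul_nonneg hM0 hδ) fun i _ => ?_
    rw [norm_mul, mul_comm (max M 1)]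
    exact mul_le_mul (hqδ i) ((hM ⟨(i, k), rfl⟩).trans (le_max_left _ _)) (norm_nonneg _) hδ

/-- approximation of an element modulo `e A` -/
theorem exists_approx (hD : DivP B A) [IsUltrametricDist F0] (hH : Half B A Fi)
    (α : Fi ⊗[F] K) {e : F} (he : e ∈ B) (he0 : e ≠ 0) {δ : ℝ} (hδ : 0 < δ) :
    ∃ g : K, ∀ i, ∃ q ∈ A, ‖q‖ ≤ δ ∧
      (((bs Fi β).repr ((1 : Fi) ⊗ₜ[F] g - α) i : Fi) : F0) = algebraMap F F0 e * q := by
  classical
  have h1 : ∀ i, ∃ g : F, ∃ q ∈ A, ‖q‖ ≤ δ ∧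
      algebraMap F F0 g - (((bs Fi β).repr α i : Fi) : F0) = algebraMap F F0 e * q := by
    intro i
    obtain ⟨d, hd, hd0, hdm⟩ := exists_clear hH ((bs Fi β).repr α i)
    obtain ⟨r, hr, q, hq, hqδ, h2⟩ := hD.small hH (B.mul_mem hd he) (mul_ne_zero hd0 he0) hdm hδ
    have hd' : algebraMap F F0 d ≠ 0 := by rwa [Ne, map_eq_zero]
    refine ⟨r / d, -q, A.neg_mem hq, by rw [norm_neg]; exact hqδ.le, ?_⟩
    rw [map_mul] at h2
    rw [map_div₀, div_sub' hd', div_eq_iff hd', h2]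
    ring
  choose g q hq hqδ hg using h1
  refine ⟨∑ i, g i • β i, fun i => ⟨q i, hq i, hqδ i, ?_⟩⟩
  rw [map_sub, Finsupp.sub_apply, bs_repr_tmul, AddSubgroupClass.coe_sub]
  have h2 : β.repr (∑ i, g i • β i) i = g i := by
    rw [Module.Basis.repr_sum_self]
  rw [h2]
  exact hg i

/-- **approximation of a unit** -/
theorem exists_near_unit (hD : DivP B A) [IsUltrametricDist F0] (hH : Half B A Fi)
    {α : Fi ⊗[F] K} (hα : IsUnit α) {δ : ℝ} (hδ : 0 < δ) :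
    ∃ (g : K) (h : Fi ⊗[F] K), Sm A β δ h ∧ (1 : Fi) ⊗ₜ[F] g = α * (1 + h) := by
  obtain ⟨α', hα'⟩ := hα.exists_right_inv
  obtain ⟨e, he, he0, M, hM, h⟩ := exists_mul_clear (β := β) hH α'
  obtain ⟨g, hg⟩ := exists_approx (β := β) hD hH α he he0 (div_pos hδ hM)
  have h1 := h (δ / M) (div_pos hδ hM).le _ hg
  rw [mul_div_cancel₀ _ hM.ne'] at h1
  refine ⟨g, _, h1, ?_⟩
  have h2 : α * (((1 : Fi) ⊗ₜ[F] g - α) * α') = (α * α') * ((1 : Fi) ⊗ₜ[F] g - α) := by ring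
  rw [mul_add, mul_one, h2, hα', one_mul, add_sub_cancel]

/-- an element of `K` which is an `n`-th power in `Fi ⊗ K` is nearly an `n`-th power in `K` -/
theorem exists_pow_near (hD : DivP B A) [IsUltrametricDist F0] (hH : Half B A Fi)
    (hβ : ∀ i j k, β.repr (β i * β j) k ∈ B) {M : ℝ} (hM1 : 1 ≤ M)
    (hM : ∀ i j k, ‖algebraMap F F0 (β.repr (β i * β j) k)‖ ≤ M) {δ : ℝ} (hδ : 0 < δ)
    (hMδ : M * δ ≤ 1) {n : ℕ} (hn : n ≠ 0) {f : K} (hf : f ≠ 0) {α : Fi ⊗[F] K}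
    (hα : α ^ n = (1 : Fi) ⊗ₜ[F] f) : ∃ g : K, ∀ i,
      algebraMap F F0 (β.repr (g ^ n / f - 1) i) ∈ A ∧
      ‖algebraMap F F0 (β.repr (g ^ n / f - 1) i)‖ ≤ δ := by
  obtain ⟨g, h, hh, hg⟩ := exists_near_unit (β := β) hD hH (isUnit_of_pow_eq hn hf hα) hδ
  refine ⟨g, fun i => ?_⟩
  have h3 := hh.pow_sub_one hH hβ hM1 hM hδ.le hMδ n i
  rw [← tmul_pow_div hf hα hg, bs_repr_tmul] at h3
  exact h3

end lat

end P025H970
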