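import Vale.Agent.P025.R2.H507.Base
import Vale.Agent.P025.R2.H970.Lattice

/-!
# P025 G-LA-b: density lemma (helper970): `half1`, `half2`, `dens_pow` of helper507's `DensSpec`
-/

open Polynomial P025H373

universe u

namespace P025H970

section lat2

variable {C F F0 : Type*} [NormedField C] [Field F] [NormedField F0]
  [Algebra C F] [Algebra F F0] [NormedAlgebra C F0] [IsScalarTower C F F0]
  {A : Subalgebra C F0} {Fi : IntermediateField F F0}
  {R : Type*} [CommRing R] [Algebra Fi R] {N : Type*} [Fintype N] {b : Module.Basis N Fi R}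

/-- small elements of the lattice with basis `b` -/
def Sm2 (A : Subalgebra C F0) (b : Module.Basis N Fi R) (δ : ℝ) (x : R) : Prop :=
  ∀ k, ((b.repr x k : Fi) : F0) ∈ A ∧ ‖((b.repr x k : Fi) : F0)‖ ≤ δ

theorem Sm2.add [IsUltrametricDist F0] {δ : ℝ} {x y : R} (hx : Sm2 A b δ x)
    (hy : Sm2 A b δ y) : Sm2 A b δ (x + y) := by
  intro k
  rw [map_add, Finsupp.add_apply, AddMemClass.coe_add]
  exact ⟨A.add_mem (hx k).1 (hy k).1,
    (IsUltrametricDist.norm_add_le_max _ _).trans (max_le (hx k).2 (hy k).2)⟩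

theorem Sm2.zero {δ : ℝ} (hδ : 0 ≤ δ) : Sm2 A b δ (0 : R) := by
  intro k
  rw [map_zero, Finsupp.zero_apply, ZeroMemClass.coe_zero, norm_zero]
  exact ⟨A.zero_mem, hδ⟩

theorem repr_mul2 (x y : R) (k : N) :
    b.repr (x * y) k = ∑ i, b.repr x i * b.repr (b i * y) k := by
  conv_lhs => rw [← b.sum_repr x, Finset.sum_mul, map_sum, Finsupp.finsetSum_apply]
  refine Finset.sum_congr rfl fun i _ => ?_
  rw [smul_mul_assoc, map_smul, Finsupp.smul_apply, smul_eq_mul]

theorem repr_mul2' (x y : R) (k : N) :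
    b.repr (x * y) k = ∑ i, ∑ j, b.repr x i * (b.repr y j * b.repr (b i * b j) k) := by
  rw [repr_mul2]
  refine Finset.sum_congr rfl fun i _ => ?_
  rw [mul_comm (b i) y, repr_mul2, Finset.mul_sum]
  refine Finset.sum_congr rfl fun j _ => ?_
  rw [mul_comm (b j)]

theorem Sm2.mul [IsUltrametricDist F0] (hb : ∀ i j, Sm2 A b 1 (b i * b j)) {δ δ' : ℝ} (hδ : 0 ≤ δ)
    (hδ' : 0 ≤ δ') {x y : R} (hx : Sm2 A b δ x) (hy : Sm2 A b δ' y) :
    Sm2 A b (δ * δ') (x * y) := by
  intro k
  rw [repr_mul2']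
  simp only [AddSubmonoidClass.coe_finsetSum, MulMemClass.coe_mul]
  constructor
  · refine A.sum_mem fun i _ => A.sum_mem fun j _ => ?_
    exact A.mul_mem (hx i).1 (A.mul_mem (hy j).1 (hb i j k).1)
  · have h0 : 0 ≤ δ * δ' := mul_nonneg hδ hδ'
    refine IsUltrametricDist.norm_sum_le_of_forall_le_of_nonneg h0 fun i _ => ?_
    refine IsUltrametricDist.norm_sum_le_of_forall_le_of_nonneg h0 fun j _ => ?_
    rw [norm_mul, norm_mul]
    refine mul_le_mul (hx i).2 ?_ (by positivity) hδ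
    calc _ ≤ δ' * 1 := mul_le_mul (hy j).2 (hb i j k).2 (norm_nonneg _) hδ'
      _ = δ' := mul_one _

theorem Sm2.pow_sub_one [IsUltrametricDist F0] (hb : ∀ i j, Sm2 A b 1 (b i * b j)) {δ : ℝ}
    (hδ : 0 ≤ δ) (hδ1 : δ ≤ 1) {h : R} (hh : Sm2 A b δ h) (n : ℕ) :
    Sm2 A b δ ((1 + h) ^ n - 1) := by
  induction n with
  | zero =>
    rw [pow_zero, sub_self]
    exact Sm2.zero hδ
  | succ n ih =>
    have h1 : (1 + h) ^ (n + 1) - 1 = ((1 + h) ^ n - 1) + ((1 + h) ^ n - 1) * h + h := by ring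
    rw [h1]
    refine (ih.add ?_).add hh
    intro k
    have h2 := ih.mul hb hδ hδ hh k
    refine ⟨h2.1, h2.2.trans ?_⟩
    calc δ * δ ≤ 1 * δ := mul_le_mul_of_nonneg_right hδ1 hδ
      _ = δ := one_mul δ

/-- common denominators -/
theorem exists_den {ι : Type*} (hden : ∀ f ∈ Fi, ∃ D : F, D ≠ 0 ∧ algebraMap F F0 D ∈ A ∧
    algebraMap F F0 D * f ∈ A) (s : Finset ι) (m : ι → Fi) :
    ∃ e : F, e ≠ 0 ∧ algebraMap F F0 e ∈ A ∧ ∀ i ∈ s, algebraMap F F0 e * m i ∈ A := by
  classical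
  induction s using Finset.induction_on with
  | empty => exact ⟨1, one_ne_zero, by rw [map_one]; exact A.one_mem,
      fun i hi => absurd hi (Finset.notMem_empty i)⟩
  | insert a s ha ih =>
    obtain ⟨d, hd0, hd, h⟩ := ih
    obtain ⟨b', hb'0, hb', h1⟩ := hden (m a) (m a).2
    refine ⟨d * b', mul_ne_zero hd0 hb'0, by rw [map_mul]; exact A.mul_mem hd hb',
      fun i hi => ?_⟩
    rw [map_mul]
    rcases Finset.mem_insert.1 hi with rfl | hi
    · rw [mul_assoc]
      exact A.mul_mem hd h1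
    · rw [mul_right_comm]
      exact A.mul_mem (h i hi) hb'

/-- approximation of a unit of `R` by an element with coordinates in `F` -/
theorem exists_near_unit2 [IsUltrametricDist F0]
    (happ : ∀ f ∈ Fi, ∀ ε : ℝ, 0 < ε → ∃ g : F, f - algebraMap F F0 g ∈ A ∧
      ‖f - algebraMap F F0 g‖ < ε)
    (hden : ∀ f ∈ Fi, ∃ D : F, D ≠ 0 ∧ algebraMap F F0 D ∈ A ∧ algebraMap F F0 D * f ∈ A)
    {α α' : R} (hα : α * α' = 1) {δ : ℝ} (hδ : 0 < δ) :
    ∃ (c : N → F) (h : R), Sm2 A b δ h ∧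
      ∑ i, algebraMap F Fi (c i) • b i = α * (1 + h) := by
  classical
  obtain ⟨e, he0, he, h⟩ := exists_den hden (Finset.univ : Finset (N × N)) fun x =>
    b.repr (b x.1 * α') x.2
  obtain ⟨M, hM⟩ := (Set.finite_range fun x : N × N =>
    ‖algebraMap F F0 e * (b.repr (b x.1 * α') x.2 : Fi)‖).bddAbove
  have hM1 : (0 : ℝ) < max M 1 := lt_max_of_lt_right zero_lt_one
  have he' : algebraMap F Fi e ≠ 0 := by rwa [Ne, map_eq_zero]
  have hex : ∀ i, ∃ g : F, (((b.repr α i / algebraMap F Fi e : Fi) : F0) - algebraMap F F0 g ∈ A) ∧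
      ‖((b.repr α i / algebraMap F Fi e : Fi) : F0) - algebraMap F F0 g‖ < δ / max M 1 :=
    fun i => happ _ (b.repr α i / algebraMap F Fi e : Fi).2 _ (div_pos hδ hM1)
  choose g hg hgn using hex
  let q : N → Fi := fun i => algebraMap F Fi (g i) - b.repr α i / algebraMap F Fi e
  have hq : ∀ i, ((q i : Fi) : F0) ∈ A ∧ ‖((q i : Fi) : F0)‖ ≤ δ / max M 1 := by
    intro i
    have h1 : ((q i : Fi) : F0) =
        -(((b.repr α i / algebraMap F Fi e : Fi) : F0) - algebraMap F F0 (g i)) := by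
      rw [neg_sub]
      rfl
    rw [h1, norm_neg]
    exact ⟨A.neg_mem (hg i), (hgn i).le⟩
  let w : R := ∑ i, algebraMap F Fi (e * g i) • b i
  have hw : ∀ i, b.repr (w - α) i = algebraMap F Fi e * q i := by
    intro i
    rw [map_sub, Finsupp.sub_apply, Module.Basis.repr_sum_self, map_mul]
    change _ = algebraMap F Fi e * (algebraMap F Fi (g i) - b.repr α i / algebraMap F Fi e)
    rw [mul_sub, mul_div_cancel₀ _ he']
  refine ⟨fun i => e * g i, (w - α) * α', fun k => ?_, ?_⟩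
  · have h1 : ((b.repr ((w - α) * α') k : Fi) : F0) =
        ∑ i, (q i : F0) * (algebraMap F F0 e * (b.repr (b i * α') k : Fi)) := by
      rw [repr_mul2]
      simp only [AddSubmonoidClass.coe_finsetSum, MulMemClass.coe_mul]
      refine Finset.sum_congr rfl fun i _ => ?_
      rw [hw i, MulMemClass.coe_mul]
      change algebraMap F F0 e * (q i : F0) * _ = _
      ring
    rw [h1]
    constructor
    · exact A.sum_mem fun i _ => A.mul_mem (hq i).1 (h (i, k) (Finset.mem_univ _))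
    · refine IsUltrametricDist.norm_sum_le_of_forall_le_of_nonneg hδ.le fun i _ => ?_
      rw [norm_mul]
      calc _ ≤ δ / max M 1 * max M 1 := by
            refine mul_le_mul (hq i).2 ?_ (norm_nonneg _) (div_pos hδ hM1).le
            exact (hM ⟨(i, k), rfl⟩).trans (le_max_left _ _)
        _ = δ := div_mul_cancel₀ _ hM1.ne'
  · change w = _
    have h2 : α * ((w - α) * α') = (α * α') * (w - α) := by ring
    rw [mul_add, mul_one, h2, hα, one_mul, add_sub_cancel]

end lat2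

end P025H970

namespace P025H507

variable {C : Type u} [NontriviallyNormedField C] [IsUltrametricDist C] [CompleteSpace C]
  [IsAlgClosed C]

structure Half (A : Subalgebra C (F0 C)) (F : IntermediateField (RatFunc C) (F0 C)) : Prop where
  approx : ∀ f ∈ F, ∀ ε > 0, ∃ g : RatFunc C, f - algebraMap (RatFunc C) (F0 C) g ∈ A ∧
    ‖f - algebraMap (RatFunc C) (F0 C) g‖ < ε
  denom : ∀ f ∈ F, ∃ D : RatFunc C, D ≠ 0 ∧ algebraMap (RatFunc C) (F0 C) D ∈ A ∧
    algebraMap (RatFunc C) (F0 C) D * f ∈ A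

theorem half_of {B : Subalgebra C (RatFunc C)} {A : Subalgebra C (F0 C)}
    {F : IntermediateField (RatFunc C) (F0 C)} (hH : P025H731.Half B A F)
    (hD : P025H970.DivP B A) : Half A F where
  approx f hf ε hε := by
    obtain ⟨e, he, he0, h⟩ := P025H970.exists_clear hH ⟨f, hf⟩
    obtain ⟨r, hr, q, hq, hqε, h1⟩ := hD.small hH he he0 h hε
    have he' : algebraMap (RatFunc C) (F0 C) e ≠ 0 := by rwa [Ne, map_eq_zero]
    have h2 : f - algebraMap (RatFunc C) (F0 C) (r / e) = q := by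
      have h3 : algebraMap (RatFunc C) (F0 C) e * f =
        algebraMap (RatFunc C) (F0 C) r + algebraMap (RatFunc C) (F0 C) e * q := h1
      rw [map_div₀, sub_div' he', div_eq_iff he']
      linear_combination h3
    exact ⟨r / e, by rwa [h2], by rwa [h2]⟩
  denom f hf := by
    obtain ⟨e, he, he0, h⟩ := P025H970.exists_clear hH ⟨f, hf⟩
    exact ⟨e, he0, hH.sub e he, h⟩

theorem half1 : Half (A1 C) (F1 C) := half_of (P025H731.half1 C) (P025H970.div1 C)

theorem half2 : Half (A2 C) (F2 C) := half_of (P025H731.half2 C) (P025H970.div2 C)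

theorem dens_pow {A : Subalgebra C (F0 C)} {F : IntermediateField (RatFunc C) (F0 C)}
    (hAF : Half A F) {K K2 : Type*} [CommRing K] [Algebra (RatFunc C) K] [CommRing K2]
    [Algebra F K2] (g : K →+* K2)
    (hg : ∀ r : RatFunc C, g (algebraMap (RatFunc C) K r) =
      algebraMap F K2 (algebraMap (RatFunc C) F r))
    {n : ℕ} (hn : n ≠ 0) {y : K} (b : Module.Basis (Fin n) (RatFunc C) K) (hb : ∀ i, b i = y ^ (i : ℕ))
    (b2 : Module.Basis (Fin n) F K2) (hb2 : ∀ i, b2 i = (g y) ^ (i : ℕ))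
    {f : RatFunc C} (hf : f ∈ OO A) (hy : y ^ n = algebraMap (RatFunc C) K f)
    {l : ℕ} (hl : l ≠ 0) {x : K} (hx : IsUnit x) {z : K2} (hz : z ^ l = g x)
    {η : C} (hη : η ≠ 0) :
    ∃ z0 δ : K, IntOver A (algebraMap (RatFunc C) K) δ ∧
      z0 ^ l = x * (1 + algebraMap (RatFunc C) K (RatFunc.C η) * δ) := by
  classical
  -- structure constants
  have hgy : (g y) ^ n = algebraMap F K2 (algebraMap (RatFunc C) F f) := by
    rw [← map_pow, hy, hg]
  have hb1 : ∀ i j, P025H970.Sm2 A b2 1 (b2 i * b2 j) := by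
    intro i j k
    by_cases hij : (i : ℕ) + j < n
    · have h1 : b2 i * b2 j = b2 ⟨(i : ℕ) + j, hij⟩ := by rw [hb2, hb2, hb2, pow_add]
      rw [h1, Module.Basis.repr_self, Finsupp.single_apply]
      split_ifs
      · exact ⟨A.one_mem, by rw [OneMemClass.coe_one, norm_one]⟩
      · exact ⟨A.zero_mem, by rw [ZeroMemClass.coe_zero, norm_zero]; exact zero_le_one⟩
    · have hlt : (i : ℕ) + j - n < n := by have := i.2; have := j.2; omega
      have h1 : b2 i * b2 j = algebraMap (RatFunc C) F f • b2 ⟨(i : ℕ) + j - n, hlt⟩ := by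
        rw [hb2, hb2, hb2, Algebra.smul_def, ← hgy, ← pow_add, ← pow_add]
        congr 1
        change (i : ℕ) + j = n + ((i : ℕ) + j - n)
        omega
      rw [h1, map_smul, Finsupp.smul_apply, Module.Basis.repr_self, Finsupp.single_apply,
        smul_eq_mul]
      split_ifs
      · rw [mul_one]
        exact ⟨hf.1, hf.2⟩
      · rw [mul_zero]
        exact ⟨A.zero_mem, by rw [ZeroMemClass.coe_zero, norm_zero]; exact zero_le_one⟩
  -- coordinates
  have hco : ∀ (w : K) (k : Fin n), b2.repr (g w) k = algebraMap (RatFunc C) F (b.repr w k) := by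
    intro w k
    conv_lhs => rw [← b.sum_repr w]
    have h1 : g (∑ i, b.repr w i • b i) = ∑ i, algebraMap (RatFunc C) F (b.repr w i) • b2 i := by
      rw [map_sum]
      refine Finset.sum_congr rfl fun i _ => ?_
      rw [Algebra.smul_def, map_mul, hg, hb, map_pow, ← hb2, ← Algebra.smul_def]
    rw [h1, Module.Basis.repr_sum_self]
  -- the approximation
  obtain ⟨x', hx'⟩ := hx.exists_right_inv
  have hzu : z * (z ^ (l - 1) * g x') = 1 := by
    rw [← mul_assoc, ← pow_succ', Nat.sub_add_cancel (Nat.one_le_iff_ne_zero.2 hl), hz, ← map_mul,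
      hx', map_one]
  set δ' : ℝ := min ‖η‖ 1 with hδ'
  have hδ'0 : 0 < δ' := lt_min (norm_pos_iff.2 hη) zero_lt_one
  obtain ⟨c, h, hh, hc⟩ := P025H970.exists_near_unit2 (b := b2) hAF.approx hAF.denom hzu hδ'0
  set z0 : K := ∑ i, c i • b i with hz0
  have hgz0 : g z0 = z * (1 + h) := by
    rw [← hc, hz0, map_sum]
    refine Finset.sum_congr rfl fun i _ => ?_
    rw [Algebra.smul_def, map_mul, hg, hb, map_pow, ← hb2, ← Algebra.smul_def]
  have hu := hh.pow_sub_one hb1 hδ'0.le (min_le_right _ _) l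
  have hgw : g (x' * z0 ^ l - 1) = (1 + h) ^ l - 1 := by
    rw [map_sub, map_mul, map_pow, hgz0, mul_pow, hz, map_one, ← mul_assoc, ← map_mul, mul_comm x',
      hx', map_one, one_mul]
  set w : K := x' * z0 ^ l - 1 with hw
  have hηr : (RatFunc.C η : RatFunc C) ≠ 0 := by rwa [Ne, map_eq_zero]
  refine ⟨z0, algebraMap (RatFunc C) K (RatFunc.C η)⁻¹ * w, ?_, ?_⟩
  · -- integrality
    have hyi : IntOver A (algebraMap (RatFunc C) K) y :=
      IntOver.of_pow hn (by rw [hy]; exact IntOver.of_mem hf)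
    have h1 : algebraMap (RatFunc C) K (RatFunc.C η)⁻¹ * w =
        ∑ i, algebraMap (RatFunc C) K ((RatFunc.C η)⁻¹ * b.repr w i) * y ^ (i : ℕ) := by
      conv_lhs => rw [← b.sum_repr w, Finset.mul_sum]
      refine Finset.sum_congr rfl fun i _ => ?_
      rw [Algebra.smul_def, ← mul_assoc, ← map_mul, hb]
    rw [h1]
    refine IntOver.sum _ fun i _ => (IntOver.of_mem ?_).mul (hyi.pow _)
    have h2 := hu i
    rw [← hgw, hco] at h2
    have h3 : ((algebraMap (RatFunc C) F (b.repr w i) : F) : F0 C) =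
      algebraMap (RatFunc C) (F0 C) (b.repr w i) := rfl
    rw [h3] at h2
    have h4 : (RatFunc.C η)⁻¹ = (RatFunc.C η⁻¹ : RatFunc C) := (map_inv₀ _ _).symm
    rw [mem_OO, h4, map_mul, norm_mul]
    constructor
    · exact A.mul_mem (A.algebraMap_mem η⁻¹) h2.1
    · rw [← algebraMap_C_eq, norm_algebraMap_C, norm_inv]
      have h5 : ‖η‖⁻¹ * ‖algebraMap (RatFunc C) (F0 C) (b.repr w i)‖ ≤ ‖η‖⁻¹ * ‖η‖ :=
        mul_le_mul_of_nonneg_left (h2.2.trans (min_le_left _ _)) (by positivity)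
      rwa [inv_mul_cancel₀ (norm_ne_zero_iff.2 hη)] at h5
  · rw [← mul_assoc (algebraMap (RatFunc C) K (RatFunc.C η)), ← map_mul, mul_inv_cancel₀ hηr,
      map_one, one_mul, hw, add_sub_cancel, ← mul_assoc, hx', one_mul]

end P025H507
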