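import Vale.Agent.P025.R2.H621.Defs

/-!
# P025 G-DICT: values of functions at places, the value bound (helper970)
-/

open Vale.Agent.P019P P025H621

universe u

namespace P025H970

section vl

variable {C K : Type*} [Field C] [Field K] [Algebra C K] [CFF C K] {P : Plk C K}

/-- `z` is regular at `P` with value `c` -/
def Vl (P : Plk C K) (z : K) (c : C) : Prop := z - algebraMap C K c ∈ Mge P 1

theorem const_mem_Mge (c : C) : algebraMap C K c ∈ Mge P 0 :=
  mem_Mge.2 (Or.inr (ord_const P c).ge)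

theorem Vl.mem {z : K} {c : C} (h : Vl P z c) : z ∈ Mge P 0 := by
  have h1 : z = (z - algebraMap C K c) + algebraMap C K c := by ring
  rw [h1]
  exact Submodule.add_mem _ (Mge_mono P zero_le_one h) (const_mem_Mge c)

theorem vl_const (c : C) : Vl P (algebraMap C K c) c := by
  rw [Vl, sub_self]
  exact Submodule.zero_mem _

theorem vl_one : Vl P 1 (1 : C) := by
  have h := vl_const (P := P) (1 : C)
  rwa [map_one] at h

theorem vl_zero : Vl P 0 (0 : C) := by
  have h := vl_const (P := P) (0 : C)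
  rwa [map_zero] at h

theorem Vl.add {z w : K} {c d : C} (hz : Vl P z c) (hw : Vl P w d) : Vl P (z + w) (c + d) := by
  rw [Vl, map_add]
  have h := Submodule.add_mem _ hz hw
  rwa [show z - algebraMap C K c + (w - algebraMap C K d) =
    z + w - (algebraMap C K c + algebraMap C K d) by ring] at h

theorem Vl.neg {z : K} {c : C} (hz : Vl P z c) : Vl P (-z) (-c) := by
  rw [Vl, map_neg]
  have h := Submodule.neg_mem _ hz
  rwa [show -(z - algebraMap C K c) = -z - -algebraMap C K c by ring] at h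

theorem Vl.sub {z w : K} {c d : C} (hz : Vl P z c) (hw : Vl P w d) : Vl P (z - w) (c - d) := by
  rw [sub_eq_add_neg, sub_eq_add_neg]
  exact hz.add hw.neg

theorem Vl.mul {z w : K} {c d : C} (hz : Vl P z c) (hw : Vl P w d) : Vl P (z * w) (c * d) := by
  rw [Vl, map_mul]
  have h1 := mul_mem_Mge hz hw.mem
  have h2 := mul_mem_Mge (const_mem_Mge (P := P) c) hw
  rw [add_zero] at h1
  rw [zero_add] at h2
  have h := Submodule.add_mem _ h1 h2
  rwa [show (z - algebraMap C K c) * w + algebraMap C K c * (w - algebraMap C K d) =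
    z * w - algebraMap C K c * algebraMap C K d by ring] at h

theorem Vl.sum {ι : Type*} {s : Finset ι} {z : ι → K} {c : ι → C} (h : ∀ i ∈ s, Vl P (z i) (c i)) :
    Vl P (∑ i ∈ s, z i) (∑ i ∈ s, c i) := by
  classical
  induction s using Finset.induction_on with
  | empty =>
    rw [Finset.sum_empty, Finset.sum_empty]
    exact vl_zero
  | insert i s hi ih =>
    rw [Finset.sum_insert hi, Finset.sum_insert hi]
    exact (h i (Finset.mem_insert_self _ _)).add
      (ih fun j hj => h j (Finset.mem_insert_of_mem hj))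

theorem Vl.unique {z : K} {c d : C} (h : Vl P z c) (h' : Vl P z d) : c = d := by
  have h1 : algebraMap C K (c - d) ∈ Mge P 1 := by
    have h2 := Submodule.sub_mem _ h' h
    rwa [sub_sub_sub_cancel_left, ← map_sub] at h2
  rw [mem_Mge, map_eq_zero, ord_const] at h1
  rcases h1 with h2 | h2
  · exact sub_eq_zero.1 h2
  · omega

theorem exists_vl {z : K} (hz : z ∈ Mge P 0) : ∃ c : C, Vl P z c := by
  have h1 : z ∈ P.1 := (mem_iff_ord P z).2 (mem_Mge.1 hz)
  obtain ⟨c, hc | hc⟩ := exists_cst P h1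
  · exact ⟨c, by rw [Vl, hc, sub_self]; exact Submodule.zero_mem _⟩
  · exact ⟨c, mem_Mge.2 (Or.inr (by omega))⟩

theorem Vl.ne_zero {z : K} {c : C} (h : Vl P z c) (hc : c ≠ 0) : z ≠ 0 := by
  rintro rfl
  exact hc (h.unique vl_zero)

theorem Vl.ord_eq_zero {z : K} {c : C} (h : Vl P z c) (hc : c ≠ 0) : ord P z = 0 := by
  have h1 : algebraMap C K c ≠ 0 := by rwa [Ne, map_eq_zero]
  have h2 : z - algebraMap C K c ∈ Mge P (ord P (algebraMap C K c) + 1) := by
    rw [ord_const, zero_add]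
    exact h
  have h3 := (ord_add_of_lt h1 h2).2
  rwa [add_sub_cancel, ord_const] at h3

theorem Vl.inv {z : K} {c : C} (h : Vl P z c) (hc : c ≠ 0) : Vl P z⁻¹ c⁻¹ := by
  have hz := h.ne_zero hc
  have h1 : z⁻¹ ∈ Mge P 0 := mem_Mge.2 (Or.inr (by rw [ord_inv, h.ord_eq_zero hc, neg_zero]))
  obtain ⟨d, hd⟩ := exists_vl h1
  have h2 := h.mul hd
  rw [mul_inv_cancel₀ hz] at h2
  have h3 := h2.unique vl_one
  rwa [← eq_inv_of_mul_eq_one_right h3]

end vl

section ball

variable {C K : Type u} [NormedField C] [IsUltrametricDist C] [Field K] [Algebra C K] [CFF C K]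
  {P : Plk C K}

omit [IsUltrametricDist C] in
theorem inBall_iff {z : K} {a : C} {r : ℝ} : InBall P z a r ↔ ∃ c, ‖c - a‖ ≤ r ∧ Vl P z c := Iff.rfl

/-- **value bound**: eigenvalues of a matrix with small entries are small. -/
theorem inBall_of_eigen {N : Type*} [Fintype N] {β : N → K} (hβ : ∃ j, β j ≠ 0)
    {m : N → N → K} {z : K} {δ : ℝ} (hδ : 0 ≤ δ) (hm : ∀ j k, InBall P (m j k) 0 δ)
    (h : ∀ j, z * β j = ∑ k, m j k * β k) : InBall P z 0 δ := by
  classical
  choose μ hμ hμ'' using hm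
  have hμ' : ∀ j k, Vl P (m j k) (μ j k) := hμ''
  -- the coordinate of minimal order
  obtain ⟨j₀, hj₀, hmin⟩ : ∃ j, β j ≠ 0 ∧ ∀ k, β k ≠ 0 → ord P (β j) ≤ ord P (β k) := by
    obtain ⟨j, hj⟩ := hβ
    obtain ⟨i, hi, h1⟩ := (Finset.univ.filter fun k => β k ≠ 0).exists_min_image
      (fun k => ord P (β k)) ⟨j, by simp [hj]⟩
    exact ⟨i, (Finset.mem_filter.1 hi).2, fun k hk => h1 k (by simp [hk])⟩
  have hreg : ∀ k, β k / β j₀ ∈ Mge P 0 := by
    intro k
    by_cases hk : β k = 0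
    · rw [hk, zero_div]
      exact Submodule.zero_mem _
    · refine mem_Mge.2 (Or.inr ?_)
      rw [div_eq_mul_inv, ord_mul P hk (inv_ne_zero hj₀), ord_inv]
      have := hmin k hk
      omega
  choose v hv using fun k => exists_vl (hreg k)
  have hv0 : v j₀ = 1 := by
    have h1 := hv j₀
    rw [div_self hj₀] at h1
    exact h1.unique vl_one
  have heq : ∀ j, z * (β j / β j₀) = ∑ k, m j k * (β k / β j₀) := by
    intro j
    rw [← mul_div_assoc, h j, Finset.sum_div]
    exact Finset.sum_congr rfl fun k _ => by rw [mul_div_assoc]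
  have hz : z ∈ Mge P 0 := by
    have h1 := heq j₀
    rw [div_self hj₀, mul_one] at h1
    rw [h1]
    exact (Vl.sum fun k _ => (hμ' j₀ k).mul (hv k)).mem
  obtain ⟨ζ, hζ⟩ := exists_vl hz
  have hval : ∀ j, ζ * v j = ∑ k, μ j k * v k := by
    intro j
    have h1 := hζ.mul (hv j)
    rw [heq j] at h1
    exact h1.unique (Vl.sum fun k _ => (hμ' j k).mul (hv k))
  refine ⟨ζ, ?_, hζ⟩
  rw [sub_zero]
  obtain ⟨j₁, -, hmax⟩ := Finset.univ.exists_max_image (fun k => ‖v k‖) ⟨j₀, Finset.mem_univ _⟩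
  have hpos : 0 < ‖v j₁‖ := by
    have h1 := hmax j₀ (Finset.mem_univ _)
    rw [hv0, norm_one] at h1
    exact zero_lt_one.trans_le h1
  have h1 : ‖ζ‖ * ‖v j₁‖ ≤ δ * ‖v j₁‖ := by
    rw [← norm_mul, hval j₁]
    refine IsUltrametricDist.norm_sum_le_of_forall_le_of_nonneg
      (mul_nonneg hδ hpos.le) fun k _ => ?_
    rw [norm_mul]
    refine mul_le_mul ?_ (hmax k (Finset.mem_univ _)) (norm_nonneg _) hδ
    have h2 := hμ j₁ k
    rwa [sub_zero] at h2
  exact le_of_mul_le_mul_right h1 hpos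

/-- from `g ^ n / f` near one to `f / g ^ n` near one -/
theorem inBall_inv {z : K} {ε : ℝ} (hε : ε < 1) (h : InBall P (z - 1) 0 ε) : InBall P z⁻¹ 1 ε := by
  obtain ⟨c, hc, h1⟩ := h
  rw [sub_zero] at hc
  have h2 : Vl P z (c + 1) := by
    have h3 := Vl.add h1 vl_one
    rwa [sub_add_cancel] at h3
  have hc1 : ‖c‖ < 1 := hc.trans_lt hε
  have hn : ‖c + 1‖ = 1 := by
    rw [IsUltrametricDist.norm_add_eq_max_of_norm_ne_norm (by rw [norm_one]; exact hc1.ne),
      norm_one, max_eq_right hc1.le]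
  have hne : c + 1 ≠ 0 := by
    rw [← norm_ne_zero_iff, hn]
    exact one_ne_zero
  refine ⟨(c + 1)⁻¹, ?_, h2.inv hne⟩
  have h4 : (c + 1)⁻¹ - 1 = - c * (c + 1)⁻¹ := by
    field_simp
    ring
  rw [h4, norm_mul, norm_neg, norm_inv, hn, inv_one, mul_one]
  exact hc

end ball

end P025H970
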