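import Vale.Agent.P025.R2.H970.Lattice
import Vale.Agent.P025.R2.H970.ValB
import Vale.Agent.P025.R2.H725.OneVertex
import Vale.Agent.P025.R2.H492.Ext3

/-!
# P025 G-DICT (=>): `dict1_to`, `dict2_to` of helper621's `Spec7` (helper970)
-/

open Polynomial TensorProduct Vale.Agent.P019P P025H373 P025H492 P025H621 P025H725 P025H731

universe u

namespace P025H970

variable {C K : Type u} [NontriviallyNormedField C] [IsUltrametricDist C] [CompleteSpace C]
  [IsAlgClosed C] [Field K] [Algebra C K] [CFF C K] [Algebra (RatFunc C) K]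
  [IsScalarTower C (RatFunc C) K] [FiniteDimensional (RatFunc C) K]
  {B : Subalgebra C (RatFunc C)} {A : Subalgebra C (F0 C)} {Fi : IntermediateField (RatFunc C) (F0 C)}

/-- values of the elements of `C(t) ∩ A` -/
theorem inBall_of_mem (hH : Half B A Fi) {P : Plk C K} {s : RatFunc C}
    (hp : Pnt (F0 C) B (ord (down (RatFunc C) P)) s) {m : RatFunc C}
    (hm : algebraMap (RatFunc C) (F0 C) m ∈ A) {δ : ℝ}
    (hδ : ‖algebraMap (RatFunc C) (F0 C) m‖ ≤ δ) :
    InBall P (algebraMap (RatFunc C) K m) 0 δ := by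
  obtain ⟨c, f', hf', h1⟩ := hp.exists_dec hH hm
  have hc := hp.norm_const_le hH c hf'
  rw [← h1] at hc
  refine ⟨c, by rw [sub_zero]; exact hc.trans hδ, ?_⟩
  have h2 : algebraMap (RatFunc C) K m - algebraMap C K c =
      algebraMap (RatFunc C) K (m - algebraMap C (RatFunc C) c) := by
    rw [map_sub, ← IsScalarTower.algebraMap_apply]
  rw [h2]
  by_cases h0 : m - algebraMap C (RatFunc C) c = 0
  · rw [h0, map_zero]
    exact Submodule.zero_mem _
  set w : RatFunc C := (m - algebraMap C (RatFunc C) c) / s with hw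
  have hw0 : w ≠ 0 := div_ne_zero h0 hp.s0
  have hws : m - algebraMap C (RatFunc C) c = s * w := by rw [hw, mul_div_cancel₀ _ hp.s0]
  have hs' : algebraMap (RatFunc C) (F0 C) s ≠ 0 := by
    rw [Ne, map_eq_zero]
    exact hp.s0
  have hwf : algebraMap (RatFunc C) (F0 C) w = f' := by
    rw [hw, map_div₀, div_eq_iff hs', map_sub, h1, ← IsScalarTower.algebraMap_apply]
    ring
  have h3 : 0 ≤ ord (down (RatFunc C) P) w := by
    rw [← hp.wi_algebraMap hH w]
    refine hp.wi_nonneg hH ?_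
    change algebraMap (RatFunc C) (F0 C) w ∈ A
    rw [hwf]
    exact hf'
  have h4 : 0 < ord (down (RatFunc C) P) (m - algebraMap C (RatFunc C) c) := by
    rw [hws, ord_mul _ hp.s0 hw0, hp.ws]
    omega
  have h5 := (ord_up_pos_iff P (m - algebraMap C (RatFunc C) c)).2 h4
  exact mem_Mge.2 (Or.inr (by omega))

/-- the implication from powers in `Fi ⊗ K` to approximate powers at the places of a side -/
theorem powOn_of_powIn (hH : Half B A Fi) (hD : DivP B A) {S : Set (Plk C K)}
    (hS : ∀ P ∈ S, ∃ s, Pnt (F0 C) B (ord (down (RatFunc C) P)) s) (hne : S.Nonempty) {n : ℕ}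
    (hn : n ≠ 0) {f : K} (hf : f ≠ 0) (h : PowIn (RatFunc C) Fi n f) {ε : ℝ} (hε : 0 < ε) :
    PowOn n ε S f := by
  classical
  obtain ⟨α, hα⟩ := h
  obtain ⟨β, hβ⟩ := exists_basis (B := B) hH.frac K
  obtain ⟨M, hM1, hM⟩ := exists_M (F0 := F0 C) β
  have hM0 : 0 < M := zero_lt_one.trans_le hM1
  set ε' : ℝ := min ε (1 / 2) with hε'
  have hε'0 : 0 < ε' := lt_min hε (by norm_num)
  have hε'1 : ε' < 1 := (min_le_right _ _).trans_lt (by norm_num)
  have hδ : 0 < ε' / M := div_pos hε'0 hM0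
  have hMδ : M * (ε' / M) = ε' := mul_div_cancel₀ _ hM0.ne'
  obtain ⟨g, hco⟩ := exists_pow_near (β := β) hD hH hβ hM1 hM hδ (by rw [hMδ]; exact hε'1.le)
    hn hf hα
  set z : K := g ^ n / f with hz
  have hball : ∀ P ∈ S, InBall P (z - 1) 0 ε' := by
    intro P hP
    obtain ⟨s, hp⟩ := hS P hP
    refine inBall_of_eigen (β := β) (m := fun j k => algebraMap (RatFunc C) K
      (∑ i, β.repr (z - 1) i * β.repr (β i * β j) k)) ?_ hε'0.le ?_ ?_
    · have h1 : 0 < Module.finrank (RatFunc C) K := Module.finrank_pos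
      exact ⟨⟨0, h1⟩, β.ne_zero _⟩
    · intro j k
      refine inBall_of_mem hH hp ?_ ?_
      · rw [map_sum]
        refine A.sum_mem fun i _ => ?_
        rw [map_mul]
        exact A.mul_mem (hco i).1 (hH.sub _ (hβ i j k))
      · rw [map_sum]
        refine IsUltrametricDist.norm_sum_le_of_forall_le_of_nonneg hε'0.le fun i _ => ?_
        rw [map_mul, norm_mul, ← hMδ, mul_comm M]
        exact mul_le_mul (hco i).2 (hM i j k) (norm_nonneg _) hδ.le
    · intro j
      conv_lhs => rw [← β.sum_repr (z - 1), Finset.sum_mul]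
      have h1 : ∀ i, β.repr (z - 1) i • β i * β j =
          ∑ k, (β.repr (z - 1) i * β.repr (β i * β j) k) • β k := by
        intro i
        rw [smul_mul_assoc]
        conv_lhs => rw [← β.sum_repr (β i * β j), Finset.smul_sum]
        exact Finset.sum_congr rfl fun k _ => by rw [smul_smul]
      rw [Finset.sum_congr rfl fun i _ => h1 i, Finset.sum_comm]
      refine Finset.sum_congr rfl fun k _ => ?_
      rw [← Finset.sum_smul, Algebra.smul_def]
  have hg0 : g ≠ 0 := by
    rintro rfl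
    obtain ⟨P, hP⟩ := hne
    obtain ⟨c, hc, hc'⟩ := hball P hP
    have h1 : z - 1 = algebraMap C K (-1) := by
      rw [hz, zero_pow hn, zero_div, zero_sub, map_neg, map_one]
    have h2 : Vl P (z - 1) (-1) := by
      rw [h1]
      exact vl_const _
    have h3 := Vl.unique (show Vl P (z - 1) c from hc') h2
    rw [h3, sub_zero, norm_neg, norm_one] at hc
    exact absurd hc (not_le.2 hε'1)
  refine ⟨g, hg0, fun P hP => ?_⟩
  have h1 := inBall_inv hε'1 (hball P hP)
  rw [hz, inv_div] at h1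
  exact h1.mono (min_le_left _ _)

/-- the places with `|T| ≤ 1` -/
theorem inn_iff {P : Plk C K} : P ∈ P025H621.Inn (C := C) (algebraMap (RatFunc C) K RatFunc.X) ↔
    In1 (down (RatFunc C) P) := by
  have h0 : ∀ a : C, algebraMap (RatFunc C) K RatFunc.X - algebraMap C K a =
      algebraMap (RatFunc C) K (RatFunc.X - RatFunc.C a) := by
    intro a
    rw [map_sub, ratFunc_C_eq, ← IsScalarTower.algebraMap_apply]
  constructor
  · rintro ⟨a, ha, h⟩
    rw [sub_zero] at ha
    refine ⟨a, ha, (ord_up_pos_iff P _).1 ?_⟩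
    rw [h0, mem_Mge, map_eq_zero] at h
    rcases h with h | h
    · exact absurd h (X_sub_ne a)
    · omega
  · rintro ⟨a, ha, h⟩
    refine ⟨a, by rwa [sub_zero], ?_⟩
    rw [h0]
    have h1 := (ord_up_pos_iff P _).2 h
    exact mem_Mge.2 (Or.inr (by omega))

/-- **dict1_to** -/
theorem dict1_to {n : ℕ} (hn : (n : C) ≠ 0) {f : K} (hf : f ≠ 0)
    (h : PowIn (RatFunc C) (F1 C) n f) {ε : ℝ} (hε : 0 < ε) :
    PowOn n ε (P025H621.Inn (C := C) (algebraMap (RatFunc C) K RatFunc.X)) f := by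
  refine powOn_of_powIn (half1 C) (div1 C) (fun P hP => ?_) ?_ ?_ hf h hε
  · obtain ⟨a, ha, h⟩ := inn_iff.1 hP
    exact ⟨_, pnt1 h ha⟩
  · obtain ⟨p, hp⟩ := exists_place (0 : C)
    obtain ⟨P, hP⟩ := exists_over (L := K) p
    refine ⟨P, inn_iff.2 ?_⟩
    rw [hP]
    exact ⟨0, by rw [norm_zero]; exact zero_le_one, hp⟩
  · rintro rfl
    exact hn Nat.cast_zero

/-- **dict2_to** -/
theorem dict2_to {n : ℕ} (hn : (n : C) ≠ 0) {f : K} (hf : f ≠ 0)
    (h : PowIn (RatFunc C) (F2 C) n f) {ε : ℝ} (hε : 0 < ε) :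
    PowOn n ε (P025H621.Inn (C := C) (algebraMap (RatFunc C) K RatFunc.X))ᶜ f := by
  refine powOn_of_powIn (half2 C) (div2 C) (fun P hP => ?_) ?_ ?_ hf h hε
  · exact exists_pnt_out fun hc => hP (inn_iff.2 hc)
  · obtain ⟨p, hp⟩ := exists_place_inf (C := C)
    obtain ⟨P, hP⟩ := exists_over (L := K) p
    refine ⟨P, fun hc => ?_⟩
    obtain ⟨a, ha, h⟩ := inn_iff.1 hc
    rw [hP] at h
    exact not_inf_of_fin h hp
  · rintro rfl
    exact hn Nat.cast_zero

end P025H970
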