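import Vale.Agent.P025.R2.H731.Rat
import Vale.Agent.P025.R2.H373.Gauss

/-!
# P025, (4.2): the winding number of an element of `F1` (`F2`) is the number of its zeros minus
poles in `|t| ≤ 1` (minus the one in `|t| > 1`)
-/

open Polynomial Vale.Agent.P019P P025H373 P025H731

universe u

namespace P025H970

section deg

variable {X : Type*}

open Classical in
/-- degree of the part of a divisor in a set -/
noncomputable def dgIn (I : X → Prop) : (X →₀ ℤ) →+ ℤ :=
  Finsupp.liftAddHom fun P => if I P then AddMonoidHom.id ℤ else 0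

open Classical in
theorem dgIn_single (I : X → Prop) (P : X) (m : ℤ) :
    dgIn I (Finsupp.single P m) = if I P then m else 0 := by
  unfold dgIn
  rw [Finsupp.liftAddHom_apply_single]
  split_ifs <;> rfl

theorem dgIn_add_not (I : X → Prop) (D : X →₀ ℤ) :
    dgIn I D + dgIn (fun p => ¬ I p) D = dg D := by
  classical
  induction D using Finsupp.induction_linear with
  | zero => simp
  | add f g hf hg => rw [map_add, map_add, map_add, ← hf, ← hg]; abel
  | single P m =>
    rw [dgIn_single, dgIn_single, dg_sgl]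
    by_cases h : I P <;> simp [h]

theorem finsum_eq_dgIn (I : X → Prop) (D : X →₀ ℤ) : ∑ᶠ (p : X) (_ : I p), D p = dgIn I D := by
  classical
  induction D using Finsupp.induction_linear with
  | zero => simp
  | add f g hf hg =>
    rw [map_add, ← hf, ← hg]
    exact finsum_mem_add_distrib' (f := fun p => f p) (g := fun p => g p) (s := {p | I p})
      (f.hasFiniteSupport.subset fun x hx => hx.2) (g.hasFiniteSupport.subset fun x hx => hx.2)
  | single P m =>
    rw [dgIn_single]
    have h1 : ∀ p : X, (∑ᶠ (_ : I p), (Finsupp.single P m) p) =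
        if p = P then (if I P then m else 0) else 0 := by
      intro p
      by_cases hp : p = P
      · rw [if_pos hp, hp, finsum_eq_if, Finsupp.single_eq_same]
      · rw [if_neg hp, finsum_eq_if, Finsupp.single_eq_of_ne hp, ite_self]
    rw [finsum_congr h1, finsum_eq_single _ P fun x hx => if_neg hx, if_pos rfl]

end deg

variable {C : Type u} [NontriviallyNormedField C] [IsUltrametricDist C] [CompleteSpace C]
  [IsAlgClosed C]

/-- the places of `C(t)` in the closed unit disc -/
def In1 (p : Plk C (RatFunc C)) : Prop :=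
  ∃ a : C, ‖a‖ ≤ 1 ∧ 0 < ord p (RatFunc.X - RatFunc.C a)

theorem algebraMap_ne {z : RatFunc C} (hz : z ≠ 0) : algebraMap (RatFunc C) (F0 C) z ≠ 0 := by
  rwa [Ne, map_eq_zero]

/-- divisor of a linear polynomial in the disc -/
theorem dgIn_X_sub (a : C) :
    dgIn In1 (dv C (RatFunc.X - RatFunc.C a)) = if ‖a‖ ≤ 1 then 1 else 0 := by
  classical
  obtain ⟨pa, hpa⟩ := exists_place a
  have hz : (RatFunc.X - RatFunc.C a : RatFunc C) =
      algebraMap C[X] (RatFunc C) (X - Polynomial.C a) := by
    rw [map_sub, RatFunc.algebraMap_X, RatFunc.algebraMap_C]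
  have key : ∀ p : Plk C (RatFunc C), (∑ᶠ (_ : In1 p), dv C (RatFunc.X - RatFunc.C a) p) =
      if p = pa then (if ‖a‖ ≤ 1 then 1 else 0) else 0 := by
    intro p
    rw [finsum_eq_if, dv_apply]
    by_cases hp : p = pa
    · rw [if_pos hp, hp, ord_X_sub hpa]
      by_cases ha : ‖a‖ ≤ 1
      · rw [if_pos ha, if_pos ⟨a, ha, hpa⟩]
      · rw [if_neg ha, if_neg]
        rintro ⟨b, hb, hb'⟩
        exact ha (point_unique hb' hpa ▸ hb)
    · rw [if_neg hp]
      split_ifs with h
      · obtain ⟨b, hb, hb'⟩ := h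
        rw [hz]
        refine ord_poly_eq_zero hb' ?_
        rw [eval_sub, eval_X, eval_C, sub_ne_zero]
        rintro rfl
        exact hp (place_ext hb' hpa)
      · rfl
  rw [← finsum_eq_dgIn, finsum_congr key, finsum_eq_single _ pa fun x hx => if_neg hx, if_pos rfl]

/-- the winding number of a polynomial -/
theorem wind_poly_eq {P : C[X]} (hP : P ≠ 0) :
    wind C (algebraMap (RatFunc C) (F0 C) (algebraMap C[X] (RatFunc C) P)) =
      dgIn In1 (dv C (algebraMap C[X] (RatFunc C) P)) := by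
  classical
  have hdec : ∀ s : Multiset C,
      wind C (algebraMap (RatFunc C) (F0 C) (algebraMap C[X] (RatFunc C)
        (s.map fun a => X - Polynomial.C a).prod)) =
      dgIn In1 (dv C (algebraMap C[X] (RatFunc C) (s.map fun a => X - Polynomial.C a).prod)) := by
    intro s
    induction s using Multiset.induction_on with
    | empty =>
      rw [Multiset.map_zero, Multiset.prod_zero, map_one, map_one, wind_one]
      have : dv C (1 : RatFunc C) = 0 := by
        rw [← map_one (algebraMap C (RatFunc C))]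
        exact dv_const 1
      rw [this, map_zero]
    | cons a s ih =>
      rw [Multiset.map_cons, Multiset.prod_cons, map_mul, map_mul]
      have hq : (s.map fun a => X - Polynomial.C a).prod ≠ 0 :=
        (monic_multiset_prod_of_monic _ _ fun a _ => monic_X_sub_C a).ne_zero
      have h1 : algebraMap C[X] (RatFunc C) (X - Polynomial.C a) ≠ 0 :=
        RatFunc.algebraMap_ne_zero (X_sub_C_ne_zero a)
      have h2 : algebraMap C[X] (RatFunc C) (s.map fun a => X - Polynomial.C a).prod ≠ 0 :=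
        RatFunc.algebraMap_ne_zero hq
      rw [wind_mul (algebraMap_ne h1) (algebraMap_ne h2), dv_mul h1 h2, map_add, ih]
      congr 1
      rw [algebraMap_poly_eq]
      change wind C (aeval (tt C) (X - Polynomial.C a)) = _
      rw [wind_poly (X_sub_C_ne_zero a), roots_X_sub_C, map_sub, RatFunc.algebraMap_X,
        RatFunc.algebraMap_C, dgIn_X_sub, Multiset.filter_singleton]
      split_ifs <;> simp
  have h1 := (IsAlgClosed.splits P).eq_prod_roots
  have hl : P.leadingCoeff ≠ 0 := leadingCoeff_ne_zero.2 hP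
  have hq : (P.roots.map fun a => X - Polynomial.C a).prod ≠ 0 :=
    (monic_multiset_prod_of_monic _ _ fun a _ => monic_X_sub_C a).ne_zero
  have h3 : algebraMap C[X] (RatFunc C) (Polynomial.C P.leadingCoeff) ≠ 0 :=
    RatFunc.algebraMap_ne_zero (by rwa [Ne, Polynomial.C_eq_zero])
  have h4 : algebraMap C[X] (RatFunc C) (P.roots.map fun a => X - Polynomial.C a).prod ≠ 0 :=
    RatFunc.algebraMap_ne_zero hq
  rw [h1, map_mul, map_mul, wind_mul (algebraMap_ne h3) (algebraMap_ne h4), dv_mul h3 h4, map_add,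
    hdec P.roots]
  congr 1
  rw [RatFunc.algebraMap_C, ratFunc_C_eq, ← IsScalarTower.algebraMap_apply, wind_const, dv_const,
    map_zero]

/-- the winding number of a rational function is the degree of its divisor in the disc -/
theorem wind_rat {z : RatFunc C} (hz : z ≠ 0) :
    wind C (algebraMap (RatFunc C) (F0 C) z) = dgIn In1 (dv C z) := by
  have hn : algebraMap C[X] (RatFunc C) z.num ≠ 0 :=
    RatFunc.algebraMap_ne_zero (RatFunc.num_ne_zero hz)
  have hd : algebraMap C[X] (RatFunc C) z.denom ≠ 0 :=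
    RatFunc.algebraMap_ne_zero z.denom_ne_zero
  have h := RatFunc.num_div_denom z
  rw [← h, map_div₀, wind_div (algebraMap_ne hn) (algebraMap_ne hd), div_eq_mul_inv,
    dv_mul hn (inv_ne_zero hd), dv_inv, map_add, map_neg, ← wind_poly_eq (RatFunc.num_ne_zero hz),
    ← wind_poly_eq z.denom_ne_zero, sub_eq_add_neg]

/-- sum formula on the first side; `o` any extension of `ord` with value `0` on `1 + h` -/
theorem wind_eq_finsum1 {o : Plk C (RatFunc C) → F1 C → ℤ}
    (hmul : ∀ p, In1 p → ∀ x y : F1 C, x ≠ 0 → y ≠ 0 → o p (x * y) = o p x + o p y)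
    (hcomp : ∀ p, In1 p → ∀ z, o p (algebraMap (RatFunc C) (F1 C) z) = ord p z)
    (hone : ∀ p, In1 p → ∀ x : F1 C, (x : F0 C) - 1 ∈ A1 C → ‖(x : F0 C) - 1‖ < 1 → o p x = 0)
    {x : F1 C} (hx : x ≠ 0) :
    wind C (x : F0 C) = ∑ᶠ (p : Plk C (RatFunc C)) (_ : In1 p), o p x := by
  classical
  have hx0 : (x : F0 C) ≠ 0 := by
    intro h
    exact hx (Subtype.ext h)
  obtain ⟨g, hg, h, hh, hn, he⟩ := (mem_F1_iff hx0).1 x.2
  have hg' : algebraMap (RatFunc C) (F0 C) g ≠ 0 := algebraMap_ne hg
  have h1 : 1 + h ≠ 0 := by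
    intro h0
    rw [h0, mul_zero] at he
    exact hx0 he
  have hgF : algebraMap (RatFunc C) (F1 C) g ≠ 0 := by rwa [Ne, map_eq_zero]
  have hmem : 1 + h ∈ F1 C := by
    have : 1 + h = (x : F0 C) / algebraMap (RatFunc C) (F0 C) g := by
      rw [he, mul_div_cancel_left₀ _ hg']
    rw [this]
    exact (F1 C).div_mem x.2 ((F1 C).algebraMap_mem g)
  have hxe : x = algebraMap (RatFunc C) (F1 C) g * ⟨1 + h, hmem⟩ := Subtype.ext he
  have hne : (⟨1 + h, hmem⟩ : F1 C) ≠ 0 := fun h0 => h1 (congrArg Subtype.val h0)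
  rw [he, wind_mul hg' h1, wind_one_add hn, add_zero, wind_rat hg, ← finsum_eq_dgIn]
  refine finsum_congr fun p => ?_
  rw [finsum_eq_if, finsum_eq_if]
  split_ifs with hp
  · rw [dv_apply, hxe, hmul p hp _ _ hgF hne, hcomp p hp, hone p hp, add_zero]
    · change 1 + h - 1 ∈ A1 C
      rwa [add_sub_cancel_left]
    · change ‖1 + h - 1‖ < 1
      rwa [add_sub_cancel_left]
  · rfl

/-- sum formula on the second side -/
theorem wind_eq_finsum2 {o : Plk C (RatFunc C) → F2 C → ℤ}
    (hmul : ∀ p, ¬ In1 p → ∀ x y : F2 C, x ≠ 0 → y ≠ 0 → o p (x * y) = o p x + o p y)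
    (hcomp : ∀ p, ¬ In1 p → ∀ z, o p (algebraMap (RatFunc C) (F2 C) z) = ord p z)
    (hone : ∀ p, ¬ In1 p → ∀ x : F2 C, (x : F0 C) - 1 ∈ A2 C → ‖(x : F0 C) - 1‖ < 1 → o p x = 0)
    {x : F2 C} (hx : x ≠ 0) :
    - wind C (x : F0 C) = ∑ᶠ (p : Plk C (RatFunc C)) (_ : ¬ In1 p), o p x := by
  classical
  have hx0 : (x : F0 C) ≠ 0 := by
    intro h
    exact hx (Subtype.ext h)
  obtain ⟨g, hg, h, hh, hn, he⟩ := (mem_F2_iff hx0).1 x.2
  have hg' : algebraMap (RatFunc C) (F0 C) g ≠ 0 := algebraMap_ne hg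
  have h1 : 1 + h ≠ 0 := by
    intro h0
    rw [h0, mul_zero] at he
    exact hx0 he
  have hgF : algebraMap (RatFunc C) (F2 C) g ≠ 0 := by rwa [Ne, map_eq_zero]
  have hmem : 1 + h ∈ F2 C := by
    have : 1 + h = (x : F0 C) / algebraMap (RatFunc C) (F0 C) g := by
      rw [he, mul_div_cancel_left₀ _ hg']
    rw [this]
    exact (F2 C).div_mem x.2 ((F2 C).algebraMap_mem g)
  have hxe : x = algebraMap (RatFunc C) (F2 C) g * ⟨1 + h, hmem⟩ := Subtype.ext he
  have hne : (⟨1 + h, hmem⟩ : F2 C) ≠ 0 := fun h0 => h1 (congrArg Subtype.val h0)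
  have h0 : dgIn (fun p => ¬ In1 p) (dv C g) = - dgIn In1 (dv C g) := by
    have h2 := dgIn_add_not In1 (dv C g)
    rw [dg_dv] at h2
    omega
  rw [he, wind_mul hg' h1, wind_one_add hn, add_zero, wind_rat hg, ← h0, ← finsum_eq_dgIn]
  refine finsum_congr fun p => ?_
  rw [finsum_eq_if, finsum_eq_if]
  split_ifs with hp
  · rfl
  · rw [dv_apply, hxe, hmul p hp _ _ hgF hne, hcomp p hp, hone p hp, add_zero]
    · change 1 + h - 1 ∈ A2 C
      rwa [add_sub_cancel_left]
    · change ‖1 + h - 1‖ < 1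
      rwa [add_sub_cancel_left]

end P025H970
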