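import Vale.Agent.P025.R2.H731.Conc
import Vale.Agent.P025.R2.H970.WindSum

/-!
# P025 G-DICT: division in the two halves: `A = B + b A` for `b ∈ B`, `b ≠ 0` (helper970)
-/

open Polynomial Vale.Agent.P019P P025H373 P025H731

universe u

namespace P025H970

section deg

variable {X : Type*}

open Classical in
theorem dgIn_apply (I : X → Prop) (D : X →₀ ℤ) :
    dgIn I D = ∑ P ∈ D.support, if I P then D P else 0 := by
  unfold dgIn
  rw [Finsupp.liftAddHom_apply, Finsupp.sum]
  refine Finset.sum_congr rfl fun P _ => ?_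
  split_ifs <;> rfl

theorem exists_pos_of_dgIn {I : X → Prop} {D : X →₀ ℤ} (h : 0 < dgIn I D) :
    ∃ p, I p ∧ 0 < D p := by
  classical
  by_contra hcon
  push Not at hcon
  rw [dgIn_apply] at h
  refine absurd h (not_lt.2 (Finset.sum_nonpos fun p _ => ?_))
  split_ifs with hp
  · exact hcon p hp
  · exact le_rfl

theorem le_dgIn {I : X → Prop} {D : X →₀ ℤ} (h : ∀ p, I p → 0 ≤ D p) {p : X} (hp : I p) :
    D p ≤ dgIn I D := by
  classical
  rw [dgIn_apply]
  by_cases h0 : p ∈ D.support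
  · refine le_trans ?_ (Finset.single_le_sum (f := fun p => if I p then D p else 0)
      (fun q _ => ?_) h0)
    · rw [if_pos hp]
    · split_ifs with hq
      · exact h q hq
      · exact le_rfl
  · rw [Finsupp.notMem_support_iff.1 h0]
    refine Finset.sum_nonneg fun q _ => ?_
    split_ifs with hq
    · exact h q hq
    · exact le_rfl

end deg

section abs

variable {C F F0 : Type*} [NormedField C] [Field F] [NormedField F0]
  [Algebra C F] [Algebra F F0] [NormedAlgebra C F0] [IsScalarTower C F F0]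

/-- division property -/
def DivP (B : Subalgebra C F) (A : Subalgebra C F0) : Prop :=
  ∀ b ∈ B, b ≠ 0 → ∀ f ∈ A, ∃ r ∈ B, ∃ q ∈ A, f = algebraMap F F0 r + algebraMap F F0 b * q

variable {B : Subalgebra C F} {A : Subalgebra C F0} {Fi : IntermediateField F F0}

/-- induction on the number of zeros -/
theorem divP_of [IsUltrametricDist C] [IsUltrametricDist F0] [CompleteSpace C] [CompleteSpace F0]
    (hH : Half B A Fi) (μ : F → ℤ)
    (h0 : ∀ b ∈ B, b ≠ 0 → μ b ≤ 0 → (algebraMap F F0 b)⁻¹ ∈ A)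
    (h1 : ∀ b ∈ B, b ≠ 0 → 0 < μ b → ∃ w s, Pnt F0 B w s ∧ 0 < w b ∧
      ∀ b' ∈ B, b' ≠ 0 → b = s * b' → μ b' < μ b) : DivP B A := by
  have key : ∀ n : ℕ, ∀ b ∈ B, b ≠ 0 → μ b ≤ n → ∀ f ∈ A, ∃ r ∈ B, ∃ q ∈ A,
      f = algebraMap F F0 r + algebraMap F F0 b * q := by
    intro n
    induction n with
    | zero =>
      intro b hb hb0 hμ f hf
      have h2 := h0 b hb hb0 (by exact_mod_cast hμ)
      have h3 : algebraMap F F0 b ≠ 0 := by rwa [Ne, map_eq_zero]
      exact ⟨0, B.zero_mem, _, A.mul_mem h2 hf, by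
        rw [map_zero, zero_add, mul_inv_cancel_left₀ h3]⟩
    | succ n ih =>
      intro b hb hb0 hμ f hf
      by_cases hle : μ b ≤ 0
      · have h2 := h0 b hb hb0 hle
        have h3 : algebraMap F F0 b ≠ 0 := by rwa [Ne, map_eq_zero]
        exact ⟨0, B.zero_mem, _, A.mul_mem h2 hf, by
          rw [map_zero, zero_add, mul_inv_cancel_left₀ h3]⟩
      obtain ⟨w, s, hp, hw, hdec⟩ := h1 b hb hb0 (not_le.1 hle)
      obtain ⟨b', hb', hbb', -⟩ := hp.exists_div hb hb0 hw
      have hb'0 : b' ≠ 0 := by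
        rintro rfl
        rw [mul_zero] at hbb'
        exact hb0 hbb'
      obtain ⟨c, f1, hf1, hf⟩ := hp.exists_dec hH hf
      have hlt := hdec b' hb' hb'0 hbb'
      obtain ⟨r, hr, q, hq, h4⟩ := ih b' hb' hb'0 (by push_cast at hμ; omega) f1 hf1
      refine ⟨algebraMap C F c + s * r, B.add_mem (B.algebraMap_mem c) (B.mul_mem hp.smem hr),
        q, hq, ?_⟩
      rw [hf, h4, hbb', map_add, map_mul, map_mul, ← IsScalarTower.algebraMap_apply]
      ring
  intro b hb hb0 f hf
  exact key (μ b).toNat b hb hb0 (Int.self_le_toNat _) f hf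

/-- division with small quotient -/
theorem DivP.small (h : DivP B A) (hH : Half B A Fi) {b : F} (hb : b ∈ B) (hb0 : b ≠ 0)
    {f : F0} (hf : f ∈ A) {δ : ℝ} (hδ : 0 < δ) :
    ∃ r ∈ B, ∃ q ∈ A, ‖q‖ < δ ∧ f = algebraMap F F0 r + algebraMap F F0 b * q := by
  obtain ⟨r, hr, q, hq, h1⟩ := h b hb hb0 f hf
  obtain ⟨_, ⟨b', hb', rfl⟩, h2⟩ := Metric.mem_closure_iff.1 (hH.dense q hq) δ hδ
  refine ⟨r + b * b', B.add_mem hr (B.mul_mem hb hb'), q - algebraMap F F0 b',
    A.sub_mem hq (hH.sub b' hb'), by rwa [← dist_eq_norm], ?_⟩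
  rw [h1, map_add, map_mul]
  ring

end abs

section conc

variable {C : Type u} [NontriviallyNormedField C] [IsUltrametricDist C] [CompleteSpace C]
  [IsAlgClosed C]

theorem B1_ord_nonneg {b : RatFunc C} (hb : b ∈ B1 C) (p : Plk C (RatFunc C)) (hp : In1 p) :
    0 ≤ ord p b := by
  obtain ⟨a, ha, h⟩ := hp
  exact (pnt1 h ha).nonneg b hb

variable (C) in
/-- division in the closed unit disc -/
theorem div1 : DivP (B1 C) (A1 C) := by
  refine divP_of (half1 C) (fun b => wind C (algebraMap (RatFunc C) (F0 C) b)) ?_ ?_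
  · intro b hb hb0 h
    exact inv_mem_A1 ((half1 C).sub b hb) (algebraMap_ne hb0)
      (le_antisymm h (wind_nonneg ((half1 C).sub b hb)))
  · intro b hb hb0 h
    rw [wind_rat hb0] at h
    obtain ⟨p, hp, h1⟩ := exists_pos_of_dgIn h
    rw [dv_apply] at h1
    obtain ⟨a, ha, h2⟩ := id hp
    have hP := pnt1 h2 ha
    refine ⟨ord p, _, hP, h1, fun b' hb' hb'0 hbb' => ?_⟩
    have h3 : 0 < wind C (algebraMap (RatFunc C) (F0 C) (RatFunc.X - RatFunc.C a)) := by
      rw [wind_rat hP.s0]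
      refine lt_of_lt_of_le ?_ (le_dgIn (p := p) (fun q hq => ?_) hp)
      · rw [dv_apply, hP.ws]
        exact zero_lt_one
      · rw [dv_apply]
        exact B1_ord_nonneg hP.smem q hq
    have h4 : wind C (algebraMap (RatFunc C) (F0 C) b) =
        wind C (algebraMap (RatFunc C) (F0 C) (RatFunc.X - RatFunc.C a)) +
        wind C (algebraMap (RatFunc C) (F0 C) b') := by
      rw [hbb', map_mul, wind_mul (algebraMap_ne hP.s0) (algebraMap_ne hb'0)]
    omega

theorem exists_pnt_out {p : Plk C (RatFunc C)} (hp : ¬ In1 p) :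
    ∃ s, Pnt (F0 C) (pre2 C) (ord p) s := by
  rcases finite_or_inf p with ⟨a, ha⟩ | h
  · have h1 : 1 < ‖a‖ := by
      by_contra hc
      exact hp ⟨a, not_lt.1 hc, ha⟩
    exact ⟨_, pnt2 ha h1⟩
  · exact ⟨_, pnt2_inf h⟩

theorem wind_rat_out {z : RatFunc C} (hz : z ≠ 0) :
    - wind C (algebraMap (RatFunc C) (F0 C) z) = dgIn (fun p => ¬ In1 p) (dv C z) := by
  have h2 := dgIn_add_not In1 (dv C z)
  rw [dg_dv] at h2
  rw [wind_rat hz]
  omega

variable (C) in
/-- division outside of the closed unit disc -/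
theorem div2 : DivP (pre2 C) (A2 C) := by
  refine divP_of (half2 C) (fun b => - wind C (algebraMap (RatFunc C) (F0 C) b)) ?_ ?_
  · intro b hb hb0 h
    refine inv_mem_A2 ((half2 C).sub b hb) (algebraMap_ne hb0)
      (le_antisymm (wind_nonpos ((half2 C).sub b hb)) ?_)
    omega
  · intro b hb hb0 h
    rw [wind_rat_out hb0] at h
    obtain ⟨p, hp, h1⟩ := exists_pos_of_dgIn h
    rw [dv_apply] at h1
    obtain ⟨s, hP⟩ := exists_pnt_out hp
    refine ⟨ord p, s, hP, h1, fun b' hb' hb'0 hbb' => ?_⟩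
    have h3 : 0 < - wind C (algebraMap (RatFunc C) (F0 C) s) := by
      rw [wind_rat_out hP.s0]
      refine lt_of_lt_of_le ?_ (le_dgIn (p := p) (fun q hq => ?_) hp)
      · rw [dv_apply, hP.ws]
        exact zero_lt_one
      · rw [dv_apply]
        obtain ⟨s', hP'⟩ := exists_pnt_out hq
        exact hP'.nonneg s hP.smem
    have h4 : wind C (algebraMap (RatFunc C) (F0 C) b) =
        wind C (algebraMap (RatFunc C) (F0 C) s) +
        wind C (algebraMap (RatFunc C) (F0 C) b') := by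
      rw [hbb', map_mul, wind_mul (algebraMap_ne hP.s0) (algebraMap_ne hb'0)]
    omega

end conc

end P025H970
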