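import Vale.Agent.P025.R2.H731.Side
import Vale.Agent.P025.R2.H492.Ext4

/-!
# P025 G-ORD: functoriality in `K` of the points and values of helper731's `Side` (helper970)

`Cmp f P P' s` : `ord P' (f y) = s * ord P y`.  Then `ptMap f (pt P') = pt P` and
`sval P' (tL f x) = s * sval P x`.  Instances: `P = down K P'`, `s = ram K P'` (towers), and
`P' = conj C σ P`, `f = σ`, `s = 1` (automorphisms).
-/

open TensorProduct Vale.Agent.P019P P025H492 P025H544 P025H731

namespace P025H970

section equi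

variable {C Fi K L : Type*} [Field C] [IsAlgClosed C] [Field Fi] [Algebra (RatFunc C) Fi]
  [Field K] [Algebra C K] [Algebra (RatFunc C) K] [IsScalarTower C (RatFunc C) K]
  [FiniteDimensional (RatFunc C) K] [CFF C K]
  [Field L] [Algebra C L] [Algebra (RatFunc C) L] [IsScalarTower C (RatFunc C) L]
  [FiniteDimensional (RatFunc C) L] [CFF C L]
  {S : Set (Plk C (RatFunc C))} {wi : Plk C (RatFunc C) → Fi → ℤ}
  {f : K →ₐ[RatFunc C] L} {P : Plk C K} {P' : Plk C L} {s : ℤ}

/-- compatibility of places with an embedding -/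
structure Cmp (f : K →ₐ[RatFunc C] L) (P : Plk C K) (P' : Plk C L) (s : ℤ) : Prop where
  pos : 0 < s
  ordE : ∀ y, ord P' (f y) = s * ord P y

theorem Cmp.mem_iff (H : Cmp f P P' s) (y : K) : f y ∈ P'.1 ↔ y ∈ P.1 := by
  rw [mem_iff_ord, mem_iff_ord, map_eq_zero, H.ordE, mul_nonneg_iff_of_pos_left H.pos]

theorem Cmp.down_eq (H : Cmp f P P' s) : down (RatFunc C) P' = down (RatFunc C) P := by
  refine Subtype.ext (ValuationSubring.ext _ _ fun z => ?_)
  rw [mem_down, mem_down, ← H.mem_iff, AlgHom.commutes]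

theorem Cmp.locHom (H : Cmp f P P' s) :
    LocHom (F := RatFunc C) (F' := RatFunc C) (wi (down (RatFunc C) P)) (ord P)
      (wi (down (RatFunc C) P')) (ord P')
      ((tL (RatFunc C) Fi f : Fi ⊗[RatFunc C] K →ₐ[Fi] Fi ⊗[RatFunc C] L) :
        Fi ⊗[RatFunc C] K →+* Fi ⊗[RatFunc C] L)
      (RingHom.id Fi) (f : K →+* L) 1 s where
  left α := by
    change tL (RatFunc C) Fi f (algebraMap Fi (Fi ⊗[RatFunc C] K) α) = _
    rw [AlgHom.commutes]
    rfl
  right y := by
    change tL (RatFunc C) Fi f ((1 : Fi) ⊗ₜ[RatFunc C] y) = (1 : Fi) ⊗ₜ[RatFunc C] f y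
    rw [tL_tmul]
  posr := one_pos
  poss := H.pos
  val₁ α := by
    rw [one_mul, H.down_eq]
    rfl
  valK := H.ordE

/-- functoriality of the point -/
theorem Cmp.ptMap_pt (H : Cmp f P P' s) (hS : Side C Fi S wi) (h : down (RatFunc C) P ∈ S)
    (h' : down (RatFunc C) P' ∈ S) :
    ptMap (RatFunc C) Fi f (hS.pt P' h') = hS.pt P h := by
  refine PrimeSpectrum.ext ?_
  exact H.locHom.comap_nul (hS.loc P h) (hS.loc P' h')

/-- functoriality of the value -/
theorem Cmp.sval_tL (H : Cmp f P P' s) (hS : Side C Fi S wi) (h : down (RatFunc C) P ∈ S)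
    (x : Fi ⊗[RatFunc C] K) : sval wi P' (tL (RatFunc C) Fi f x) = s * sval wi P x := by
  have h' : down (RatFunc C) P' ∈ S := by rw [H.down_eq]; exact h
  exact H.locHom.val_eq (hS.loc P h) (hS.loc P' h') x

end equi

section tower

variable {C Fi K L : Type*} [Field C] [IsAlgClosed C] [Field Fi] [Algebra (RatFunc C) Fi]
  [Field K] [Algebra C K] [Algebra (RatFunc C) K] [IsScalarTower C (RatFunc C) K]
  [FiniteDimensional (RatFunc C) K] [CFF C K]
  [Field L] [Algebra C L] [Algebra (RatFunc C) L] [IsScalarTower C (RatFunc C) L]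
  [FiniteDimensional (RatFunc C) L] [CFF C L]
  [Algebra K L] [IsScalarTower (RatFunc C) K L] [IsScalarTower C K L]
  {S : Set (Plk C (RatFunc C))} {wi : Plk C (RatFunc C) → Fi → ℤ}

theorem cmp_down [Algebra.IsAlgebraic K L] (P' : Plk C L) :
    Cmp (IsScalarTower.toAlgHom (RatFunc C) K L) (down K P') P' (ram K P') :=
  ⟨by exact_mod_cast ram_pos P', fun y => ord_algebraMap P' y⟩

/-- towers: the point of `P'` lies over the point of its restriction -/
theorem ptMap_pt_down [Algebra.IsAlgebraic K L] (hS : Side C Fi S wi) (P' : Plk C L)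
    (h : down (RatFunc C) (down K P') ∈ S) (h' : down (RatFunc C) P' ∈ S) :
    ptMap (RatFunc C) Fi (IsScalarTower.toAlgHom (RatFunc C) K L) (hS.pt P' h') =
      hS.pt (down K P') h :=
  (cmp_down P').ptMap_pt hS h h'

theorem sval_tL_down [Algebra.IsAlgebraic K L] (hS : Side C Fi S wi) (P' : Plk C L)
    (h : down (RatFunc C) (down K P') ∈ S) (x : Fi ⊗[RatFunc C] K) :
    sval wi P' (tL (RatFunc C) Fi (IsScalarTower.toAlgHom (RatFunc C) K L) x) =
      ram K P' * sval wi (down K P') x :=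
  (cmp_down P').sval_tL hS h x

theorem cmp_conj (σ : L ≃ₐ[K] L) (P : Plk C L) :
    Cmp (σ.toAlgHom.restrictScalars (RatFunc C)) P (conj C σ P) 1 :=
  ⟨one_pos, fun y => by
    rw [one_mul]
    exact ord_conj σ P y⟩

theorem down_conj_rat (σ : L ≃ₐ[K] L) (P : Plk C L) :
    down (RatFunc C) (conj C σ P) = down (RatFunc C) P := (cmp_conj σ P).down_eq

/-- equivariance of the point, first form -/
theorem ptMap_pt_conj (hS : Side C Fi S wi) (σ : L ≃ₐ[K] L) (P : Plk C L)
    (h : down (RatFunc C) P ∈ S) (h' : down (RatFunc C) (conj C σ P) ∈ S) :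
    ptMap (RatFunc C) Fi (σ.toAlgHom.restrictScalars (RatFunc C)) (hS.pt (conj C σ P) h') =
      hS.pt P h :=
  (cmp_conj σ P).ptMap_pt hS h h'

/-- equivariance of the point, form of `H613.MovesOf` -/
theorem pt_conj (hS : Side C Fi S wi) (σ : L ≃ₐ[K] L) (P : Plk C L)
    (h : down (RatFunc C) P ∈ S) (h' : down (RatFunc C) (conj C σ P) ∈ S) :
    hS.pt (conj C σ P) h' =
      ptMap (RatFunc C) Fi (σ.symm.toAlgHom.restrictScalars (RatFunc C)) (hS.pt P h) := by
  have h1 : Cmp (σ.symm.toAlgHom.restrictScalars (RatFunc C)) (conj C σ P) P 1 :=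
    ⟨one_pos, fun y => by
      rw [one_mul]
      exact (ord_conj' σ P y).symm⟩
  exact (h1.ptMap_pt hS h' h).symm

/-- equivariance of the value -/
theorem sval_conj (hS : Side C Fi S wi) (σ : L ≃ₐ[K] L) (P : Plk C L)
    (h : down (RatFunc C) P ∈ S) (x : Fi ⊗[RatFunc C] L) :
    sval wi (conj C σ P) (tL (RatFunc C) Fi (σ.toAlgHom.restrictScalars (RatFunc C)) x) =
      sval wi P x := by
  rw [(cmp_conj σ P).sval_tL hS h x, one_mul]

end tower

section act

variable {C Fi L G : Type*} [Field C] [IsAlgClosed C] [Field Fi] [Algebra (RatFunc C) Fi]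
  [Field L] [Algebra C L] [Algebra (RatFunc C) L] [IsScalarTower C (RatFunc C) L]
  [FiniteDimensional (RatFunc C) L] [CFF C L]
  [Group G] [MulSemiringAction G L] [SMulCommClass G (RatFunc C) L]
  {S : Set (Plk C (RatFunc C))} {wi : Plk C (RatFunc C) → Fi → ℤ}

/-- equivariance for a group action (conventions of `H544.Defs`: `tAct`, `specAction`) -/
theorem pt_smul (hS : Side C Fi S wi) (g : G) {P Q : Plk C L} (hQ : ∀ y, ord Q (g • y) = ord P y)
    (h : down (RatFunc C) P ∈ S) (h' : down (RatFunc C) Q ∈ S) :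
    hS.pt Q h' = g • hS.pt P h := by
  have h1 : Cmp (MulSemiringAction.toAlgHom (RatFunc C) L g) P Q 1 :=
    ⟨one_pos, fun y => by
      rw [one_mul]
      exact hQ y⟩
  have h2 := h1.ptMap_pt hS h h'
  rw [← h2]
  refine PrimeSpectrum.ext (Ideal.ext fun x => ?_)
  rw [mem_smul_pt]
  change x ∈ (hS.pt Q h').asIdeal ↔
    tL (RatFunc C) Fi (MulSemiringAction.toAlgHom (RatFunc C) L g) (g⁻¹ • x) ∈ (hS.pt Q h').asIdeal
  have h3 : tL (RatFunc C) Fi (MulSemiringAction.toAlgHom (RatFunc C) L g) (g⁻¹ • x) =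
      g • (g⁻¹ • x) := rfl
  rw [h3, smul_inv_smul]

/-- equivariance of the value for a group action -/
theorem sval_smul (hS : Side C Fi S wi) (g : G) {P Q : Plk C L}
    (hQ : ∀ y, ord Q (g • y) = ord P y) (h : down (RatFunc C) P ∈ S) (x : Fi ⊗[RatFunc C] L) :
    sval wi Q (g • x) = sval wi P x := by
  have h1 : Cmp (MulSemiringAction.toAlgHom (RatFunc C) L g) P Q 1 :=
    ⟨one_pos, fun y => by
      rw [one_mul]
      exact hQ y⟩
  have h2 := h1.sval_tL hS h x
  rw [one_mul] at h2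
  exact h2

end act

end P025H970
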