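import Vale.Agent.P025.R2.H970.Weights

/-!
The abstract fixed vertex theorem.
-/

namespace P025H970

open Set Topology MulAction

/-- pro-`q` subgroups of a topological group -/
def IsPro (q : ℕ) {G : Type*} [Group G] [TopologicalSpace G] (P : Subgroup G) : Prop :=
  ∀ (N : Subgroup G) [N.Normal], IsOpen (N : Set G) → IsPGroup q (P.map (QuotientGroup.mk' N))

section Main

variable {G A B E : Type*} [Group G] [TopologicalSpace G] [IsTopologicalGroup G] [CompactSpace G]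
  [TotallyDisconnectedSpace G]
  [TopologicalSpace A] [CompactSpace A] [T2Space A] [TotallyDisconnectedSpace A]
  [MulAction G A] [ContinuousSMul G A]
  [TopologicalSpace B] [CompactSpace B] [T2Space B] [TotallyDisconnectedSpace B]
  [MulAction G B] [ContinuousSMul G B]
  [TopologicalSpace E] [CompactSpace E] [T2Space E] [TotallyDisconnectedSpace E]
  [MulAction G E] [ContinuousSMul G E]

omit [TotallyDisconnectedSpace G] in
theorem index_pow {q : ℕ} [Fact q.Prime] {P : Subgroup G} (hP : IsPro q P) (V : Subgroup G)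
    [V.Normal] (hV : IsOpen (V : Set G)) : ∃ n : ℕ, (V.subgroupOf P).index = q ^ n := by
  have : Finite (G ⧸ V) := Subgroup.quotient_finite_of_isOpen V hV
  have h1 := hP V hV
  obtain ⟨n, hn⟩ := IsPGroup.iff_card.1 h1
  refine ⟨n, ?_⟩
  have h2 : V.subgroupOf P = ((QuotientGroup.mk' V).comp P.subtype).ker := by
    ext x
    rw [Subgroup.mem_subgroupOf, MonoidHom.mem_ker, MonoidHom.comp_apply, ← MonoidHom.mem_ker,
      QuotientGroup.ker_mk']
    rfl
  rw [h2, Subgroup.index_ker, ← hn]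
  have h3 : ((QuotientGroup.mk' V).comp P.subtype).range = P.map (QuotientGroup.mk' V) := by
    rw [MonoidHom.range_comp, Subgroup.range_subtype]
  rw [← h3]

theorem smith_sub (q : ℕ) [hq : Fact q.Prime] {a : E → A} {b : E → B} (ha : Continuous a)
    (hb : Continuous b) (hae : ∀ (g : G) e, a (g • e) = g • a e)
    (hbe : ∀ (g : G) e, b (g • e) = g • b e) (h0 : Conn0 q a b) (hS : Surj0 q a b)
    (P : Subgroup G) (hPc : IsClosed (P : Set G)) (hP : IsPro q P)
    (hvan : ∀ V : Subgroup G, V.Normal → IsOpen (V : Set G) → ∀ (f : A → ZMod q) (g : B → ZMod q),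
      IsLocallyConstant f → IsLocallyConstant g →
      (∀ u ∈ V ⊓ P, ∀ e, f (a (u • e)) - g (b (u • e)) = f (a e) - g (b e)) →
      ∀ u ∈ V ⊓ P, (∀ x, f (u • x) = f x) ∧ ∀ y, g (u • y) = g y) :
    ((∃ x : A, ∀ g ∈ P, g • x = x) ∨ (∃ y : B, ∀ g ∈ P, g • y = y)) ∧
    ∀ (f : A → ZMod q) (g : B → ZMod q), IsLocallyConstant f → IsLocallyConstant g →
      (∀ e, (∀ s ∈ P, s • e = e) → f (a e) = g (b e)) →
      ∃ c, (∀ x, (∀ s ∈ P, s • x = x) → f x = c) ∧ ∀ y, (∀ s ∈ P, s • y = y) → g y = c := by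
  have : CompactSpace P := isCompact_iff_compactSpace.1 hPc.isCompact
  have key := smith_pro (P := P) q ha hb (fun g e => hae g.1 e) (fun g e => hbe g.1 e) h0
    {U | ∃ V : Subgroup G, V.Normal ∧ IsOpen (V : Set G) ∧ U = V.subgroupOf P} ?_ ?_ ?_ ?_
  · constructor
    · rcases key.1 with ⟨x, hx⟩ | ⟨x, hx⟩
      · exact Or.inl ⟨x, fun g hg => hx ⟨g, hg⟩⟩
      · exact Or.inr ⟨x, fun g hg => hx ⟨g, hg⟩⟩
    · intro f g hf hg hfg
      obtain ⟨c, hc1, hc2⟩ := key.2 f g hf hg (fun e he => hfg e fun s hs => he ⟨s, hs⟩)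
      exact ⟨c, fun x hx => hc1 x fun s => hx s.1 s.2, fun x hx => hc2 x fun s => hx s.1 s.2⟩
  · intro O hO
    rw [nhds_subtype_eq_comap, Filter.mem_comap] at hO
    obtain ⟨O', hO', hO'O⟩ := hO
    obtain ⟨O2, hO2, hO2o, h1⟩ := mem_nhds_iff.1 hO'
    obtain ⟨V, hV⟩ := ProfiniteGrp.exist_openNormalSubgroup_sub_open_nhds_of_one hO2o h1
    refine ⟨(V.toSubgroup).subgroupOf P, ⟨V.toSubgroup, inferInstance, V.isOpen', rfl⟩, ?_⟩
    intro x hx
    exact hO'O (hO2 (hV hx))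
  · rintro _ ⟨V, hVn, hVo, rfl⟩
    refine ⟨inferInstance, ?_, ?_⟩
    · exact (V.isClosed_of_isOpen hVo).preimage continuous_subtype_val
    · exact (hVo.preimage continuous_subtype_val).mem_nhds V.one_mem
  · rintro _ ⟨V, hVn, hVo, rfl⟩
    exact index_pow hP V hVo
  · rintro _ ⟨V, hVn, hVo, rfl⟩ h hh hU
    obtain ⟨f, g, hf, hg, hfg⟩ := hS h hh
    have h1 := hvan V hVn hVo f g hf hg (by
      intro u hu e
      rw [← hfg, ← hfg]
      exact hU ⟨u, hu.2⟩ hu.1 e)
    exact ⟨f, g, hf, hg, fun u hu x => (h1 u.1 ⟨hu, u.2⟩).1 x,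
      fun u hu x => (h1 u.1 ⟨hu, u.2⟩).2 x, hfg⟩

omit [TopologicalSpace G] [IsTopologicalGroup G] [CompactSpace G] [TotallyDisconnectedSpace G]
  [TopologicalSpace A] [CompactSpace A] [T2Space A] [TotallyDisconnectedSpace A]
  [ContinuousSMul G A] in
theorem norm_fix {P : Subgroup G} {n : G} (hn : n ∈ Subgroup.normalizer (P : Set G)) {x : A}
    (hx : ∀ s ∈ P, s • x = x) : ∀ s ∈ P, s • n • x = n • x := by
  intro s hs
  have h1 : n⁻¹ * s * n ∈ P := by
    have := (Subgroup.mem_normalizer_iff.1 ((Subgroup.normalizer (P : Set G)).inv_mem hn) s).1 hs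
    simpa using this
  have h2 : s • n • x = n • (n⁻¹ * s * n) • x := by
    simp only [← mul_smul]; congr 1; group
  rw [h2, hx _ h1]

/-- the center of the fixed subgraph is fixed by the normalizer -/
theorem center (q : ℕ) (hq : 1 < q) {a : E → A} {b : E → B} (ha : Continuous a)
    (hb : Continuous b) (hae : ∀ (g : G) e, a (g • e) = g • a e)
    (hbe : ∀ (g : G) e, b (g • e) = g • b e) (P : Subgroup G)
    (hne : (∃ x : A, ∀ g ∈ P, g • x = x) ∨ (∃ y : B, ∀ g ∈ P, g • y = y))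
    (hconn : ∀ (f : A → ZMod q) (g : B → ZMod q), IsLocallyConstant f → IsLocallyConstant g →
      (∀ e, (∀ s ∈ P, s • e = e) → f (a e) = g (b e)) →
      ∃ c, (∀ x, (∀ s ∈ P, s • x = x) → f x = c) ∧ ∀ y, (∀ s ∈ P, s • y = y) → g y = c)
    (huniq : ∀ e e' : E, e ≠ e' → (∀ x ∈ P, x • e = e) → (∀ x ∈ P, x • e' = e') →
      a e ≠ a e' ∧ b e ≠ b e') :
    (∃ x : A, ∀ n ∈ Subgroup.normalizer (P : Set G), n • x = x) ∨ (∃ y : B, ∀ n ∈ Subgroup.normalizer (P : Set G), n • y = y) := by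
  have hcl : IsClosed {e : E | ∀ s ∈ P, s • e = e} := by
    have : {e : E | ∀ s ∈ P, s • e = e} = ⋂ s ∈ P, {e | s • e = e} := by ext; simp
    rw [this]
    exact isClosed_biInter fun s _ => isClosed_eq (continuous_const_smul s) continuous_id
  rcases small q hq ha hb (FA := {x : A | ∀ s ∈ P, s • x = x})
    (FB := {x : B | ∀ s ∈ P, s • x = x}) hcl
    (fun e he s hs => by rw [← hae, he s hs]) (fun e he s hs => by rw [← hbe, he s hs])
    hne hconn (fun e he e' he' h => huniq e e' h he he') with ⟨e, h1, h2, h3⟩ | ⟨h1, ⟨x, h2⟩, h3⟩ |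
      ⟨h1, h2, ⟨x, h3⟩⟩
  · left
    refine ⟨a e, fun n hn => ?_⟩
    have he : e ∈ {e : E | ∀ s ∈ P, s • e = e} := by rw [h1]; rfl
    have h4 : n • e ∈ {e : E | ∀ s ∈ P, s • e = e} := norm_fix hn he
    rw [h1] at h4
    rw [← hae, mem_singleton_iff.1 h4]
  · left
    refine ⟨x, fun n hn => ?_⟩
    have he : x ∈ {x : A | ∀ s ∈ P, s • x = x} := by rw [h2]; rfl
    have h4 : n • x ∈ {x : A | ∀ s ∈ P, s • x = x} := norm_fix hn he
    rw [h2] at h4
    exact mem_singleton_iff.1 h4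
  · right
    refine ⟨x, fun n hn => ?_⟩
    have he : x ∈ {x : B | ∀ s ∈ P, s • x = x} := by rw [h3]; rfl
    have h4 : n • x ∈ {x : B | ∀ s ∈ P, s • x = x} := norm_fix hn he
    rw [h3] at h4
    exact mem_singleton_iff.1 h4

/-- **The abstract fixed vertex theorem.** -/
theorem exists_fixed_vertex (p l : ℕ) [hp : Fact p.Prime] [hl : Fact l.Prime] (hpl : p ≠ l)
    {a : E → A} {b : E → B} (ha : Continuous a) (hb : Continuous b)
    (hae : ∀ (g : G) e, a (g • e) = g • a e) (hbe : ∀ (g : G) e, b (g • e) = g • b e)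
    (h0p : Conn0 p a b) (hSp : Surj0 p a b)
    (h0l : ∀ n : ℕ, Conn0 (l ^ (n + 1)) a b) (hSl : ∀ n : ℕ, Surj0 (l ^ (n + 1)) a b)
    (I W : Subgroup G) (hIc : IsClosed (I : Set G)) (hWc : IsClosed (W : Set G))
    (hWn : W.Normal) (hWI : W ≤ I) (hWp : IsPro p W)
    (hP : ∀ S : Subgroup G, IsOpen (S : Set G) → ∃ P : Subgroup G, IsClosed (P : Set G) ∧
      P ≤ I ⊓ S ∧ IsPro l P ∧ (∃ φ : G, ∃ Q : ℕ, 1 < Q ∧ ∀ x ∈ P, φ * x * φ⁻¹ = x ^ Q) ∧
      (∀ K0 : Subgroup G, IsClosed (K0 : Set G) → K0 ≤ I ⊓ S →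
        (∀ x ∈ I ⊓ S, ∀ k ∈ K0, x * k * x⁻¹ ∈ K0) → P ≤ K0 →
        ∀ g ∈ I ⊓ S, ∃ h ∈ K0, ∃ n ∈ Subgroup.normalizer (P : Set G), g = h * n) ∧
      (∀ e e' : E, e ≠ e' → (∀ x ∈ P, x • e = e) → (∀ x ∈ P, x • e' = e') →
        a e ≠ a e' ∧ b e ≠ b e'))
    (hWu : ∀ e e' : E, e ≠ e' → (∀ x ∈ W, x • e = e) → (∀ x ∈ W, x • e' = e') →
        a e ≠ a e' ∧ b e ≠ b e') :
    (∃ x : A, ∀ g : G, g • x = x) ∨ (∃ y : B, ∀ g : G, g • y = y) := by
  -- every obstruction homomorphism of an open subgroup vanishes on inertia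
  have hobs : ∀ (f : A → ZMod p) (g : B → ZMod p), IsLocallyConstant f → IsLocallyConstant g →
      ∀ S : Subgroup G, IsOpen (S : Set G) →
      (∀ s ∈ S, ∀ e, f (a (s • e)) - g (b (s • e)) = f (a e) - g (b e)) →
      ∀ s ∈ I ⊓ S, (∀ x, f (s • x) = f x) ∧ ∀ y, g (s • y) = g y := by
    intro f g hf hg S hSo hS
    obtain ⟨P, hPc, hPI, hPl, ⟨φ, Q, hQ, hφ⟩, hfrat, huniq⟩ := hP S hSo
    have h0l1 : Conn0 l a b := by simpa using h0l 0
    have hSl1 : Surj0 l a b := by simpa using hSl 0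
    -- `P` has a center
    have hsm := smith_sub l ha hb hae hbe h0l1 hSl1 P hPc hPl (by
      intro V hVn hVo f' g' hf' hg' hinv u hu
      exact weights l hae hbe h0l hSl (V ⊓ P) φ Q hQ (fun x hx => hφ x hx.2) hf' hg' hinv
        ((hf'.comp_continuous ha).sub (hg'.comp_continuous hb)) u hu)
    have hcen := center l hl.out.one_lt ha hb hae hbe P hsm.1 hsm.2 huniq
    -- the kernel
    have htr : ∀ s ∈ S, ∃ c, Tr f g s c := fun s hs => exists_tr hae hbe h0p hf hg (hS s hs)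
    let K0 : Subgroup G :=
      { carrier := {s | s ∈ I ⊓ S ∧ Tr f g s 0}
        mul_mem' := by
          rintro s t ⟨hs, hs'⟩ ⟨ht, ht'⟩
          refine ⟨(I ⊓ S).mul_mem hs ht, ?_⟩
          have := hs'.mul ht'
          rwa [add_zero] at this
        one_mem' := ⟨(I ⊓ S).one_mem, Tr.one⟩
        inv_mem' := by
          rintro s ⟨hs, hs'⟩
          refine ⟨(I ⊓ S).inv_mem hs, ?_⟩
          have := hs'.inv
          rwa [neg_zero] at this }
    have hK0c : IsClosed (K0 : Set G) := by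
      have h1 : (K0 : Set G) = ((I : Set G) ∩ S) ∩
          ((stabFun G f : Set G) ∩ (stabFun G g : Set G)) := by
        ext s
        constructor
        · rintro ⟨hs, hs'⟩
          exact ⟨hs, fun x => by rw [hs'.1, add_zero], fun x => by rw [hs'.2, add_zero]⟩
        · rintro ⟨hs, h1, h2⟩
          exact ⟨hs, fun x => by rw [h1, add_zero], fun x => by rw [h2, add_zero]⟩
      rw [h1]
      exact (hIc.inter (S.isClosed_of_isOpen hSo)).inter
        (((stabFun G f).isClosed_of_isOpen (isOpen_stabFun hf)).inter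
          ((stabFun G g).isClosed_of_isOpen (isOpen_stabFun hg)))
    have hK0conj : ∀ x ∈ I ⊓ S, ∀ k ∈ K0, x * k * x⁻¹ ∈ K0 := by
      intro x hx k hk
      refine ⟨(I ⊓ S).mul_mem ((I ⊓ S).mul_mem hx hk.1) ((I ⊓ S).inv_mem hx), ?_⟩
      obtain ⟨d, hd⟩ := htr x hx.2
      have := (hd.mul hk.2).mul hd.inv
      rwa [add_zero, add_neg_cancel] at this
    have hPK : P ≤ K0 := by
      intro x hx
      refine ⟨hPI hx, ?_⟩
      obtain ⟨d, hd⟩ := htr x (hPI hx).2
      -- an open normal subgroup inside the stabilizers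
      have hO : ((stabFun G f : Set G) ∩ (stabFun G g : Set G)) ∈ 𝓝 (1 : G) :=
        Filter.inter_mem ((isOpen_stabFun hf).mem_nhds (stabFun G f).one_mem)
          ((isOpen_stabFun hg).mem_nhds (stabFun G g).one_mem)
      obtain ⟨O2, hO2, hO2o, h1⟩ := mem_nhds_iff.1 hO
      obtain ⟨V, hV⟩ := ProfiniteGrp.exist_openNormalSubgroup_sub_open_nhds_of_one hO2o h1
      have h2 := hPl V.toSubgroup V.isOpen'
      obtain ⟨k, hk⟩ := h2 ⟨QuotientGroup.mk' V.toSubgroup x, x, hx, rfl⟩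
      have h3 : x ^ (l ^ k) ∈ V.toSubgroup := by
        have h4 := congrArg Subtype.val hk
        simp only [Subgroup.coe_pow, Subgroup.coe_one] at h4
        rw [← map_pow, ← MonoidHom.mem_ker, QuotientGroup.ker_mk'] at h4
        exact h4
      have h4 := hO2 (hV h3)
      have h5 : Tr f g (x ^ (l ^ k)) 0 :=
        ⟨fun y => by rw [h4.1 y, add_zero], fun y => by rw [h4.2 y, add_zero]⟩
      have h6 := (hd.pow (l ^ k)).unique h0p.1 h5
      rw [nsmul_eq_mul] at h6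
      have h7 : ((l ^ k : ℕ) : ZMod p) ≠ 0 := by
        rw [Ne, ZMod.natCast_eq_zero_iff]
        intro h
        exact hpl ((Nat.prime_dvd_prime_iff_eq hp.out hl.out).1 (hp.out.dvd_of_dvd_pow h))
      have h8 : d = 0 := (mul_eq_zero.1 h6).resolve_left h7
      rwa [h8] at hd
    intro s hs
    obtain ⟨h, hh, n, hn, rfl⟩ := hfrat K0 hK0c (fun x hx => hx.1) hK0conj hPK s hs
    have hnIS : n ∈ I ⊓ S := by
      have := (I ⊓ S).mul_mem ((I ⊓ S).inv_mem hh.1) hs
      simpa using this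
    obtain ⟨d, hd⟩ := htr n hnIS.2
    have hd0 : d = 0 := hd.eq_zero_of_fix (by
      rcases hcen with ⟨x, hx⟩ | ⟨x, hx⟩
      · exact Or.inl ⟨x, hx n hn⟩
      · exact Or.inr ⟨x, hx n hn⟩)
    rw [hd0] at hd
    have h1 := hh.2.mul hd
    rw [add_zero] at h1
    exact ⟨fun x => by rw [h1.1, add_zero], fun x => by rw [h1.2, add_zero]⟩
  -- wild inertia
  have hsm := smith_sub p ha hb hae hbe h0p hSp W hWc hWp (by
    intro V hVn hVo f g hf hg hinv u hu
    have hlc : IsLocallyConstant (fun e => f (a e) - g (b e)) :=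
      (hf.comp_continuous ha).sub (hg.comp_continuous hb)
    refine hobs f g hf hg (stabFun G (fun e => f (a e) - g (b e))) (isOpen_stabFun hlc)
      (fun s hs e => hs e) u ⟨hWI hu.2, fun e => hinv u hu e⟩)
  have hcen := center p hp.out.one_lt ha hb hae hbe W hsm.1 hsm.2 hWu
  have hnorm : Subgroup.normalizer (W : Set G) = ⊤ := Subgroup.normalizer_eq_top W
  rw [hnorm] at hcen
  simpa using hcen

end Main

end P025H970
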