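import Vale.Agent.P025.R2.H222.Def

/-!
# P025 G-LA-b (helper970): P5, the map `ψ : L → B`
-/

universe u v

namespace P025H970

open Polynomial P025H373 P025H552 TensorProduct P025H572 P025H222

noncomputable section

set_option linter.unusedSectionVars false
set_option linter.unusedVariables false

section psi

variable {C : Type u} [NontriviallyNormedField C] [IsUltrametricDist C] [CompleteSpace C]
  [IsAlgClosed C] [CharZero C]

/-- an element algebraic over `C` is a constant. -/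
lemma exists_const_of_root {E : Type*} [Field E] (ι : C →+* E) {x : E} {P : C[X]} (hP : P ≠ 0)
    (h0 : P.eval₂ ι x = 0) : ∃ c, ι c = x := by
  let algC : Algebra C E := ι.toAlgebra
  have hint : IsIntegral C x := (show IsAlgebraic C x from ⟨P, hP, h0⟩).isIntegral
  obtain ⟨c, hc⟩ := hint.mem_range_algebraMap_of_minpoly_splits (K := C) (by
    exact IsAlgClosed.splits _)
  exact ⟨c, hc⟩

/-- `s` is transcendental. -/
lemma s2_pow_ne {e : ℕ} (he : e ≠ 0) (c : C) : s2 C ^ e ≠ algebraMap C (F2 C) c := by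
  intro h0
  have ht : (algebraMap (RatFunc C) (F2 C) RatFunc.X) ≠ 0 :=
    (_root_.map_ne_zero _).2 RatFunc.X_ne_zero
  rw [s2, inv_pow, inv_eq_iff_eq_inv] at h0
  have hc : algebraMap C (F2 C) c ≠ 0 := by
    intro h1
    rw [h1, inv_zero] at h0
    exact pow_ne_zero e ht h0
  have h1 : algebraMap (RatFunc C) (F2 C) (algebraMap C[X] (RatFunc C) (Polynomial.C c * X ^ e)) =
      algebraMap (RatFunc C) (F2 C) (algebraMap C[X] (RatFunc C) 1) := by
    rw [map_mul, map_mul, map_pow, map_pow, RatFunc.algebraMap_X, RatFunc.algebraMap_C, h0,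
      map_one, map_one]
    exact mul_inv_cancel₀ hc
  have h2 := RatFunc.algebraMap_injective C ((algebraMap (RatFunc C) (F2 C)).injective h1)
  have h3 := congrArg (Polynomial.eval 0) h2
  rw [eval_mul, eval_pow, eval_X, zero_pow he, mul_zero, eval_one] at h3
  exact zero_ne_one h3

variable {p h l : ℕ} {ζ κ Y0 ρ : C} {A V : C[X]}

lemma root_pow_BB {q e : ℕ} {b : C} : (AdjoinRoot.root _ : BB q e b) ^ q =
    1 + cst q (xb b e) b * AdjoinRoot.of _ (s2 C) ^ e := by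
  have h2 := AdjoinRoot.eval₂_root (X ^ q - Polynomial.C (xb b e) : (F2 C)[X])
  rw [eval₂_sub, eval₂_X_pow, eval₂_C, sub_eq_zero] at h2
  have h3 : xb b e = 1 + algebraMap C (F2 C) b * s2 C ^ e := rfl
  have h4 := congrArg (AdjoinRoot.of (X ^ q - Polynomial.C (xb b e) : (F2 C)[X])) h3
  rw [map_add, map_one, map_mul, map_pow] at h4
  exact h2.trans h4

/-- `τ` is transcendental in every field. -/
lemma no_point {b : C} {q e : ℕ} (hq : q = p * h) (he : e ≠ 0)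
    (hb : b ≠ 0) {E : Type*} [Field E] (j : F2 C →+* E) {τ y : E}
    (hτ : j (algebraMap C (F2 C) Y0) * (1 + j (algebraMap C (F2 C) ρ) * τ) = y ^ p)
    (hy : y ^ q = 1 + j (algebraMap C (F2 C) b) * j (s2 C) ^ e) {P : C[X]} (hP : P ≠ 0)
    (h0 : P.eval₂ (j.comp (algebraMap C (F2 C))) τ = 0) : False := by
  obtain ⟨c, hc⟩ := exists_const_of_root (j.comp (algebraMap C (F2 C))) hP h0
  have hb' : j (algebraMap C (F2 C) b) ≠ 0 :=
    (_root_.map_ne_zero j).2 ((_root_.map_ne_zero _).2 hb)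
  have h2 : j (s2 C ^ e) = j (algebraMap C (F2 C)
      (((Y0 * (1 + ρ * c)) ^ h - 1) * b⁻¹)) := by
    have h3 : j (algebraMap C (F2 C) (((Y0 * (1 + ρ * c)) ^ h - 1) * b⁻¹)) =
        ((j (algebraMap C (F2 C) Y0) * (1 + j (algebraMap C (F2 C) ρ) * τ)) ^ h - 1) *
          (j (algebraMap C (F2 C) b))⁻¹ := by
      rw [← hc]
      simp only [map_mul, map_sub, map_add, map_pow, map_one, map_inv₀, RingHom.comp_apply]
    rw [h3, hτ, ← pow_mul, ← hq, hy, map_pow, eq_mul_inv_iff_mul_eq₀ hb']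
    ring
  exact s2_pow_ne he _ (j.injective h2)

/-- units are detected by the homomorphisms to fields. -/
lemma isUnit_of_field {B : Type u} [CommRing B] (x : B)
    (hx : ∀ (E : Type u) [Field E] (π : B →+* E), π x ≠ 0) : IsUnit x := by
  by_contra hnu
  obtain ⟨M, hM, hmem⟩ := exists_max_ideal_of_mem_nonunits hnu
  let fE : Field (B ⧸ M) := Ideal.Quotient.field M
  exact hx (B ⧸ M) (Ideal.Quotient.mk M) (Ideal.Quotient.eq_zero_iff_mem.2 hmem)

/-- nonzero polynomials in `τ` are units. -/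
lemma isUnit_evτ {b : C} {q e : ℕ} (hq : q = p * h) (he : e ≠ 0)
    (hb : b ≠ 0) {τ : BB q e b} (hτ : cst q (xb b e) Y0 * (1 + cst q (xb b e) ρ * τ) =
      AdjoinRoot.root _ ^ p) {P : C[X]} (hP : P ≠ 0) :
    IsUnit (P.eval₂ (cst q (xb b e)) τ) := by
  apply isUnit_of_field
  intro E _ π h0
  refine no_point (P := P) (Y0 := Y0) (ρ := ρ) (y := π (AdjoinRoot.root _))
    (τ := π τ) hq he hb (π.comp (AdjoinRoot.of _)) ?_ ?_ hP ?_
  · have h1 := congrArg π hτ
    rw [map_mul, map_add, map_one, map_mul, map_pow] at h1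
    exact h1
  · have h1 := congrArg π (root_pow_BB (q := q) (e := e) (b := b))
    rw [map_add, map_one, map_mul, map_pow, map_pow] at h1
    exact h1
  · rw [Polynomial.hom_eval₂] at h0
    exact h0

/-- P5 : the map `L → B` -/
theorem exists_psi (d : Dat p h l ζ κ Y0 ρ A V) (hp : p ≠ 0) (hh : h ≠ 0) {b γ : C} {q e e' : ℕ}
    (hq : q = p * h) (he : e = e' * p) (he' : e' ≠ 0) (hb : b ≠ 0)
    (hγ : γ ^ p * Y0 = b * (κ - 1)) :
    ∃ ψ : LL C p h κ ρ →+* BB q e b, IsPsi p h κ Y0 ρ γ b q e e' ψ := by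
  have he0 : e ≠ 0 := by rw [he]; exact mul_ne_zero he' hp
  have hY := d.yne
  have hρ := d.rne
  set c₀ : C →+* BB q e b := cst q (xb b e) with hc₀
  set y : BB q e b := AdjoinRoot.root _ with hy
  have i1 : c₀ Y0 * c₀ Y0⁻¹ = 1 := by rw [← map_mul, mul_inv_cancel₀ hY, map_one]
  have i2 : c₀ ρ * c₀ ρ⁻¹ = 1 := by rw [← map_mul, mul_inv_cancel₀ hρ, map_one]
  obtain ⟨τ, hτ⟩ : ∃ τ : BB q e b, c₀ Y0 * (1 + c₀ ρ * τ) = y ^ p := by
    refine ⟨c₀ ρ⁻¹ * (c₀ Y0⁻¹ * y ^ p - 1), ?_⟩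
    linear_combination (c₀ Y0 * (c₀ Y0⁻¹ * y ^ p - 1)) * i2 + y ^ p * i1
  have hunit : ∀ P : nonZeroDivisors C[X],
      IsUnit (Polynomial.eval₂RingHom c₀ τ (P : C[X])) := fun P =>
    isUnit_evτ hq he0 hb hτ (nonZeroDivisors.ne_zero P.2)
  let ψ₀ : RatFunc C →+* BB q e b := IsLocalization.lift hunit
  have hψ₀ : ∀ P : C[X], ψ₀ (algebraMap C[X] (RatFunc C) P) = P.eval₂ c₀ τ := fun P =>
    IsLocalization.lift_eq hunit P
  have hyq : y ^ q = 1 + c₀ b * AdjoinRoot.of _ (s2 C) ^ e := root_pow_BB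
  have hpoly : (c₀ γ * AdjoinRoot.of _ (s2 C ^ e') * y) ^ p =
      ψ₀ (algebraMap C[X] (RatFunc C) (Ph h κ ρ)) := by
    rw [hψ₀, Ph_eq ρ d.yh, Qp]
    simp only [eval₂_mul, eval₂_sub, eval₂_pow, eval₂_add, eval₂_C, eval₂_X, eval₂_one]
    have h1 : c₀ (Y0 ^ h) * (1 + c₀ ρ * τ) ^ h - 1 = c₀ b * AdjoinRoot.of _ (s2 C) ^ e := by
      rw [map_pow, ← mul_pow, hτ, ← pow_mul, ← hq, hyq]
      ring
    rw [h1, map_pow, mul_pow, mul_pow, ← pow_mul, ← he]
    have h2 : c₀ γ ^ p * c₀ Y0 = c₀ b * c₀ (κ - 1) := by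
      rw [← map_pow, ← map_mul, hγ, map_mul]
    generalize (AdjoinRoot.of _ (s2 C) : BB q e b) ^ e = S
    linear_combination (c₀ γ ^ p * S) * (-hτ) + S * (1 + c₀ ρ * τ) * h2
  let ψ : LL C p h κ ρ →+* BB q e b := AdjoinRoot.lift ψ₀
    (c₀ γ * AdjoinRoot.of _ (s2 C ^ e') * y) (by
      rw [eval₂_sub, eval₂_X_pow, eval₂_C, hpoly, sub_self])
  refine ⟨ψ, ⟨fun c => ?_, ?_, AdjoinRoot.lift_root _⟩⟩
  · have h1 : algebraMap C (LL C p h κ ρ) c =
        AdjoinRoot.of _ (algebraMap C[X] (RatFunc C) (Polynomial.C c)) := by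
      rw [RatFunc.algebraMap_C]
      rfl
    rw [h1]
    change ψ (AdjoinRoot.of _ _) = _
    rw [AdjoinRoot.lift_of, hψ₀, eval₂_C]
  · have h1 : ψ (algebraMap (RatFunc C) (LL C p h κ ρ) RatFunc.X) = τ := by
      change ψ (AdjoinRoot.of _ RatFunc.X) = _
      rw [AdjoinRoot.lift_of, ← RatFunc.algebraMap_X, hψ₀, eval₂_X]
    rw [h1]
    exact hτ

end psi

end

end P025H970
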