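import Vale.Agent.P025.R2.H492.Ext3
import Vale.Agent.P025.R2.H507.Phi

/-!
# P025, G-LA-b (helper970): `X ^ p - Φ` over `C(t)`, the field `M' = C(t)(T)`, `T ^ p = Φ`
-/

open Polynomial

namespace P025H970

section irr

variable {K : Type*} [Field K]

/-- `X ^ p - f` is irreducible over `K(t)` if `f` has a simple zero: Eisenstein. -/
theorem irred_of_simple_root {p : ℕ} (hp : p ≠ 0) {f : K[X]} {a : K} (h0 : f.eval a = 0)
    (h1 : (derivative f).eval a ≠ 0) :
    Irreducible (X ^ p - C (algebraMap K[X] (RatFunc K) f) : (RatFunc K)[X]) := by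
  have hprim : (X ^ p - C f : K[X][X]).IsPrimitive := (monic_X_pow_sub_C f hp).isPrimitive
  have hdeg : (X ^ p - C f : K[X][X]).natDegree = p := natDegree_X_pow_sub_C
  have hPprime : (Ideal.span {X - C a} : Ideal K[X]).IsPrime :=
    (Ideal.span_singleton_prime (X_sub_C_ne_zero a)).mpr (prime_X_sub_C a)
  have hmem : ∀ g : K[X], g ∈ (Ideal.span {X - C a} : Ideal K[X]) ↔ g.eval a = 0 := by
    intro g
    rw [Ideal.mem_span_singleton, dvd_iff_isRoot]
    rfl
  have hirr : Irreducible (X ^ p - C f : K[X][X]) := by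
    refine irreducible_of_eisenstein_criterion hPprime ?_ ?_ ?_ ?_ hprim
    · rw [(monic_X_pow_sub_C f hp).leadingCoeff, hmem, eval_one]
      exact one_ne_zero
    · intro n hn
      rw [degree_eq_natDegree (monic_X_pow_sub_C f hp).ne_zero, hdeg, Nat.cast_lt] at hn
      rw [coeff_sub, coeff_X_pow, if_neg hn.ne, zero_sub, Ideal.neg_mem_iff, coeff_C]
      split_ifs
      · rw [hmem]; exact h0
      · exact Ideal.zero_mem _
    · rw [← natDegree_pos_iff_degree_pos, hdeg]
      exact Nat.pos_of_ne_zero hp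
    · rw [coeff_sub, coeff_X_pow, if_neg (Ne.symm hp), zero_sub, Ideal.neg_mem_iff,
        coeff_C_zero, Ideal.span_singleton_pow, Ideal.mem_span_singleton]
      rintro ⟨g, hg⟩
      apply h1
      rw [hg, sq, mul_assoc, derivative_mul, derivative_X_sub_C, one_mul]
      simp
  have h2 := (hprim.irreducible_iff_irreducible_map_fraction_map (K := RatFunc K)).mp hirr
  rwa [Polynomial.map_sub, Polynomial.map_pow, map_X, map_C] at h2

/-- `Φ` with the variable scaled by `ρ`. -/
theorem irred_phi {p h : ℕ} (hp : p ≠ 0) (hh : h ≠ 0) {κ ρ : K} (hκ : κ ≠ 1) (hρ : ρ ≠ 0) :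
    Irreducible (X ^ p - C (algebraMap K[X] (RatFunc K)
      (C (1 - κ) * (1 + C ρ * X) + C κ * (1 + C ρ * X) ^ (h + 1))) : (RatFunc K)[X]) := by
  have hz : (1 : K) + ρ * (-ρ⁻¹) = 0 := by
    rw [mul_neg, mul_inv_cancel₀ hρ, add_neg_cancel]
  apply irred_of_simple_root hp (a := -ρ⁻¹)
  · simp only [eval_add, eval_mul, eval_pow, eval_C, eval_X, eval_one, hz]
    simp
  · have h2 : (derivative (C (1 - κ) * (1 + C ρ * X) + C κ * (1 + C ρ * X) ^ (h + 1))).eval (-ρ⁻¹) =
        (1 - κ) * ρ := by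
      simp only [derivative_add, derivative_mul, derivative_pow, derivative_C, derivative_X,
        derivative_one, eval_add, eval_mul, eval_pow, eval_C, eval_X, eval_one, hz, eval_zero,
        Nat.add_sub_cancel, zero_pow hh]
      ring
    rw [h2]
    exact mul_ne_zero (sub_ne_zero.2 (Ne.symm hκ)) hρ

/-- `Φ = Phi κ h`. -/
theorem irred_Phi {p h : ℕ} (hp : p ≠ 0) (hh : h ≠ 0) {κ : K} (hκ : κ ≠ 1) :
    Irreducible (X ^ p - C (algebraMap K[X] (RatFunc K) (P025H507.Phi κ h)) :
      (RatFunc K)[X]) := by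
  have h1 := irred_phi (p := p) hp hh hκ (one_ne_zero (α := K))
  have h2 : (C (1 - κ) * (1 + C 1 * X) + C κ * (1 + C 1 * X) ^ (h + 1) : K[X]) =
      P025H507.Phi κ h := by
    rw [P025H507.Phi, C_1, one_mul, add_comm (1 : K[X]) X]
  rwa [h2] at h1

/-- `Phi κ h` with the variable scaled by `ρ`. -/
theorem irred_Phi_comp {p h : ℕ} (hp : p ≠ 0) (hh : h ≠ 0) {κ ρ : K} (hκ : κ ≠ 1) (hρ : ρ ≠ 0) :
    Irreducible (X ^ p - C (algebraMap K[X] (RatFunc K) ((P025H507.Phi κ h).comp (C ρ * X))) :
      (RatFunc K)[X]) := by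
  have h1 := irred_phi (p := p) hp hh hκ hρ
  have h2 : (C (1 - κ) * (1 + C ρ * X) + C κ * (1 + C ρ * X) ^ (h + 1) : K[X]) =
      (P025H507.Phi κ h).comp (C ρ * X) := by
    simp only [P025H507.Phi, add_comp, mul_comp, pow_comp, C_comp, X_comp, one_comp]
    rw [add_comm (1 : K[X]) (C ρ * X)]
  rwa [h2] at h1

end irr

section field

variable {F L : Type*} [Field F] [Field L] [Algebra F L] {p : ℕ} {a : F} {T : L}

/-- the minimal polynomial of `T`. -/
theorem minpoly_root (hp : p ≠ 0) (hirr : Irreducible (X ^ p - C a : F[X]))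
    (hT : T ^ p = algebraMap F L a) : minpoly F T = X ^ p - C a := by
  symm
  apply minpoly.eq_of_irreducible_of_monic hirr _ (monic_X_pow_sub_C a hp)
  rw [aeval_def, eval₂_sub, eval₂_X_pow, eval₂_C, hT, sub_self]

theorem isIntegral_root (hp : p ≠ 0) (hT : T ^ p = algebraMap F L a) : IsIntegral F T :=
  ⟨X ^ p - C a, monic_X_pow_sub_C a hp, by rw [eval₂_sub, eval₂_X_pow, eval₂_C, hT, sub_self]⟩

theorem finiteDimensional_root (hp : p ≠ 0) (hT : T ^ p = algebraMap F L a)
    (htop : IntermediateField.adjoin F {T} = ⊤) : FiniteDimensional F L := by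
  have h1 := IntermediateField.adjoin.finiteDimensional (isIntegral_root hp hT)
  rw [htop] at h1
  exact Module.Finite.equiv (IntermediateField.topEquiv (F := F) (E := L)).toLinearEquiv

theorem finrank_root (hp : p ≠ 0) (hirr : Irreducible (X ^ p - C a : F[X]))
    (hT : T ^ p = algebraMap F L a) (htop : IntermediateField.adjoin F {T} = ⊤) :
    Module.finrank F L = p := by
  rw [← IntermediateField.finrank_top', ← htop,
    IntermediateField.adjoin.finrank (isIntegral_root hp hT), minpoly_root hp hirr hT,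
    natDegree_X_pow_sub_C]

/-- the extension is Galois. -/
theorem isGalois_root (hp : p ≠ 0) {ζ : F} (hζ : IsPrimitiveRoot ζ p)
    (hirr : Irreducible (X ^ p - C a : F[X]))
    (hT : T ^ p = algebraMap F L a) (htop : IntermediateField.adjoin F {T} = ⊤) :
    IsGalois F L := by
  have hfr := finrank_root hp hirr hT htop
  have hfd := finiteDimensional_root hp hT htop
  subst hfr
  have h0 : (primitiveRoots (Module.finrank F L) F).Nonempty :=
    ⟨ζ, (mem_primitiveRoots (Nat.pos_of_ne_zero hp)).2 hζ⟩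
  have h1 := isSplittingField_X_pow_sub_C_of_root_adjoin_eq_top h0 hT htop
  exact isGalois_of_isSplittingField_X_pow_sub_C h0 hirr L

/-- the conjugates of `T`. -/
theorem exists_aut_root (hp : p ≠ 0) {ζ : F} (hζ : IsPrimitiveRoot ζ p)
    (hirr : Irreducible (X ^ p - C a : F[X]))
    (hT : T ^ p = algebraMap F L a) (htop : IntermediateField.adjoin F {T} = ⊤) (i : ℕ) :
    ∃ σ : L ≃ₐ[F] L, σ T = algebraMap F L ζ ^ i * T := by
  have h1 := isGalois_root hp hζ hirr hT htop
  have h2 := finiteDimensional_root hp hT htop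
  have h3 : minpoly F (algebraMap F L ζ ^ i * T) = minpoly F T := by
    rw [minpoly_root hp hirr hT]
    apply minpoly_root hp hirr
    rw [mul_pow, hT, ← pow_mul, mul_comm i p, pow_mul, ← map_pow, hζ.pow_eq_one, map_one, one_pow,
      one_mul]
  have h4 : minpoly F T = minpoly F (algebraMap F L ζ ^ i * T) := h3.symm
  obtain ⟨σ, hσ⟩ := (Normal.minpoly_eq_iff_mem_orbit L).1 h4
  have h5 : σ (algebraMap F L ζ ^ i * T) = T := hσ
  exact ⟨σ.symm, by
    have h6 := AlgEquiv.symm_apply_apply σ (algebraMap F L ζ ^ i * T)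
    rwa [h5] at h6⟩

end field

section cff

open Vale.Agent.P019P

variable {C L : Type*} [Field C] [Field L] [Algebra C L] [Algebra (RatFunc C) L]
  [IsScalarTower C (RatFunc C) L] {p : ℕ} {a : RatFunc C} {T : L}

theorem cff_root [CFF C (RatFunc C)] (hp : p ≠ 0) (hT : T ^ p = algebraMap (RatFunc C) L a)
    (htop : IntermediateField.adjoin (RatFunc C) {T} = ⊤) : CFF C L := by
  have h1 := finiteDimensional_root hp hT htop
  exact P025H492.cff_of_finite (k := C) (K := RatFunc C) (L := L)

end cff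

end P025H970
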