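import Mathlib

/-! Kummer theory: `p`-th roots in `K(f^(1/p))` -/

namespace P025H970

open Polynomial

theorem kummer_mem {K W : Type*} [Field K] [Field W] [Algebra K W] (p : ℕ) [hp : Fact p.Prime]
    (ζ : K) (hζ : IsPrimitiveRoot ζ p) (f : K) (hf : ∀ b : K, b ^ p ≠ f) (w : W)
    (hw : w ^ p = algebraMap K W f) (hgen : Algebra.adjoin K {w} = ⊤) (y : W)
    (hy : ∃ z : K, y ^ p = algebraMap K W z) :
    ∃ (c : K) (j : ℕ), y = algebraMap K W c * w ^ j := by
  have hirr : Irreducible (X ^ p - C f) := X_pow_sub_C_irreducible_of_prime hp.out hf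
  have hmonic : (X ^ p - C f).Monic := monic_X_pow_sub_C f hp.out.ne_zero
  have hint : IsIntegral K w := ⟨X ^ p - C f, hmonic, by simp [hw]⟩
  have hmin : X ^ p - C f = minpoly K w :=
    minpoly.eq_of_irreducible_of_monic hirr (by simp [hw]) hmonic
  let e : Algebra.adjoin K {w} ≃ₐ[K] W :=
    (Subalgebra.equivOfEq _ _ hgen).trans Subalgebra.topEquiv
  let pb : PowerBasis K W := (Algebra.adjoin.powerBasis hint).map e
  have hpb : pb.gen = w := by
    simp only [pb, PowerBasis.map_gen, Algebra.adjoin.powerBasis_gen, e]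
    rfl
  have hdim : pb.dim = p := by
    rw [← pb.natDegree_minpoly, hpb, ← hmin, natDegree_X_pow_sub_C]
  -- the automorphism
  have hroot : aeval (algebraMap K W ζ * w) (minpoly K pb.gen) = 0 := by
    rw [hpb, ← hmin]
    simp only [map_sub, map_pow, aeval_X, aeval_C, mul_pow, hw]
    rw [← map_pow, hζ.pow_eq_one, map_one, one_mul, sub_self]
  let σ : W →ₐ[K] W := pb.lift (algebraMap K W ζ * w) hroot
  have hσw : σ w = algebraMap K W ζ * w := by
    have := pb.lift_gen (algebraMap K W ζ * w) hroot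
    rwa [hpb] at this
  by_cases hy0 : y = 0
  · exact ⟨0, 0, by simp [hy0]⟩
  obtain ⟨z, hz⟩ := hy
  have hσy : (σ y / y) ^ p = 1 := by
    rw [div_pow, ← map_pow, hz, AlgHom.commutes, div_self]
    rw [← hz]; exact pow_ne_zero _ hy0
  have hζ' : IsPrimitiveRoot (algebraMap K W ζ) p := hζ.map_of_injective (algebraMap K W).injective
  obtain ⟨j, hj, hjy⟩ := hζ'.eq_pow_of_pow_eq_one hσy
  have hσy' : σ y = algebraMap K W ζ ^ j * y := by
    rw [hjy, div_mul_cancel₀ _ hy0]
  -- expand
  have hrep : y = ∑ i : Fin pb.dim, algebraMap K W (pb.basis.repr y i) * w ^ (i : ℕ) := by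
    conv_lhs => rw [← pb.basis.sum_repr y]
    refine Finset.sum_congr rfl fun i _ => ?_
    rw [pb.basis_eq_pow, hpb, Algebra.smul_def]
  have hc : ∀ i : Fin pb.dim, ζ ^ (i : ℕ) * pb.basis.repr y i = ζ ^ j * pb.basis.repr y i := by
    intro i
    have h1 : σ y = ∑ i : Fin pb.dim, (ζ ^ (i : ℕ) * pb.basis.repr y i) • pb.basis i := by
      conv_lhs => rw [hrep]
      rw [map_sum]
      refine Finset.sum_congr rfl fun i _ => ?_
      rw [map_mul, AlgHom.commutes, map_pow, hσw, pb.basis_eq_pow, hpb, Algebra.smul_def, mul_pow,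
        map_mul, map_pow]
      ring
    have h2 : σ y = ∑ i : Fin pb.dim, (ζ ^ j * pb.basis.repr y i) • pb.basis i := by
      rw [hσy']
      conv_lhs => rw [← pb.basis.sum_repr y]
      rw [Finset.mul_sum]
      refine Finset.sum_congr rfl fun i _ => ?_
      rw [Algebra.smul_def, Algebra.smul_def, map_mul, map_pow]
      ring
    have h3 := congrArg (fun t => pb.basis.repr t i) (h1.symm.trans h2)
    simp only [Module.Basis.repr_sum_self] at h3
    exact h3
  have hzero : ∀ i : Fin pb.dim, (i : ℕ) ≠ j → pb.basis.repr y i = 0 := by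
    intro i hi
    by_contra hne
    have h1 := mul_right_cancel₀ hne (hc i)
    have hip : (i : ℕ) < p := by have := i.2; omega
    exact hi (hζ.pow_inj hip hj h1)
  have hj' : j < pb.dim := by rw [hdim]; exact hj
  refine ⟨pb.basis.repr y ⟨j, hj'⟩, j, ?_⟩
  conv_lhs => rw [hrep]
  rw [Finset.sum_eq_single ⟨j, hj'⟩]
  · intro i _ hi
    rw [hzero i (fun h => hi (Fin.ext h)), map_zero, zero_mul]
  · intro h; exact absurd (Finset.mem_univ _) h

end P025H970
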