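import Vale.Agent.P025.R2.H613.Main

/-!
P025, (7.5): an element which is an `n`-th power on both sides is an `n`-th power, if all windings
of the elements of `S` are divisible by `n`.
-/

open TensorProduct P025H544 P025H613

namespace P025H970

universe u

theorem nt_of_wind {F F1 F2 F0 : Type*} [Field F] [Field F1] [Field F2] [Field F0]
    [Algebra F F1] [Algebra F F2] [Algebra F F0] [Algebra F1 F0] [Algebra F2 F0]
    [IsScalarTower F F1 F0] [IsScalarTower F F2 F0] {K : Type u} [Field K] [Algebra F K]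
    {W : F0 → ℤ} {n : ℕ} [NeZero n] {ζ : F} [CharZero F] [FiniteDimensional F K]
    (hP : Patch F F1 F2 F0) (hW : IsWind W) (hζ : IsPrimitiveRoot ζ n) {S : Subgroup Kˣ}
    (hM : Moves F F1 F2 W n S)
    (hS : ∀ f ∈ S, ∀ w : Pt F F0 K, (n : ℤ) ∣ wd W w (1 ⊗ₜ (f : K) : F0 ⊗[F] K))
    (x : K) (hx : x ≠ 0) (h1 : ∃ a : F1 ⊗[F] K, a ^ n = (1 : F1) ⊗ₜ[F] x)
    (h2 : ∃ b : F2 ⊗[F] K, b ^ n = (1 : F2) ⊗ₜ[F] x) : ∃ y : K, y ^ n = x := by
  have hn : n ≠ 0 := NeZero.ne n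
  let i1 : Fintype (Pt F F0 K) := Fintype.ofFinite _
  obtain ⟨γ, a, b, hγ, hx'⟩ := xgamma_of_isPow (F0 := F0) n x hx hn h1 h2
  rw [hP.xgamma_isPow_iff n hn γ x a b hx']
  refine pebble hP hW hζ hM γ hγ fun f hf => ?_
  refine Finset.prod_eq_one fun w _ => ?_
  have hv : val w (γ : F0 ⊗[F] K) ^ n = 1 := by
    refine val_pow hζ w ?_
    rw [← Units.val_pow_eq_pow_val, hγ, Units.val_one]
  have h3 : (n : ℤ) ∣ wd W w (1 ⊗ₜ (f : K) : F0 ⊗[F] K) - 0 := by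
    rw [sub_zero]; exact hS f hf w
  rw [zpow_eq_of_dvd hv h3, zpow_zero]

end P025H970
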