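import Vale.Agent.P025.R2.H970.NT
import Vale.Agent.P025.R2.H373.Gauss
import Vale.Agent.P025.R2.H613.MovesOf
import Vale.Agent.P025.R2.H621.Defs
import Vale.Agent.P025.R2.H725.OneVertex

/-!
# P025, (7.5) (NT) for the patching square of `C(t)` (helper970)

`nt_pt_of` : S1 of helper621's `Spec7` from the concrete `Moves` of helper613.
-/

open Polynomial TensorProduct

universe u

namespace P025H970

open Vale.Agent.P019P P025H373 P025H544 P025H613 P025H621 P025H725

section Patch

variable (C : Type u) [NontriviallyNormedField C] [IsUltrametricDist C] [CompleteSpace C]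
  [IsAlgClosed C]

/-- the patching square of the unit circle -/
theorem patchC : Patch (RatFunc C) (F1 C) (F2 C) (F0 C) where
  inter x y h := by
    have h1 : (x : F0 C) ∈ F1 C ⊓ F2 C := ⟨x.2, by
      have : (x : F0 C) = (y : F0 C) := h
      rw [this]; exact y.2⟩
    rw [F1_inf_F2, IntermediateField.mem_bot] at h1
    obtain ⟨z, hz⟩ := h1
    refine ⟨z, Subtype.ext hz, Subtype.ext ?_⟩
    have h2 : (x : F0 C) = (y : F0 C) := h
    rw [← h2]; exact hz
  fact n g := by
    obtain ⟨a, b, ha, hb, hab⟩ := exists_GL_mul (g : Matrix (Fin n) (Fin n) (F0 C)) g.isUnit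
    obtain ⟨a', rfl⟩ := ha
    obtain ⟨b', rfl⟩ := hb
    refine ⟨a', b', ?_⟩
    apply Units.ext
    exact hab

theorem isWind_wind : IsWind (wind C) := ⟨fun _ _ hx hy => wind_mul hx hy⟩

theorem exists_root_rat [CharZero C] (n : ℕ) [NeZero n] : ∃ ζ : RatFunc C, IsPrimitiveRoot ζ n := by
  have : NeZero (n : C) := ⟨Nat.cast_ne_zero.mpr (NeZero.ne n)⟩
  obtain ⟨ζ, hζ⟩ := HasEnoughRootsOfUnity.exists_primitiveRoot C n
  exact ⟨RatFunc.C ζ, hζ.map_of_injective (RatFunc.C_injective)⟩

end Patch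

variable {C K : Type u} [NontriviallyNormedField C] [IsUltrametricDist C] [CompleteSpace C]
  [IsAlgClosed C] [Field K] [Algebra C K] [CFF C K] [Algebra (RatFunc C) K]
  [IsScalarTower C (RatFunc C) K] [FiniteDimensional (RatFunc C) K]

/-- S1 of `H621/Spec7` from the moves. -/
theorem nt_pt_of [CharZero C] {p : ℕ} (hp : p.Prime)
    (hM : Moves (RatFunc C) (F1 C) (F2 C) (wind C) p (divSub C K p))
    (hw : ∀ f : K, f ≠ 0 → DivN C p f → ∀ e : Pt (RatFunc C) (F0 C) K,
      (p : ℤ) ∣ wind C (Algebra.norm (F0 C)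
        (Ideal.Quotient.mk e.asIdeal ((1 : F0 C) ⊗ₜ[RatFunc C] f))))
    {x : K} (hx : x ≠ 0) (h1 : PowIn (RatFunc C) (F1 C) p x) (h2 : PowIn (RatFunc C) (F2 C) p x) :
    ∃ y : K, y ^ p = x := by
  have : NeZero p := ⟨hp.ne_zero⟩
  have : CharZero (RatFunc C) := charZero_of_injective_algebraMap (algebraMap C (RatFunc C)).injective
  obtain ⟨ζ, hζ⟩ := exists_root_rat C p
  exact nt_of_wind (patchC C) (isWind_wind C) hζ hM
    (fun f hf w => hw f f.ne_zero (mem_divSub.1 hf) w) x hx h1 h2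

end P025H970
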