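import Vale.Agent.P025.R2.H970.SmithPro

/-!
Obstruction homomorphisms, connectedness of small graphs, weights.
-/

namespace P025H970

open Set Topology MulAction

section Obs

variable {G A B E : Type*} [Group G] [MulAction G A] [MulAction G B] [MulAction G E]
  [TopologicalSpace A] [TopologicalSpace B] [TopologicalSpace E]

/-- surjectivity of the coboundary -/
def Surj0 (m : ℕ) {A B E : Type*} [TopologicalSpace A] [TopologicalSpace B] [TopologicalSpace E]
    (a : E → A) (b : E → B) : Prop :=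
  ∀ h : E → ZMod m, IsLocallyConstant h → ∃ (f : A → ZMod m) (g : B → ZMod m),
    IsLocallyConstant f ∧ IsLocallyConstant g ∧ ∀ e, h e = f (a e) - g (b e)

/-- `s` translates `(f, g)` by the constant `c` -/
def Tr {G A B R : Type*} [Group G] [MulAction G A] [MulAction G B] [AddCommGroup R]
    (f : A → R) (g : B → R) (s : G) (c : R) : Prop :=
  (∀ x, f (s • x) = f x + c) ∧ ∀ y, g (s • y) = g y + c

omit [TopologicalSpace A] [TopologicalSpace B] in
theorem Tr.mul {R : Type*} [AddCommGroup R] {f : A → R} {g : B → R} {s t : G} {c d : R}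
    (hs : Tr f g s c) (ht : Tr f g t d) : Tr f g (s * t) (c + d) := by
  constructor
  · intro x; rw [mul_smul, hs.1, ht.1]; abel
  · intro x; rw [mul_smul, hs.2, ht.2]; abel

omit [TopologicalSpace A] [TopologicalSpace B] in
theorem Tr.one {R : Type*} [AddCommGroup R] {f : A → R} {g : B → R} :
    Tr f g (1 : G) (0 : R) := by
  constructor <;> intro x <;> rw [one_smul, add_zero]

omit [TopologicalSpace A] [TopologicalSpace B] in
theorem Tr.inv {R : Type*} [AddCommGroup R] {f : A → R} {g : B → R} {s : G} {c : R}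
    (hs : Tr f g s c) : Tr f g s⁻¹ (-c) := by
  constructor
  · intro x
    have := hs.1 (s⁻¹ • x)
    rw [smul_inv_smul] at this
    rw [this]; abel
  · intro x
    have := hs.2 (s⁻¹ • x)
    rw [smul_inv_smul] at this
    rw [this]; abel

omit [TopologicalSpace A] [TopologicalSpace B] in
theorem Tr.pow {R : Type*} [AddCommGroup R] {f : A → R} {g : B → R} {s : G} {c : R}
    (hs : Tr f g s c) (n : ℕ) : Tr f g (s ^ n) (n • c) := by
  induction n with
  | zero => simpa using Tr.one
  | succ n ih =>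
    rw [pow_succ, succ_nsmul]
    exact ih.mul hs

omit [TopologicalSpace A] [TopologicalSpace B] in
theorem Tr.unique {R : Type*} [AddCommGroup R] {f : A → R} {g : B → R} {s : G} {c d : R}
    (hne : Nonempty A ∨ Nonempty B) (hs : Tr f g s c) (ht : Tr f g s d) : c = d := by
  rcases hne with ⟨⟨x⟩⟩ | ⟨⟨x⟩⟩
  · have := hs.1 x; rw [ht.1 x] at this; exact (add_left_cancel this).symm
  · have := hs.2 x; rw [ht.2 x] at this; exact (add_left_cancel this).symm

omit [TopologicalSpace A] [TopologicalSpace B] in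
theorem Tr.eq_zero_of_fix {R : Type*} [AddCommGroup R] {f : A → R} {g : B → R} {s : G} {c : R}
    (hs : Tr f g s c) (h : (∃ x : A, s • x = x) ∨ ∃ y : B, s • y = y) : c = 0 := by
  rcases h with ⟨x, hx⟩ | ⟨x, hx⟩
  · have := hs.1 x; rw [hx] at this; simpa using this
  · have := hs.2 x; rw [hx] at this; simpa using this

omit [TopologicalSpace E] in
/-- existence of the obstruction constant -/
theorem exists_tr {m : ℕ} {a : E → A} {b : E → B} [ContinuousConstSMul G A]
    [ContinuousConstSMul G B] (hae : ∀ (g : G) e, a (g • e) = g • a e)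
    (hbe : ∀ (g : G) e, b (g • e) = g • b e) (h0 : Conn0 m a b) {f : A → ZMod m} {g : B → ZMod m}
    (hf : IsLocallyConstant f) (hg : IsLocallyConstant g) {s : G}
    (hs : ∀ e, f (a (s • e)) - g (b (s • e)) = f (a e) - g (b e)) : ∃ c, Tr f g s c := by
  obtain ⟨c, hc1, hc2⟩ := h0.2 (fun x => f (s • x) - f x) (fun y => g (s • y) - g y)
    ((hf.comp_continuous (continuous_const_smul s)).sub hf)
    ((hg.comp_continuous (continuous_const_smul s)).sub hg)
    (by
      intro e
      have := hs e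
      rw [hae, hbe] at this
      linear_combination this)
  refine ⟨c, fun x => ?_, fun y => ?_⟩
  · rw [← hc1 x]; ring
  · rw [← hc2 y]; ring

omit [TopologicalSpace E] [MulAction G A] [MulAction G B] [MulAction G E] in
/-- uniqueness of the solution up to constants -/
theorem sol_unique {m : ℕ} {a : E → A} {b : E → B} (h0 : Conn0 m a b)
    {f f' : A → ZMod m} {g g' : B → ZMod m} (hf : IsLocallyConstant f) (hg : IsLocallyConstant g)
    (hf' : IsLocallyConstant f') (hg' : IsLocallyConstant g')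
    (h : ∀ e, f (a e) - g (b e) = f' (a e) - g' (b e)) :
    ∃ c, (∀ x, f' x = f x + c) ∧ ∀ y, g' y = g y + c := by
  obtain ⟨c, hc1, hc2⟩ := h0.2 (fun x => f' x - f x) (fun y => g' y - g y)
    (hf'.sub hf) (hg'.sub hg) (by intro e; linear_combination -h e)
  refine ⟨c, fun x => ?_, fun y => ?_⟩
  · rw [← hc1 x]; ring
  · rw [← hc2 y]; ring

end Obs

section Small

variable {A B E : Type*} [TopologicalSpace A] [CompactSpace A] [T2Space A]
  [TotallyDisconnectedSpace A] [TopologicalSpace B] [CompactSpace B] [T2Space B]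
  [TotallyDisconnectedSpace B] [TopologicalSpace E] [CompactSpace E] [T2Space E]
  [TotallyDisconnectedSpace E]

/-- `q`-valued indicator separating two disjoint closed sets -/
theorem exists_sep (q : ℕ) {X : Type*} [TopologicalSpace X] [CompactSpace X] [T2Space X]
    [TotallyDisconnectedSpace X] {Z W : Set X} (hZ : IsClosed Z) (hW : IsClosed W)
    (hd : Disjoint Z W) : ∃ f : X → ZMod q, IsLocallyConstant f ∧ (∀ x ∈ Z, f x = 1) ∧
      ∀ x ∈ W, f x = 0 := by
  classical
  obtain ⟨D, hD, hZD, hDW⟩ := exists_clopen_of_closed_subset_open hZ hW.isOpen_compl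
    (fun x hx hxW => Set.disjoint_left.1 hd hx hxW)
  have h2 : (LocallyConstant.charFn (ZMod q) hD).toFun = D.indicator 1 :=
    LocallyConstant.coe_charFn _ _
  refine ⟨D.indicator 1, ?_, fun x hx => ?_, fun x hx => ?_⟩
  · rw [← h2]; exact (LocallyConstant.charFn (ZMod q) hD).isLocallyConstant
  · rw [indicator_of_mem (hZD hx)]; rfl
  · rw [indicator_of_notMem (fun h => hDW h hx)]

/-- a nonempty connected subgraph in which different edges have no common vertex is one vertex
or one edge -/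
theorem small (q : ℕ) (hq : 1 < q) {a : E → A} {b : E → B} (ha : Continuous a) (hb : Continuous b)
    {FA : Set A} {FB : Set B} {FE : Set E} (hFE : IsClosed FE)
    (haF : ∀ e ∈ FE, a e ∈ FA) (hbF : ∀ e ∈ FE, b e ∈ FB)
    (hne : FA.Nonempty ∨ FB.Nonempty)
    (hconn : ∀ (f : A → ZMod q) (g : B → ZMod q), IsLocallyConstant f → IsLocallyConstant g →
      (∀ e ∈ FE, f (a e) = g (b e)) → ∃ c, (∀ x ∈ FA, f x = c) ∧ ∀ y ∈ FB, g y = c)
    (hinj : ∀ e ∈ FE, ∀ e' ∈ FE, e ≠ e' → a e ≠ a e' ∧ b e ≠ b e') :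
    (∃ e, FE = {e} ∧ FA = {a e} ∧ FB = {b e}) ∨ (FE = ∅ ∧ (∃ x, FA = {x}) ∧ FB = ∅) ∨
      (FE = ∅ ∧ FA = ∅ ∧ ∃ y, FB = {y}) := by
  have hq0 : (1 : ZMod q) ≠ 0 := by
    have : Fact (1 < q) := ⟨hq⟩
    exact one_ne_zero
  have hsub : FE.Subsingleton := by
    intro e he e' he'
    by_contra hne'
    obtain ⟨D, hD, heD, hDe⟩ := compact_exists_isClopen_in_isOpen
      (isOpen_compl_singleton (x := e')) (show e ∈ ({e'} : Set E)ᶜ from hne')
    have h1 : ∀ {X : Type _} [TopologicalSpace X] [T2Space X] (φ : E → X), Continuous φ →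
        (∀ e ∈ FE, ∀ e' ∈ FE, e ≠ e' → φ e ≠ φ e') →
        IsClosed (φ '' (FE ∩ D)) ∧ IsClosed (φ '' (FE ∩ Dᶜ)) ∧
        Disjoint (φ '' (FE ∩ D)) (φ '' (FE ∩ Dᶜ)) := by
      intro X _ _ φ hφ hinj
      refine ⟨((hFE.inter hD.1).isCompact.image hφ).isClosed,
        ((hFE.inter hD.compl.1).isCompact.image hφ).isClosed, ?_⟩
      rw [Set.disjoint_left]
      rintro _ ⟨x, hx, rfl⟩ ⟨y, hy, hxy⟩
      by_cases hxy' : y = x
      · subst hxy'; exact hy.2 hx.2
      · exact hinj y hy.1 x hx.1 hxy' hxy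
    obtain ⟨f, hf, hf1, hf0⟩ : ∃ f : A → ZMod q, IsLocallyConstant f ∧
        (∀ x ∈ a '' (FE ∩ D), f x = 1) ∧ ∀ x ∈ a '' (FE ∩ Dᶜ), f x = 0 := by
      obtain ⟨h2, h3, h4⟩ := h1 a ha (fun e he e' he' h => (hinj e he e' he' h).1)
      exact exists_sep q h2 h3 h4
    obtain ⟨g, hg, hg1, hg0⟩ : ∃ g : B → ZMod q, IsLocallyConstant g ∧
        (∀ x ∈ b '' (FE ∩ D), g x = 1) ∧ ∀ x ∈ b '' (FE ∩ Dᶜ), g x = 0 := by
      have h2 : IsClosed (b '' (FE ∩ D)) := ((hFE.inter hD.1).isCompact.image hb).isClosed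
      have h3 : IsClosed (b '' (FE ∩ Dᶜ)) := ((hFE.inter hD.compl.1).isCompact.image hb).isClosed
      refine exists_sep q h2 h3 ?_
      rw [Set.disjoint_left]
      rintro _ ⟨x, hx, rfl⟩ ⟨y, hy, hxy⟩
      by_cases hxy' : y = x
      · subst hxy'; exact hy.2 hx.2
      · exact (hinj y hy.1 x hx.1 hxy').2 hxy
    obtain ⟨c, hc1, _⟩ := hconn f g hf hg (by
      intro e he
      by_cases h : e ∈ D
      · rw [hf1 _ ⟨e, ⟨he, h⟩, rfl⟩, hg1 _ ⟨e, ⟨he, h⟩, rfl⟩]
      · rw [hf0 _ ⟨e, ⟨he, h⟩, rfl⟩, hg0 _ ⟨e, ⟨he, h⟩, rfl⟩])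
    have h5 := hc1 _ (haF e he)
    have h6 := hc1 _ (haF e' he')
    rw [hf1 _ ⟨e, ⟨he, heD⟩, rfl⟩] at h5
    rw [hf0 _ ⟨e', ⟨he', fun h => hDe h rfl⟩, rfl⟩] at h6
    exact hq0 (h5.trans h6.symm)
  rcases hsub.eq_empty_or_singleton with hE | ⟨e, hE⟩
  · right
    have hA : FA.Subsingleton := by
      intro x hx y hy
      by_contra hxy
      obtain ⟨f, hf, hf1, hf0⟩ := exists_sep q (isClosed_singleton (x := x))
        (isClosed_singleton (x := y)) (by simpa using hxy)
      obtain ⟨c, hc, _⟩ := hconn f 0 hf (IsLocallyConstant.const 0) (by simp [hE])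
      have h1 := hc x hx
      have h2 := hc y hy
      rw [hf1 x rfl] at h1
      rw [hf0 y rfl] at h2
      exact hq0 (h1.trans h2.symm)
    have hB : FB.Subsingleton := by
      intro x hx y hy
      by_contra hxy
      obtain ⟨f, hf, hf1, hf0⟩ := exists_sep q (isClosed_singleton (x := x))
        (isClosed_singleton (x := y)) (by simpa using hxy)
      obtain ⟨c, _, hc⟩ := hconn 0 f (IsLocallyConstant.const 0) hf (by simp [hE])
      have h1 := hc x hx
      have h2 := hc y hy
      rw [hf1 x rfl] at h1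
      rw [hf0 y rfl] at h2
      exact hq0 (h1.trans h2.symm)
    have hAB : ¬ (FA.Nonempty ∧ FB.Nonempty) := by
      rintro ⟨⟨x, hx⟩, ⟨y, hy⟩⟩
      obtain ⟨c, hc1, hc2⟩ := hconn 1 0 (IsLocallyConstant.const 1) (IsLocallyConstant.const 0)
        (by simp [hE])
      have h1 := hc1 x hx
      have h2 := hc2 y hy
      simp only [Pi.one_apply, Pi.zero_apply] at h1 h2
      exact hq0 (h1.trans h2.symm)
    rcases hA.eq_empty_or_singleton with hA | ⟨x, hA⟩
    · right
      rcases hB.eq_empty_or_singleton with hB | ⟨x, hB⟩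
      · rw [hA, hB] at hne; simp at hne
      · exact ⟨hE, hA, x, hB⟩
    · left
      refine ⟨hE, ⟨x, hA⟩, ?_⟩
      by_contra hB
      exact hAB ⟨by rw [hA]; exact singleton_nonempty x, nonempty_iff_ne_empty.2 hB⟩
  · left
    have heE : e ∈ FE := by rw [hE]; rfl
    refine ⟨e, hE, ?_, ?_⟩
    · apply Subset.antisymm
      · intro x hx
        by_contra hxe
        obtain ⟨f, hf, hf1, hf0⟩ := exists_sep q (isClosed_singleton (x := x))
          (isClosed_singleton (x := a e)) (by simpa using hxe)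
        obtain ⟨c, hc, _⟩ := hconn f 0 hf (IsLocallyConstant.const 0) (by
          intro e' he'
          rw [hE] at he'
          rw [mem_singleton_iff.1 he', hf0 _ rfl]; rfl)
        have h1 := hc x hx
        have h2 := hc (a e) (haF e heE)
        rw [hf1 x rfl] at h1
        rw [hf0 _ rfl] at h2
        exact hq0 (h1.trans h2.symm)
      · rintro _ rfl; exact haF e heE
    · apply Subset.antisymm
      · intro x hx
        by_contra hxe
        obtain ⟨f, hf, hf1, hf0⟩ := exists_sep q (isClosed_singleton (x := x))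
          (isClosed_singleton (x := b e)) (by simpa using hxe)
        obtain ⟨c, _, hc⟩ := hconn 0 f (IsLocallyConstant.const 0) hf (by
          intro e' he'
          rw [hE] at he'
          rw [mem_singleton_iff.1 he', hf0 _ rfl]; rfl)
        have h1 := hc x hx
        have h2 := hc (b e) (hbF e heE)
        rw [hf1 x rfl] at h1
        rw [hf0 _ rfl] at h2
        exact hq0 (h1.trans h2.symm)
      · rintro _ rfl; exact hbF e heE

end Small

end P025H970
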