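import Vale.Agent.P025.R2.H544.Patch
import Vale.Agent.P025.R2.H970.Kum

/-!
P025, G-START (7.6): a Kummer class which is split at all edges is nonsplit at exactly one vertex.
-/

open TensorProduct

namespace P025H970

open P025H544

section

variable {F F1 F2 F0 : Type*} [Field F] [Field F1] [Field F2] [Field F0]
  [Algebra F F1] [Algebra F F2] [Algebra F F0] [Algebra F1 F0] [Algebra F2 F0]
  [IsScalarTower F F1 F0] [IsScalarTower F F2 F0]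

theorem patch_symm (hP : Patch F F1 F2 F0) : Patch F F2 F1 F0 where
  inter := by
    intro x y h
    obtain ⟨z, h1, h2⟩ := hP.inter y x h.symm
    exact ⟨z, h2, h1⟩
  fact := by
    intro n g
    obtain ⟨g1, g2, h⟩ := hP.fact n g⁻¹
    refine ⟨g2⁻¹, g1⁻¹, ?_⟩
    rw [map_inv, map_inv, ← mul_inv_rev, ← h, inv_inv]

/-- `f` is a `p`-th power at the point `v` -/
def PowAt (p : ℕ) {F A L : Type*} [CommRing F] [CommRing A] [CommRing L] [Algebra F A]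
    [Algebra F L] (v : Pt F A L) (f : L) : Prop :=
  ∃ y : Res F A L v, y ^ p = Ideal.Quotient.mk v.asIdeal ((1 : A) ⊗ₜ[F] f)

variable {K : Type*} [Field K] [Algebra F K] [FiniteDimensional F K] [Algebra.IsSeparable F K]

theorem isPow_of_powAt {A : Type*} [Field A] [Algebra F A] (p : ℕ) (f : K)
    (h : ∀ v : Pt F A K, PowAt p v f) : ∃ a : A ⊗[F] K, a ^ p = (1 : A) ⊗ₜ[F] f := by
  have : IsReduced (A ⊗[F] K) := isReduced_tensor
  have : IsArtinianRing (A ⊗[F] K) := by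
    have : Module.Finite A (A ⊗[F] K) := inferInstance
    exact IsArtinianRing.of_finite A (A ⊗[F] K)
  choose y hy using h
  let e := IsArtinianRing.equivPi (A ⊗[F] K)
  refine ⟨e.symm fun m => y ⟨m.asIdeal, m.isMaximal.isPrime⟩, ?_⟩
  apply e.injective
  rw [map_pow, e.apply_symm_apply]
  ext m
  rw [Pi.pow_apply]
  exact hy ⟨m.asIdeal, m.isMaximal.isPrime⟩

/-- idempotent of a point -/
theorem exists_idem {A : Type*} [Field A] [Algebra F A] (x1 : Pt F A K) :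
    ∃ ε : A ⊗[F] K, ε * ε = ε ∧ 1 - ε ∈ x1.asIdeal ∧
      ∀ v : Pt F A K, v ≠ x1 → ε ∈ v.asIdeal := by
  classical
  have : IsReduced (A ⊗[F] K) := isReduced_tensor
  have : IsArtinianRing (A ⊗[F] K) := IsArtinianRing.of_finite A (A ⊗[F] K)
  let e := IsArtinianRing.equivPi (A ⊗[F] K)
  have hmax : ∀ v : Pt F A K, v.asIdeal.IsMaximal := fun v => isMaximal_pt v
  refine ⟨e.symm fun m => if m.asIdeal = x1.asIdeal then 1 else 0, ?_, ?_, ?_⟩
  · apply e.injective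
    rw [map_mul, e.apply_symm_apply]
    ext m
    rw [Pi.mul_apply]
    split_ifs <;> simp
  · have h1 := congrFun (e.apply_symm_apply fun m => if m.asIdeal = x1.asIdeal then 1 else 0)
      ⟨x1.asIdeal, hmax x1⟩
    rw [if_pos rfl] at h1
    rw [← Ideal.Quotient.eq_zero_iff_mem, map_sub, map_one, sub_eq_zero]
    exact h1.symm
  · intro v hv
    have h1 := congrFun (e.apply_symm_apply fun m => if m.asIdeal = x1.asIdeal then 1 else 0)
      ⟨v.asIdeal, hmax v⟩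
    have h2 : ¬ v.asIdeal = x1.asIdeal := fun h => hv (PrimeSpectrum.ext h)
    rw [if_neg h2] at h1
    rw [← Ideal.Quotient.eq_zero_iff_mem]
    exact h1

theorem idem_pow {R : Type*} [CommRing R] {ε : R} (hε : ε * ε = ε) (z : R) (n : ℕ) :
    (ε * z + (1 - ε)) ^ n = ε * z ^ n + (1 - ε) := by
  induction n with
  | zero => simp
  | succ n ih =>
    rw [pow_succ, ih, pow_succ]
    linear_combination (z ^ n * z - z ^ n - z + 1) * hε

theorem powAt_of_coprime {A : Type*} [CommRing A] [Algebra F A] (p : ℕ) [hp : Fact p.Prime]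
    {f x c : K} (hf : f ≠ 0) (hc : c ≠ 0) {j : ℕ} (hj : ¬ p ∣ j) (hx : x = c ^ p * f ^ j)
    (v : Pt F A K) (s : A ⊗[F] K)
    (h : Ideal.Quotient.mk v.asIdeal ((1 : A) ⊗ₜ[F] x) = Ideal.Quotient.mk v.asIdeal s ^ p) :
    PowAt p v f := by
  -- natural number Bezout
  obtain ⟨m, n, hmn⟩ : ∃ m n : ℕ, j * m = 1 + p * n := by
    have hcop : Nat.Coprime j p := (Nat.coprime_comm.1 ((hp.out.coprime_iff_not_dvd).2 hj))
    obtain ⟨m, hm⟩ := Nat.exists_mul_mod_eq_one_of_coprime hcop hp.out.one_lt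
    refine ⟨m, j * m / p, ?_⟩
    have := Nat.div_add_mod (j * m) p
    omega
  set φ : K →+* Res F A K v := (Ideal.Quotient.mk v.asIdeal).comp
    (Algebra.TensorProduct.includeRight : K →ₐ[F] A ⊗[F] K).toRingHom with hφ
  have hφ1 : ∀ z : K, φ z = Ideal.Quotient.mk v.asIdeal ((1 : A) ⊗ₜ[F] z) := fun z => rfl
  rw [← hφ1] at h
  refine ⟨(Ideal.Quotient.mk v.asIdeal s * φ c⁻¹) ^ m * φ (f⁻¹) ^ n, ?_⟩
  rw [← hφ1]
  have h1 : φ c * φ c⁻¹ = 1 := by rw [← map_mul, mul_inv_cancel₀ hc, map_one]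
  have h2 : φ f * φ f⁻¹ = 1 := by rw [← map_mul, mul_inv_cancel₀ hf, map_one]
  have h3 : (Ideal.Quotient.mk v.asIdeal s * φ c⁻¹) ^ p = φ f ^ j := by
    rw [mul_pow, ← h, hx, map_mul, map_pow, map_pow]
    calc φ c ^ p * φ f ^ j * φ c⁻¹ ^ p = (φ c * φ c⁻¹) ^ p * φ f ^ j := by ring
      _ = φ f ^ j := by rw [h1, one_pow, one_mul]
  calc ((Ideal.Quotient.mk v.asIdeal s * φ c⁻¹) ^ m * φ (f⁻¹) ^ n) ^ p
      = ((Ideal.Quotient.mk v.asIdeal s * φ c⁻¹) ^ p) ^ m * φ f⁻¹ ^ (p * n) := by ring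
    _ = φ f ^ (j * m) * φ f⁻¹ ^ (p * n) := by rw [h3, ← pow_mul]
    _ = φ f * (φ f * φ f⁻¹) ^ (p * n) := by rw [hmn]; ring
    _ = φ f := by rw [h2, one_pow, mul_one]

/-- (7.6), uniqueness: a class split at all edges and nonsplit at the vertex `x1` is split at all
other vertices. `NTW`: an element of `W` which is a `p`-th power on both sides is a `p`-th
power. -/
theorem powAt_of_ne (hP : Patch F F1 F2 F0) (p : ℕ) [hp : Fact p.Prime] {W : Type*} [Field W]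
    [Algebra F W] [Algebra K W] [IsScalarTower F K W] (ζ : K) (hζ : IsPrimitiveRoot ζ p) (f : K)
    (hf : ∀ b : K, b ^ p ≠ f) (w : W) (hw : w ^ p = algebraMap K W f)
    (hgen : Algebra.adjoin K {w} = ⊤)
    (NTW : ∀ x : W, x ≠ 0 → (∃ a : F1 ⊗[F] W, a ^ p = (1 : F1) ⊗ₜ[F] x) →
      (∃ b : F2 ⊗[F] W, b ^ p = (1 : F2) ⊗ₜ[F] x) → ∃ y : W, y ^ p = x)
    (hsplit : ∃ u : F0 ⊗[F] K, u ^ p = (1 : F0) ⊗ₜ[F] f) (x1 : Pt F F1 K)
    (hx1 : ¬ PowAt p x1 f) :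
    (∀ x2 : Pt F F1 K, x2 ≠ x1 → PowAt p x2 f) ∧ ∀ d : Pt F F2 K, PowAt p d f := by
  have hp0 : p ≠ 0 := hp.out.ne_zero
  have hf0 : f ≠ 0 := fun h => hf 0 (by rw [zero_pow hp0, h])
  obtain ⟨ε, hε, hε1, hε2⟩ := exists_idem x1
  obtain ⟨u, hu⟩ := hsplit
  have hone : ∀ {A : Type _} [CommRing A] [Algebra F A] (z : K), z ≠ 0 →
      ((1 : A) ⊗ₜ[F] z) * ((1 : A) ⊗ₜ[F] z⁻¹) = 1 := by
    intro A _ _ z hz
    rw [Algebra.TensorProduct.tmul_mul_tmul, mul_one, mul_inv_cancel₀ hz]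
    rfl
  let a : (F1 ⊗[F] K)ˣ :=
    { val := ε * ((1 : F1) ⊗ₜ[F] f) + (1 - ε)
      inv := ε * ((1 : F1) ⊗ₜ[F] f⁻¹) + (1 - ε)
      val_inv := by
        have h1 := hone (A := F1) f hf0
        linear_combination (((1 : F1) ⊗ₜ[F] f) * ((1 : F1) ⊗ₜ[F] f⁻¹) - ((1 : F1) ⊗ₜ[F] f)
          - ((1 : F1) ⊗ₜ[F] f⁻¹) + 1) * hε + ε * h1
      inv_val := by
        have h1 := hone (A := F1) f hf0
        linear_combination (((1 : F1) ⊗ₜ[F] f) * ((1 : F1) ⊗ₜ[F] f⁻¹) - ((1 : F1) ⊗ₜ[F] f)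
          - ((1 : F1) ⊗ₜ[F] f⁻¹) + 1) * hε + ε * h1 }
  set ε0 := bc F F1 F0 K ε with hε0
  have hε0' : ε0 * ε0 = ε0 := by rw [hε0, ← map_mul, hε]
  have hw0 : (ε0 * u + (1 - ε0)) ^ p = bc F F1 F0 K a := by
    rw [idem_pow hε0', hu]
    simp only [a, map_add, map_mul, map_sub, map_one, bc_tmul]
    rfl
  have hwu : IsUnit (ε0 * u + (1 - ε0)) := by
    rw [← isUnit_pow_iff hp0, hw0]
    exact a.isUnit.map _
  obtain ⟨w0, hw0'⟩ := hwu
  obtain ⟨x, hx0, ⟨s, hs⟩, ⟨t, ht⟩⟩ := hP.kummer_glue p a 1 w0 (by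
    rw [hw0', hw0]; simp)
  -- in `W`
  set τ := IsScalarTower.toAlgHom F K W with hτ
  have hτ1 : ∀ z : K, τ z = algebraMap K W z := fun z => rfl
  obtain ⟨y, hy⟩ := NTW (algebraMap K W x) (by simpa using hx0)
    ⟨(tL F F1 τ ε * ((1 : F1) ⊗ₜ[F] w) + (1 - tL F F1 τ ε)) * tL F F1 τ s, by
      have h1 : tL F F1 τ ε * tL F F1 τ ε = tL F F1 τ ε := by rw [← map_mul, hε]
      rw [mul_pow, idem_pow h1, Algebra.TensorProduct.tmul_pow, one_pow, hw, ← map_pow]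
      have h2 : tL F F1 τ (a : F1 ⊗[F] K) = tL F F1 τ ε * ((1 : F1) ⊗ₜ[F] (algebraMap K W f))
          + (1 - tL F F1 τ ε) := by
        simp only [a, map_add, map_mul, map_sub, map_one, tL_tmul, hτ1]
      rw [← h2, ← map_mul, ← hs, tL_tmul, hτ1]⟩
    ⟨tL F F2 τ t, by
      rw [← map_pow]
      have : (t : F2 ⊗[F] K) ^ p = (1 : F2) ⊗ₜ[F] x := by rw [ht]; simp
      rw [this, tL_tmul, hτ1]⟩
  obtain ⟨c, j, hcj⟩ := kummer_mem p ζ hζ f hf w hw hgen y ⟨x, hy⟩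
  have hx : x = c ^ p * f ^ j := by
    apply (algebraMap K W).injective
    rw [← hy, hcj, mul_pow, ← pow_mul, mul_comm j p, pow_mul, hw]
    simp
  have hc : c ≠ 0 := by
    rintro rfl
    rw [zero_pow hp0, zero_mul] at hx
    exact hx0 hx
  have hj : ¬ p ∣ j := by
    rintro ⟨i, rfl⟩
    apply hx1
    -- at `x1`
    have h1 : Ideal.Quotient.mk x1.asIdeal (a : F1 ⊗[F] K)
        = Ideal.Quotient.mk x1.asIdeal ((1 : F1) ⊗ₜ[F] f) := by
      rw [Ideal.Quotient.eq]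
      have : (a : F1 ⊗[F] K) - (1 : F1) ⊗ₜ[F] f = (1 - ε) * (1 - (1 : F1) ⊗ₜ[F] f) := by
        simp only [a]; ring
      rw [this]
      exact Ideal.mul_mem_right _ _ hε1
    have h2 := congrArg (Ideal.Quotient.mk x1.asIdeal) hs
    rw [map_mul, h1, map_pow] at h2
    have hsu := (s.isUnit.map (Ideal.Quotient.mk x1.asIdeal))
    obtain ⟨s', hs'⟩ := hsu
    refine ⟨Ideal.Quotient.mk x1.asIdeal ((1 : F1) ⊗ₜ[F] (c * f ^ i)) * (s'⁻¹ : (_)ˣ), ?_⟩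
    have h3 : Ideal.Quotient.mk x1.asIdeal ((1 : F1) ⊗ₜ[F] x)
        = Ideal.Quotient.mk x1.asIdeal ((1 : F1) ⊗ₜ[F] (c * f ^ i)) ^ p := by
      rw [← map_pow, Algebra.TensorProduct.tmul_pow, one_pow, hx]
      congr 2
      ring
    rw [mul_pow, ← h3, h2, ← hs', mul_assoc, ← mul_pow, Units.mul_inv, one_pow, mul_one]
  constructor
  · intro x2 hx2
    refine powAt_of_coprime p hf0 hc hj hx x2 s ?_
    rw [hs, map_mul, map_pow]
    have h1 : Ideal.Quotient.mk x2.asIdeal (a : F1 ⊗[F] K) = 1 := by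
      rw [← map_one (Ideal.Quotient.mk x2.asIdeal), Ideal.Quotient.eq]
      have : (a : F1 ⊗[F] K) - 1 = ε * ((1 : F1) ⊗ₜ[F] f - 1) := by
        simp only [a]; ring
      rw [this]
      exact Ideal.mul_mem_right _ _ (hε2 x2 hx2)
    rw [h1, one_mul]
  · intro d
    refine powAt_of_coprime p hf0 hc hj hx d t ?_
    rw [ht]
    simp

/-- (7.6): a nontrivial class which is split at all edges is nonsplit at exactly one vertex. -/
theorem one_vertex (hP : Patch F F1 F2 F0) (p : ℕ) [hp : Fact p.Prime] {W : Type*} [Field W]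
    [Algebra F W] [Algebra K W] [IsScalarTower F K W] (ζ : K) (hζ : IsPrimitiveRoot ζ p) (f : K)
    (hf : ∀ b : K, b ^ p ≠ f) (w : W) (hw : w ^ p = algebraMap K W f)
    (hgen : Algebra.adjoin K {w} = ⊤)
    (NTW : ∀ x : W, x ≠ 0 → (∃ a : F1 ⊗[F] W, a ^ p = (1 : F1) ⊗ₜ[F] x) →
      (∃ b : F2 ⊗[F] W, b ^ p = (1 : F2) ⊗ₜ[F] x) → ∃ y : W, y ^ p = x)
    (NTK : ∀ x : K, x ≠ 0 → (∃ a : F1 ⊗[F] K, a ^ p = (1 : F1) ⊗ₜ[F] x) →
      (∃ b : F2 ⊗[F] K, b ^ p = (1 : F2) ⊗ₜ[F] x) → ∃ y : K, y ^ p = x)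
    (hsplit : ∃ u : F0 ⊗[F] K, u ^ p = (1 : F0) ⊗ₜ[F] f) :
    (∃ x1 : Pt F F1 K, ¬ PowAt p x1 f ∧ (∀ x2 : Pt F F1 K, x2 ≠ x1 → PowAt p x2 f) ∧
      ∀ d : Pt F F2 K, PowAt p d f) ∨
    (∃ d1 : Pt F F2 K, ¬ PowAt p d1 f ∧ (∀ d2 : Pt F F2 K, d2 ≠ d1 → PowAt p d2 f) ∧
      ∀ v : Pt F F1 K, PowAt p v f) := by
  have hf0 : f ≠ 0 := fun h => hf 0 (by rw [zero_pow hp.out.ne_zero, h])
  by_cases hV : ∀ v : Pt F F1 K, PowAt p v f
  · by_cases hD : ∀ d : Pt F F2 K, PowAt p d f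
    · exfalso
      obtain ⟨y, hy⟩ := NTK f hf0 (isPow_of_powAt p f hV) (isPow_of_powAt p f hD)
      exact hf y hy
    · right
      push Not at hD
      obtain ⟨d, hd⟩ := hD
      obtain ⟨h1, h2⟩ := powAt_of_ne (patch_symm hP) p ζ hζ f hf w hw hgen
        (fun x hx h1 h2 => NTW x hx h2 h1) hsplit d hd
      exact ⟨d, hd, h1, h2⟩
  · left
    push Not at hV
    obtain ⟨v, hv⟩ := hV
    obtain ⟨h1, h2⟩ := powAt_of_ne hP p ζ hζ f hf w hw hgen NTW hsplit v hv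
    exact ⟨v, hv, h1, h2⟩

end

end P025H970
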