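import Mathlib

/-!
Smith theory for profinite bipartite graphs, modulo an open normal subgroup.
-/

namespace P025H970

open Set Topology MulAction

section Core

variable {P X : Type*} [Group P] [TopologicalSpace P] [IsTopologicalGroup P] [CompactSpace P]
  [TopologicalSpace X] [CompactSpace X] [T2Space X] [TotallyDisconnectedSpace X]
  [MulAction P X] [ContinuousSMul P X]

/-- functions invariant under a subgroup -/
def UInv {P X R : Type*} [Group P] [MulAction P X] (U : Subgroup P) (f : X → R) : Prop :=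
  ∀ u ∈ U, ∀ x, f (u • x) = f x

/-- the points fixed by `K` modulo `U` -/
def FixMod {P : Type*} [Group P] (U K : Subgroup P) (X : Type*) [MulAction P X] : Set X :=
  {x | K ≤ U ⊔ stabilizer P x}

omit [TopologicalSpace P] [IsTopologicalGroup P] [CompactSpace P] [TopologicalSpace X]
  [CompactSpace X] [T2Space X] [TotallyDisconnectedSpace X] [ContinuousSMul P X] in
theorem mem_sup_stab (U : Subgroup P) [U.Normal] (g : P) (x : X) :
    g ∈ U ⊔ stabilizer P x ↔ ∃ u ∈ U, g • x = u • x := by
  constructor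
  · intro h
    rw [Subgroup.mem_sup_of_normal_left] at h
    obtain ⟨u, hu, s, hs, rfl⟩ := h
    refine ⟨u, hu, ?_⟩
    rw [mul_smul, mem_stabilizer_iff.1 hs]
  · rintro ⟨u, hu, h⟩
    have h1 : u⁻¹ * g ∈ stabilizer P x := by
      rw [mem_stabilizer_iff, mul_smul, h, inv_smul_smul]
    have h2 : g = u * (u⁻¹ * g) := by group
    rw [h2]
    exact Subgroup.mul_mem _ (Subgroup.mem_sup_left hu) (Subgroup.mem_sup_right h1)

omit [TopologicalSpace P] [IsTopologicalGroup P] [CompactSpace P] [TopologicalSpace X]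
  [CompactSpace X] [T2Space X] [TotallyDisconnectedSpace X] [ContinuousSMul P X] in
theorem UInv.eq_of_mem {R : Type*} {U : Subgroup P} [U.Normal] {f : X → R} (hf : UInv U f)
    {g : P} {x : X} (h : g ∈ U ⊔ stabilizer P x) : f (g • x) = f x := by
  obtain ⟨u, hu, h⟩ := (mem_sup_stab U g x).1 h
  rw [h, hf u hu]

omit [CompactSpace X] [T2Space X] [TotallyDisconnectedSpace X] [IsTopologicalGroup P] in
theorem isOpen_core {K : Set P} (hK : IsClosed K) {D : Set X} (hD : IsOpen D) :
    IsOpen {x : X | ∀ u ∈ K, u • x ∈ D} := by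
  have h1 : IsClosed {y : P × X | y.1 ∈ K ∧ y.1 • y.2 ∉ D} := by
    refine (hK.preimage continuous_fst).inter ?_
    exact hD.isClosed_compl.preimage (continuous_smul (M := P) (X := X))
  have h2 := isClosedMap_snd_of_compactSpace _ h1
  rw [← isOpen_compl_iff] at h2
  convert! h2 using 1
  ext x
  simp only [mem_ofPred_eq, mem_compl_iff, mem_image, Prod.exists, exists_eq_right, not_exists,
    not_and, not_not]

omit [CompactSpace X] [T2Space X] [TotallyDisconnectedSpace X] [IsTopologicalGroup P]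
  [CompactSpace P] in
theorem isClosed_core {K : Set P} {D : Set X} (hD : IsClosed D) :
    IsClosed {x : X | ∀ u ∈ K, u • x ∈ D} := by
  have : {x : X | ∀ u ∈ K, u • x ∈ D} = ⋂ u ∈ K, {x | u • x ∈ D} := by
    ext x; simp
  rw [this]
  refine isClosed_biInter fun u _ => hD.preimage (continuous_const_smul u)

omit [CompactSpace X] [TotallyDisconnectedSpace X] [IsTopologicalGroup P] in
theorem isClosed_fixMod (U K : Subgroup P) [U.Normal] (hU : IsClosed (U : Set P)) :
    IsClosed (FixMod U K X) := by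
  have : FixMod U K X = ⋂ k ∈ K, {x | ∃ u ∈ U, k • x = u • x} := by
    ext x
    simp only [FixMod, mem_ofPred_eq, mem_iInter]
    constructor
    · intro h k hk
      exact (mem_sup_stab U k x).1 (h hk)
    · intro h k hk
      exact (mem_sup_stab U k x).2 (h k hk)
  rw [this]
  refine isClosed_biInter fun k _ => ?_
  have h1 : IsClosed {y : P × X | y.1 ∈ (U : Set P) ∧ k • y.2 = y.1 • y.2} := by
    refine (hU.preimage continuous_fst).inter ?_
    exact isClosed_eq ((continuous_const_smul k).comp continuous_snd)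
      (continuous_smul (M := P) (X := X))
  have h2 := isClosedMap_snd_of_compactSpace _ h1
  convert! h2 using 1
  ext x
  simp only [mem_ofPred_eq, mem_image, Prod.exists, exists_eq_right, SetLike.mem_coe]

omit [IsTopologicalGroup P] in
/-- a `U`-invariant locally constant indicator around the `U`-orbit of `z`, avoiding a finite set -/
theorem exists_indicator (U : Subgroup P) (hU : IsClosed (U : Set P)) (q : ℕ) (z : X)
    (F : Set X) (hF : F.Finite) (hz : ∀ u ∈ U, u • z ∉ F) :
    ∃ w : X → ZMod q, IsLocallyConstant w ∧ UInv U w ∧ w z = 1 ∧ ∀ x ∈ F, w x = 0 := by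
  classical
  have h1 : IsClosed ((fun u : P => u • z) '' (U : Set P)) :=
    (hU.isCompact.image (continuous_id.smul continuous_const)).isClosed
  obtain ⟨D0, hD0, hz0, hD0F⟩ := exists_clopen_of_closed_subset_open h1 hF.isClosed.isOpen_compl
    (by rintro _ ⟨u, hu, rfl⟩; exact hz u hu)
  set D : Set X := {x | ∀ u ∈ (U : Set P), u • x ∈ D0} with hD
  have hDo : IsClopen D := ⟨isClosed_core hD0.1, isOpen_core hU hD0.2⟩
  refine ⟨D.indicator 1, ?_, ?_, ?_, ?_⟩
  · have := (LocallyConstant.charFn (ZMod q) hDo).isLocallyConstant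
    have h2 : (LocallyConstant.charFn (ZMod q) hDo).toFun = D.indicator 1 :=
      LocallyConstant.coe_charFn _ _
    rwa [h2] at this
  · intro u hu x
    have : u • x ∈ D ↔ x ∈ D := by
      constructor
      · intro h v hv
        have := h (v * u⁻¹) (U.mul_mem hv (U.inv_mem hu))
        rwa [← mul_smul, inv_mul_cancel_right] at this
      · intro h v hv
        have := h (v * u) (U.mul_mem hv hu)
        rwa [mul_smul] at this
    by_cases hx : x ∈ D
    · rw [indicator_of_mem hx, indicator_of_mem (this.2 hx)]; rfl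
    · rw [indicator_of_notMem hx, indicator_of_notMem (fun h => hx (this.1 h))]
  · rw [indicator_of_mem]; rfl
    intro u hu
    exact hz0 ⟨u, hu, rfl⟩
  · intro x hx
    rw [indicator_of_notMem]
    intro h
    have := h 1 U.one_mem
    rw [one_smul] at this
    exact hD0F this hx


theorem lc_sum {Y R ι : Type*} [TopologicalSpace Y] [AddCommMonoid R] (s : Finset ι)
    {w : ι → Y → R} (hw : ∀ i ∈ s, IsLocallyConstant (w i)) :
    IsLocallyConstant (fun x => ∑ i ∈ s, w i x) := by
  classical
  induction s using Finset.induction_on with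
  | empty =>
    simp only [Finset.sum_empty]
    exact IsLocallyConstant.const (X := Y) (0 : R)
  | insert a s ha ih =>
    have h1 := (hw a (Finset.mem_insert_self a s)).add
      (ih fun i hi => hw i (Finset.mem_insert_of_mem hi))
    convert! h1 using 1
    ext x
    rw [Finset.sum_insert ha]; rfl

theorem lc_prod {Y R ι : Type*} [TopologicalSpace Y] [CommMonoid R] (s : Finset ι)
    {w : ι → Y → R} (hw : ∀ i ∈ s, IsLocallyConstant (w i)) :
    IsLocallyConstant (fun x => ∏ i ∈ s, w i x) := by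
  classical
  induction s using Finset.induction_on with
  | empty =>
    simp only [Finset.prod_empty]
    exact IsLocallyConstant.const (X := Y) (1 : R)
  | insert a s ha ih =>
    have h1 := (hw a (Finset.mem_insert_self a s)).mul
      (ih fun i hi => hw i (Finset.mem_insert_of_mem hi))
    convert! h1 using 1
    ext x
    rw [Finset.prod_insert ha]; rfl

/-- the trace of a function along the powers of `σ` -/
def tr {P X : Type*} [Group P] [MulAction P X] (q : ℕ) (σ : P) (w : X → ZMod q) (x : X) : ZMod q :=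
  ∑ i ∈ Finset.range q, w (σ ^ i • x)

omit [CompactSpace P] [IsTopologicalGroup P] [CompactSpace X] [T2Space X]
  [TotallyDisconnectedSpace X] in
theorem lc_smul {R : Type*} (g : P) {w : X → R} (hw : IsLocallyConstant w) :
    IsLocallyConstant (fun x => w (g • x)) :=
  hw.comp_continuous (continuous_const_smul g)

omit [CompactSpace P] [IsTopologicalGroup P] [CompactSpace X] [T2Space X]
  [TotallyDisconnectedSpace X] in
theorem lc_tr (q : ℕ) (σ : P) {w : X → ZMod q} (hw : IsLocallyConstant w) :
    IsLocallyConstant (tr q σ w) :=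
  lc_sum _ fun i _ => lc_smul (σ ^ i) hw

omit [TopologicalSpace P] [IsTopologicalGroup P] [CompactSpace P] [TopologicalSpace X]
  [CompactSpace X] [T2Space X] [TotallyDisconnectedSpace X] [ContinuousSMul P X] in
theorem uinv_smul {R : Type*} (U : Subgroup P) [hU : U.Normal] (g : P) {w : X → R}
    (hw : UInv U w) : UInv U (fun x => w (g • x)) := by
  intro u hu x
  have h1 : g • u • x = (g * u * g⁻¹) • g • x := by
    simp only [← mul_smul]; congr 1; group
  simp only [h1]
  exact hw _ (hU.conj_mem u hu g) _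

omit [TopologicalSpace P] [IsTopologicalGroup P] [CompactSpace P] [TopologicalSpace X]
  [CompactSpace X] [T2Space X] [TotallyDisconnectedSpace X] [ContinuousSMul P X] in
theorem uinv_tr (q : ℕ) (U : Subgroup P) [U.Normal] (σ : P) {w : X → ZMod q} (hw : UInv U w) :
    UInv U (tr q σ w) := by
  intro u hu x
  unfold tr
  refine Finset.sum_congr rfl fun i _ => ?_
  exact uinv_smul U (σ ^ i) hw u hu x

omit [TopologicalSpace P] [IsTopologicalGroup P] [CompactSpace P] [TopologicalSpace X]
  [CompactSpace X] [T2Space X] [TotallyDisconnectedSpace X] [ContinuousSMul P X] in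
theorem sum_shift {R : Type*} [AddCommMonoid R] (q : ℕ) (U : Subgroup P) [U.Normal] (σ : P)
    {w : X → R} (hw : UInv U w) {x : X} (hx : σ ^ q ∈ U ⊔ stabilizer P x) :
    ∑ i ∈ Finset.range q, w (σ ^ i • σ • x) = ∑ i ∈ Finset.range q, w (σ ^ i • x) := by
  have h1 : ∀ i, w (σ ^ i • σ • x) = w (σ ^ (i + 1) • x) := by
    intro i; rw [← mul_smul, ← pow_succ]
  simp only [h1]
  rcases Nat.eq_zero_or_pos q with rfl | hq
  · simp
  obtain ⟨m, rfl⟩ : ∃ m, q = m + 1 := ⟨q - 1, by omega⟩
  rw [Finset.sum_range_succ, Finset.sum_range_succ', pow_zero, one_smul, hw.eq_of_mem hx]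

omit [TopologicalSpace P] [IsTopologicalGroup P] [CompactSpace P] [TopologicalSpace X]
  [CompactSpace X] [T2Space X] [TotallyDisconnectedSpace X] [ContinuousSMul P X] in
theorem prod_shift {R : Type*} [CommMonoid R] (q : ℕ) (U : Subgroup P) [U.Normal] (σ : P)
    {w : X → R} (hw : UInv U w) {x : X} (hx : σ ^ q ∈ U ⊔ stabilizer P x) :
    ∏ i ∈ Finset.range q, w (σ ^ i • σ • x) = ∏ i ∈ Finset.range q, w (σ ^ i • x) := by
  have h1 : ∀ i, w (σ ^ i • σ • x) = w (σ ^ (i + 1) • x) := by
    intro i; rw [← mul_smul, ← pow_succ]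
  simp only [h1]
  rcases Nat.eq_zero_or_pos q with rfl | hq
  · simp
  obtain ⟨m, rfl⟩ : ∃ m, q = m + 1 := ⟨q - 1, by omega⟩
  rw [Finset.prod_range_succ, Finset.prod_range_succ', pow_zero, one_smul, hw.eq_of_mem hx]

omit [IsTopologicalGroup P] in
/-- trace one functions off the fixed points -/
theorem exists_trace_one (q : ℕ) [hq : Fact q.Prime] (U : Subgroup P) [U.Normal]
    (hU : IsClosed (U : Set P)) (σ : P) (Y Z : Set X) (hZY : Z ⊆ Y) (hZ : IsClosed Z)
    (hY : ∀ y ∈ Y, σ • y ∈ Y) (hYq : ∀ y ∈ Y, σ ^ q ∈ U ⊔ stabilizer P y)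
    (hZσ : ∀ z ∈ Z, σ ∉ U ⊔ stabilizer P z) :
    ∃ w : X → ZMod q, IsLocallyConstant w ∧ UInv U w ∧ ∀ z ∈ Z, tr q σ w z = 1 := by
  have key : ∃ w : X → ZMod q, IsLocallyConstant w ∧ UInv U w ∧ ∀ z ∈ Z ∩ Y, tr q σ w z = 1 := by
    refine hZ.isCompact.induction_on (p := fun S => ∃ w : X → ZMod q, IsLocallyConstant w ∧
      UInv U w ∧ ∀ z ∈ S ∩ Y, tr q σ w z = 1) ?_ ?_ ?_ ?_
    · exact ⟨fun _ => 0, IsLocallyConstant.const _, fun _ _ _ => rfl, by simp⟩
    · rintro S T hST ⟨w, h1, h2, h3⟩
      exact ⟨w, h1, h2, fun z hz => h3 z ⟨hST hz.1, hz.2⟩⟩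
    · rintro S T ⟨w1, h1, h2, h3⟩ ⟨w2, h1', h2', h3'⟩
      refine ⟨w1 + w2 - w1 * tr q σ w2, (h1.add h1').sub (h1.mul (lc_tr q σ h1')), ?_, ?_⟩
      · intro u hu x
        simp only [Pi.sub_apply, Pi.add_apply, Pi.mul_apply, h2 u hu x, h2' u hu x,
          uinv_tr q U σ h2' u hu x]
      · intro z hz
        have hpow : ∀ i : ℕ, σ ^ i • z ∈ Y := by
          intro i
          induction i with
          | zero => simpa using hz.2
          | succ n ih => rw [pow_succ', mul_smul]; exact hY _ ih
        have hinv : ∀ i : ℕ, tr q σ w2 (σ ^ i • z) = tr q σ w2 z := by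
          intro i
          induction i with
          | zero => simp
          | succ n ih =>
            rw [pow_succ', mul_smul, ← ih]
            exact sum_shift q U σ h2' (hYq _ (hpow n))
        have h4 : tr q σ (w1 + w2 - w1 * tr q σ w2) z
            = tr q σ w1 z + tr q σ w2 z - tr q σ w1 z * tr q σ w2 z := by
          conv_lhs => unfold tr
          simp only [Pi.sub_apply, Pi.add_apply, Pi.mul_apply]
          rw [Finset.sum_sub_distrib, Finset.sum_add_distrib]
          congr 1
          unfold tr at hinv ⊢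
          rw [Finset.sum_mul]
          refine Finset.sum_congr rfl fun i _ => ?_
          rw [hinv i]
        rw [h4]
        rcases hz.1 with hS | hT
        · rw [h3 z ⟨hS, hz.2⟩]; ring
        · rw [h3' z ⟨hT, hz.2⟩]; ring
    · intro z hz
      have hne : ∀ i : ℕ, 0 < i → i < q → σ ^ i ∉ U ⊔ stabilizer P z := by
        intro i hi hiq hmem
        apply hZσ z hz
        have hcop : IsCoprime (i : ℤ) (q : ℤ) := by
          rw [Nat.isCoprime_iff_coprime]
          exact (Nat.coprime_of_lt_prime hi.ne' hiq hq.out).symm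
        obtain ⟨s, t, hst⟩ := hcop
        have h5 : σ = (σ ^ i) ^ s * (σ ^ q) ^ t := by
          rw [← zpow_natCast, ← zpow_natCast, ← zpow_mul, ← zpow_mul, ← zpow_add]
          conv_lhs => rw [← zpow_one σ]
          congr 1
          linarith
        rw [h5]
        exact Subgroup.mul_mem _ (Subgroup.zpow_mem _ hmem s)
          (Subgroup.zpow_mem _ (hYq z (hZY hz)) t)
      obtain ⟨w, hw1, hw2, hw3, hw4⟩ := exists_indicator U hU q z
        ((fun i : ℕ => σ ^ i • z) '' {i | 0 < i ∧ i < q})
        (Set.Finite.image _ ((Set.finite_lt_nat q).subset fun i hi => hi.2))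
        (by
          rintro u hu ⟨i, hi, hiu⟩
          exact hne i hi.1 hi.2 ((mem_sup_stab U _ z).2 ⟨u, hu, hiu⟩))
      have htz : tr q σ w z = 1 := by
        unfold tr
        rw [Finset.sum_eq_single 0]
        · simpa using hw3
        · intro i hi hi0
          exact hw4 _ ⟨i, ⟨Nat.pos_of_ne_zero hi0, Finset.mem_range.1 hi⟩, rfl⟩
        · intro h; exact absurd (Finset.mem_range.2 hq.out.pos) h
      refine ⟨{y | tr q σ w y = 1}, ?_, w, hw1, hw2, fun y hy => hy.1⟩
      refine mem_nhdsWithin_of_mem_nhds ?_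
      exact (lc_tr q σ hw1).isOpen_fiber 1 |>.mem_nhds htz
  obtain ⟨w, h1, h2, h3⟩ := key
  exact ⟨w, h1, h2, fun z hz => h3 z ⟨hz, hZY hz⟩⟩

end Core

section Fix

variable {P X Y : Type*} [Group P] [MulAction P X] [MulAction P Y]

theorem fix_smul {U K : Subgroup P} [U.Normal] {σ : P} (hnorm : ∀ k ∈ K, σ⁻¹ * k * σ ∈ K) {x : X}
    (hx : x ∈ FixMod U K X) : σ • x ∈ FixMod U K X := by
  intro k hk
  have h1 := hx (hnorm k hk)
  rw [mem_sup_stab] at h1 ⊢
  obtain ⟨u, hu, h1⟩ := h1
  refine ⟨σ * u * σ⁻¹, Subgroup.Normal.conj_mem inferInstance u hu σ, ?_⟩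
  have h2 : k • σ • x = σ • (σ⁻¹ * k * σ) • x := by
    simp only [← mul_smul]; congr 1; group
  rw [h2, h1]
  simp only [← mul_smul]; congr 1; group

theorem mem_fix_iff {U K H : Subgroup P} {σ : P} (hKH : K ≤ H) (hσ : σ ∈ H)
    (hgen : ∀ h ∈ H, ∃ i : ℕ, ∃ k ∈ K, h = σ ^ i * k) (x : X) :
    x ∈ FixMod U H X ↔ x ∈ FixMod U K X ∧ σ ∈ U ⊔ stabilizer P x := by
  constructor
  · intro h
    exact ⟨hKH.trans h, h hσ⟩
  · rintro ⟨h1, h2⟩ h hh
    obtain ⟨i, k, hk, rfl⟩ := hgen h hh
    exact Subgroup.mul_mem _ (Subgroup.pow_mem _ h2 i) (h1 hk)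

theorem stab_le {a : X → Y} (hae : ∀ (g : P) e, a (g • e) = g • a e) (e : X) :
    stabilizer P e ≤ stabilizer P (a e) := by
  intro g hg
  rw [mem_stabilizer_iff] at hg ⊢
  rw [← hae, hg]

theorem sup_stab_le {a : X → Y} (hae : ∀ (g : P) e, a (g • e) = g • a e) (U : Subgroup P) (e : X) :
    U ⊔ stabilizer P e ≤ U ⊔ stabilizer P (a e) :=
  sup_le_sup_left (stab_le hae e) U

theorem map_fix {a : X → Y} (hae : ∀ (g : P) e, a (g • e) = g • a e) {U K : Subgroup P} {e : X}
    (he : e ∈ FixMod U K X) : a e ∈ FixMod U K Y :=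
  le_trans he (sup_stab_le hae U e)

theorem uinv_comp {R : Type*} {a : X → Y} (hae : ∀ (g : P) e, a (g • e) = g • a e)
    {U : Subgroup P} {f : Y → R} (hf : UInv U f) : UInv U (f ∘ a) := by
  intro u hu e
  simp only [Function.comp_apply, hae, hf u hu]

end Fix

section Step

variable {P A B E : Type*} [Group P] [TopologicalSpace P] [CompactSpace P]
  [TopologicalSpace A] [CompactSpace A] [T2Space A] [TotallyDisconnectedSpace A]
  [MulAction P A] [ContinuousSMul P A]
  [TopologicalSpace B] [CompactSpace B] [T2Space B] [TotallyDisconnectedSpace B]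
  [MulAction P B] [ContinuousSMul P B]
  [TopologicalSpace E] [CompactSpace E] [T2Space E] [TotallyDisconnectedSpace E]
  [MulAction P E] [ContinuousSMul P E]

/-- the subgraph fixed by `K` modulo `U` is nonempty and connected, coefficients `ZMod q` -/
def Conn (q : ℕ) (U K : Subgroup P) (a : E → A) (b : E → B) : Prop :=
  ((FixMod U K A).Nonempty ∨ (FixMod U K B).Nonempty) ∧
  ∀ (f : A → ZMod q) (g : B → ZMod q), IsLocallyConstant f → IsLocallyConstant g →
    UInv U f → UInv U g → (∀ e ∈ FixMod U K E, f (a e) = g (b e)) →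
    ∃ c, (∀ x ∈ FixMod U K A, f x = c) ∧ ∀ y ∈ FixMod U K B, g y = c

/-- surjectivity of the coboundary on `U`-invariant functions -/
def SurjInv (q : ℕ) (U : Subgroup P) (a : E → A) (b : E → B) : Prop :=
  ∀ h : E → ZMod q, IsLocallyConstant h → UInv U h →
    ∃ (f : A → ZMod q) (g : B → ZMod q), IsLocallyConstant f ∧ IsLocallyConstant g ∧
      UInv U f ∧ UInv U g ∧ ∀ e, h e = f (a e) - g (b e)

/-- the function `∑ j w (σ^j x)` -/
def wt {X : Type*} [MulAction P X] (q : ℕ) (σ : P) (w : X → ZMod q) (x : X) : ZMod q :=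
  ∑ j ∈ Finset.range q, (j : ZMod q) * w (σ ^ j • x)

omit [TopologicalSpace P] [CompactSpace P] in
theorem wt_shift {X : Type*} [MulAction P X] (q : ℕ) (σ : P) (w : X → ZMod q) (x : X) :
    wt q σ w (σ • x) = wt q σ w x - tr q σ w (σ • x) := by
  unfold wt tr
  have h1 : ∀ i : ℕ, w (σ ^ i • σ • x) = w (σ ^ (i + 1) • x) := by
    intro i; rw [← mul_smul, ← pow_succ]
  simp only [h1]
  have h2 : ∑ j ∈ Finset.range q, ((j + 1 : ℕ) : ZMod q) * w (σ ^ (j + 1) • x)
      = ∑ j ∈ Finset.range q, (j : ZMod q) * w (σ ^ j • x) := by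
    have h3 := Finset.sum_range_succ (fun j : ℕ => (j : ZMod q) * w (σ ^ j • x)) q
    have h4 := Finset.sum_range_succ' (fun j : ℕ => (j : ZMod q) * w (σ ^ j • x)) q
    simp only [CharP.cast_eq_zero, zero_mul, add_zero, Nat.cast_zero] at h3 h4
    rw [← h3, h4]
  rw [← h2, ← Finset.sum_sub_distrib]
  refine Finset.sum_congr rfl fun j _ => ?_
  push_cast
  ring

omit [CompactSpace P] in
theorem lc_wt {X : Type*} [TopologicalSpace X] [MulAction P X] [ContinuousSMul P X] (q : ℕ)
    (σ : P) {w : X → ZMod q} (hw : IsLocallyConstant w) : IsLocallyConstant (wt q σ w) := by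
  refine lc_sum _ fun i _ => ?_
  exact (IsLocallyConstant.const (i : ZMod q)).mul (lc_smul (σ ^ i) hw)

omit [TopologicalSpace P] [CompactSpace P] in
theorem uinv_wt {X : Type*} [MulAction P X] (q : ℕ) (U : Subgroup P) [U.Normal]
    (σ : P) {w : X → ZMod q} (hw : UInv U w) : UInv U (wt q σ w) := by
  intro u hu x
  unfold wt
  refine Finset.sum_congr rfl fun i _ => ?_
  have := uinv_smul U (σ ^ i) hw u hu x
  simp only at this
  rw [this]

omit [TopologicalSpace P] [CompactSpace P] [TopologicalSpace A] [CompactSpace A] [T2Space A]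
  [TotallyDisconnectedSpace A] [ContinuousSMul P A] [TopologicalSpace B] [CompactSpace B]
  [T2Space B] [TotallyDisconnectedSpace B] [ContinuousSMul P B]
  [TopologicalSpace E] [CompactSpace E] [T2Space E] [TotallyDisconnectedSpace E]
  [ContinuousSMul P E] in
/-- correcting by traces -/
theorem trace_correct (q : ℕ) {a : E → A} {b : E → B} (hae : ∀ (g : P) e, a (g • e) = g • a e)
    (hbe : ∀ (g : P) e, b (g • e) = g • b e) (σ : P) {f : A → ZMod q} {g : B → ZMod q}
    {wE : E → ZMod q} {u : A → ZMod q} {u' : B → ZMod q} {e : E}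
    (hinv : ∀ i : ℕ, f (a (σ ^ i • e)) - g (b (σ ^ i • e)) = f (a e) - g (b e))
    (hwE : tr q σ wE e = 1)
    (huu : ∀ e', (f (a e') - g (b e')) * wE e' = u (a e') - u' (b e')) :
    (f - tr q σ u) (a e) = (g - tr q σ u') (b e) := by
  have h1 : tr q σ u (a e) - tr q σ u' (b e) = f (a e) - g (b e) := by
    unfold tr
    rw [← Finset.sum_sub_distrib]
    have h2 : ∀ i ∈ Finset.range q, u (σ ^ i • a e) - u' (σ ^ i • b e)
        = (f (a e) - g (b e)) * wE (σ ^ i • e) := by
      intro i _
      rw [← hae, ← hbe, ← huu, hinv i]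
    rw [Finset.sum_congr rfl h2, ← Finset.mul_sum]
    unfold tr at hwE
    rw [hwE, mul_one]
  simp only [Pi.sub_apply]
  linear_combination -h1

theorem smith_step (q : ℕ) [hq : Fact q.Prime] {a : E → A} {b : E → B} (ha : Continuous a)
    (hb : Continuous b) (hae : ∀ (g : P) e, a (g • e) = g • a e)
    (hbe : ∀ (g : P) e, b (g • e) = g • b e) (U K H : Subgroup P) [U.Normal]
    (hU : IsClosed (U : Set P)) (hKH : K ≤ H) (σ : P) (hσ : σ ∈ H)
    (hgen : ∀ h ∈ H, ∃ i : ℕ, ∃ k ∈ K, h = σ ^ i * k) (hσq : σ ^ q ∈ K)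
    (hnorm : ∀ k ∈ K, σ⁻¹ * k * σ ∈ K) (hS : SurjInv q U a b) (hC : Conn q U K a b) :
    Conn q U H a b := by
  have hq1 : (1 : ZMod q) ≠ 0 := one_ne_zero
  constructor
  · by_contra hne
    rw [not_or, Set.not_nonempty_iff_eq_empty, Set.not_nonempty_iff_eq_empty] at hne
    have hA : ∀ x ∈ FixMod U K A, σ ∉ U ⊔ stabilizer P x := by
      intro x hx hσx
      have : x ∈ FixMod U H A := (mem_fix_iff hKH hσ hgen x).2 ⟨hx, hσx⟩
      rw [hne.1] at this; exact this
    have hB : ∀ x ∈ FixMod U K B, σ ∉ U ⊔ stabilizer P x := by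
      intro x hx hσx
      have : x ∈ FixMod U H B := (mem_fix_iff hKH hσ hgen x).2 ⟨hx, hσx⟩
      rw [hne.2] at this; exact this
    have hE : ∀ x ∈ FixMod U K E, σ ∉ U ⊔ stabilizer P x := by
      intro x hx hσx
      exact hA (a x) (map_fix hae hx) (sup_stab_le hae U x hσx)
    obtain ⟨wA, hwA1, hwA2, hwA3⟩ := exists_trace_one q U hU σ (FixMod U K A) (FixMod U K A)
      subset_rfl (isClosed_fixMod U K hU) (fun y hy => fix_smul hnorm hy) (fun y hy => hy hσq) hA
    obtain ⟨wB, hwB1, hwB2, hwB3⟩ := exists_trace_one q U hU σ (FixMod U K B) (FixMod U K B)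
      subset_rfl (isClosed_fixMod U K hU) (fun y hy => fix_smul hnorm hy) (fun y hy => hy hσq) hB
    obtain ⟨wE, hwE1, hwE2, hwE3⟩ := exists_trace_one q U hU σ (FixMod U K E) (FixMod U K E)
      subset_rfl (isClosed_fixMod U K hU) (fun y hy => fix_smul hnorm hy) (fun y hy => hy hσq) hE
    have hpowE : ∀ (e : E), e ∈ FixMod U K E → ∀ i : ℕ, σ ^ i • e ∈ FixMod U K E := by
      intro e he i
      induction i with
      | zero => simpa using he
      | succ n ih => rw [pow_succ', mul_smul]; exact fix_smul hnorm ih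
    -- invariance of the difference
    have hinv1 : ∀ e ∈ FixMod U K E, wt q σ wA (a (σ • e)) - wt q σ wB (b (σ • e))
        = wt q σ wA (a e) - wt q σ wB (b e) := by
      intro e he
      rw [hae, hbe, wt_shift, wt_shift, hwA3 _ (fix_smul hnorm (map_fix hae he)),
        hwB3 _ (fix_smul hnorm (map_fix hbe he))]
      ring
    have hinv : ∀ e ∈ FixMod U K E, ∀ i : ℕ,
        wt q σ wA (a (σ ^ i • e)) - wt q σ wB (b (σ ^ i • e))
        = wt q σ wA (a e) - wt q σ wB (b e) := by
      intro e he i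
      induction i with
      | zero => simp
      | succ n ih =>
        rw [pow_succ', mul_smul, hinv1 _ (hpowE e he n), ih]
    obtain ⟨u, u', hu1, hu2, hu3, hu4, huu⟩ := hS
      (fun e => (wt q σ wA (a e) - wt q σ wB (b e)) * wE e)
      (((((lc_wt q σ hwA1).comp_continuous ha).sub ((lc_wt q σ hwB1).comp_continuous hb)).mul
        hwE1))
      (by
        intro v hv e
        simp only [hwE2 v hv e]
        rw [hae, hbe, uinv_wt q U σ hwA2 v hv, uinv_wt q U σ hwB2 v hv])
    obtain ⟨c, hc1, hc2⟩ := hC.2 (wt q σ wA - tr q σ u) (wt q σ wB - tr q σ u')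
      ((lc_wt q σ hwA1).sub (lc_tr q σ hu1)) ((lc_wt q σ hwB1).sub (lc_tr q σ hu2))
      (by
        intro v hv x
        simp only [Pi.sub_apply, uinv_wt q U σ hwA2 v hv, uinv_tr q U σ hu3 v hv])
      (by
        intro v hv x
        simp only [Pi.sub_apply, uinv_wt q U σ hwB2 v hv, uinv_tr q U σ hu4 v hv])
      (fun e he => trace_correct q hae hbe σ (hinv e he) (hwE3 e he) huu)
    rcases hC.1 with ⟨x, hx⟩ | ⟨x, hx⟩
    · have h1 := hc1 x hx
      have h2 := hc1 (σ • x) (fix_smul hnorm hx)
      simp only [Pi.sub_apply] at h1 h2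
      have h3 : tr q σ u (σ • x) = tr q σ u x := sum_shift q U σ hu3 (hx hσq)
      rw [wt_shift, hwA3 _ (fix_smul hnorm hx), h3] at h2
      apply hq1
      linear_combination h1 - h2
    · have h1 := hc2 x hx
      have h2 := hc2 (σ • x) (fix_smul hnorm hx)
      simp only [Pi.sub_apply] at h1 h2
      have h3 : tr q σ u' (σ • x) = tr q σ u' x := sum_shift q U σ hu4 (hx hσq)
      rw [wt_shift, hwB3 _ (fix_smul hnorm hx), h3] at h2
      apply hq1
      linear_combination h1 - h2
  · intro f g hf hg hfU hgU hfg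
    -- the norms
    set f1 : A → ZMod q := fun x => ∏ i ∈ Finset.range q, f (σ ^ i • x) with hf1
    set g1 : B → ZMod q := fun x => ∏ i ∈ Finset.range q, g (σ ^ i • x) with hg1
    have hf1lc : IsLocallyConstant f1 := lc_prod _ fun i _ => lc_smul (σ ^ i) hf
    have hg1lc : IsLocallyConstant g1 := lc_prod _ fun i _ => lc_smul (σ ^ i) hg
    have hf1U : UInv U f1 := by
      intro v hv x
      simp only [hf1]
      exact Finset.prod_congr rfl fun i _ => uinv_smul U (σ ^ i) hfU v hv x
    have hg1U : UInv U g1 := by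
      intro v hv x
      simp only [hg1]
      exact Finset.prod_congr rfl fun i _ => uinv_smul U (σ ^ i) hgU v hv x
    have hf1fix : ∀ x, σ ∈ U ⊔ stabilizer P x → f1 x = f x := by
      intro x hx
      simp only [hf1]
      have : ∀ i ∈ Finset.range q, f (σ ^ i • x) = f x := fun i _ =>
        hfU.eq_of_mem (Subgroup.pow_mem _ hx i)
      rw [Finset.prod_congr rfl this, Finset.prod_const, Finset.card_range, ZMod.pow_card]
    have hg1fix : ∀ x, σ ∈ U ⊔ stabilizer P x → g1 x = g x := by
      intro x hx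
      simp only [hg1]
      have : ∀ i ∈ Finset.range q, g (σ ^ i • x) = g x := fun i _ =>
        hgU.eq_of_mem (Subgroup.pow_mem _ hx i)
      rw [Finset.prod_congr rfl this, Finset.prod_const, Finset.card_range, ZMod.pow_card]
    have hpowE : ∀ (e : E), e ∈ FixMod U K E → ∀ i : ℕ, σ ^ i • e ∈ FixMod U K E := by
      intro e he i
      induction i with
      | zero => simpa using he
      | succ n ih => rw [pow_succ', mul_smul]; exact fix_smul hnorm ih
    have hinv1 : ∀ e ∈ FixMod U K E, f1 (a (σ • e)) - g1 (b (σ • e)) = f1 (a e) - g1 (b e) := by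
      intro e he
      rw [hae, hbe]
      have h1 : f1 (σ • a e) = f1 (a e) := prod_shift q U σ hfU ((map_fix hae he) hσq)
      have h2 : g1 (σ • b e) = g1 (b e) := prod_shift q U σ hgU ((map_fix hbe he) hσq)
      rw [h1, h2]
    have hinv : ∀ e ∈ FixMod U K E, ∀ i : ℕ,
        f1 (a (σ ^ i • e)) - g1 (b (σ ^ i • e)) = f1 (a e) - g1 (b e) := by
      intro e he i
      induction i with
      | zero => simp
      | succ n ih =>
        rw [pow_succ', mul_smul, hinv1 _ (hpowE e he n), ih]
    -- the support of the difference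
    set hh : E → ZMod q := fun e => f1 (a e) - g1 (b e) with hhdef
    have hhlc : IsLocallyConstant hh :=
      (hf1lc.comp_continuous ha).sub (hg1lc.comp_continuous hb)
    set Z : Set E := FixMod U K E ∩ {e | hh e ≠ 0} with hZdef
    have hZc : IsClosed Z :=
      (isClosed_fixMod U K hU).inter (hhlc.isClopen_fiber 0).compl.1
    have hZσ : ∀ z ∈ Z, σ ∉ U ⊔ stabilizer P z := by
      intro z hz hσz
      apply hz.2
      simp only [hhdef]
      rw [hf1fix _ (sup_stab_le hae U z hσz), hg1fix _ (sup_stab_le hbe U z hσz),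
        hfg z ((mem_fix_iff hKH hσ hgen z).2 ⟨hz.1, hσz⟩), sub_self]
    obtain ⟨wE, hwE1, hwE2, hwE3⟩ := exists_trace_one q U hU σ (FixMod U K E) Z
      (fun z hz => hz.1) hZc (fun y hy => fix_smul hnorm hy) (fun y hy => hy hσq) hZσ
    obtain ⟨u, u', hu1, hu2, hu3, hu4, huu⟩ := hS (fun e => hh e * wE e) (hhlc.mul hwE1)
      (by
        intro v hv e
        simp only [hwE2 v hv e, hhdef]
        rw [hae, hbe, hf1U v hv, hg1U v hv])
    have hcor : ∀ e ∈ FixMod U K E, (f1 - tr q σ u) (a e) = (g1 - tr q σ u') (b e) := by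
      intro e he
      by_cases hz : hh e = 0
      · -- everything vanishes along the orbit
        have h0 : ∀ i : ℕ, hh (σ ^ i • e) = 0 := by
          intro i
          have := hinv e he i
          simp only [hhdef] at hz ⊢
          rw [this, hz]
        have h1 : tr q σ u (a e) - tr q σ u' (b e) = 0 := by
          unfold tr
          rw [← Finset.sum_sub_distrib]
          refine Finset.sum_eq_zero fun i _ => ?_
          rw [← hae, ← hbe, ← huu, h0 i, zero_mul]
        simp only [Pi.sub_apply]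
        simp only [hhdef] at hz
        linear_combination hz - h1
      · exact trace_correct q hae hbe σ (hinv e he) (hwE3 e ⟨he, hz⟩) huu
    obtain ⟨c, hc1, hc2⟩ := hC.2 (f1 - tr q σ u) (g1 - tr q σ u')
      (hf1lc.sub (lc_tr q σ hu1)) (hg1lc.sub (lc_tr q σ hu2))
      (by
        intro v hv x
        simp only [Pi.sub_apply, hf1U v hv, uinv_tr q U σ hu3 v hv])
      (by
        intro v hv x
        simp only [Pi.sub_apply, hg1U v hv, uinv_tr q U σ hu4 v hv]) hcor
    refine ⟨c, fun x hx => ?_, fun x hx => ?_⟩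
    · obtain ⟨hx1, hx2⟩ := (mem_fix_iff hKH hσ hgen x).1 hx
      have h1 := hc1 x hx1
      have h2 : tr q σ u x = 0 := by
        unfold tr
        have : ∀ i ∈ Finset.range q, u (σ ^ i • x) = u x := fun i _ =>
          hu3.eq_of_mem (Subgroup.pow_mem _ hx2 i)
        rw [Finset.sum_congr rfl this, Finset.sum_const, Finset.card_range, nsmul_eq_mul,
          CharP.cast_eq_zero, zero_mul]
      simp only [Pi.sub_apply, h2, sub_zero, hf1fix x hx2] at h1
      exact h1
    · obtain ⟨hx1, hx2⟩ := (mem_fix_iff hKH hσ hgen x).1 hx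
      have h1 := hc2 x hx1
      have h2 : tr q σ u' x = 0 := by
        unfold tr
        have : ∀ i ∈ Finset.range q, u' (σ ^ i • x) = u' x := fun i _ =>
          hu4.eq_of_mem (Subgroup.pow_mem _ hx2 i)
        rw [Finset.sum_congr rfl this, Finset.sum_const, Finset.card_range, nsmul_eq_mul,
          CharP.cast_eq_zero, zero_mul]
      simp only [Pi.sub_apply, h2, sub_zero, hg1fix x hx2] at h1
      exact h1

end Step

end P025H970
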