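import Vale.Agent.P025.R2.H970.Obs

/-!
Weights: obstruction homomorphisms of a pro-`l` group on which some element acts by a power map.
-/

namespace P025H970

open Set Topology MulAction

section Weights

variable {G A B E : Type*} [Group G] [TopologicalSpace G] [IsTopologicalGroup G] [CompactSpace G]
  [TopologicalSpace A] [CompactSpace A]
  [MulAction G A] [ContinuousSMul G A]
  [TopologicalSpace B] [CompactSpace B]
  [MulAction G B] [ContinuousSMul G B]
  [TopologicalSpace E] [CompactSpace E]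
  [MulAction G E] [ContinuousSMul G E]

/-- the stabilizer of a function -/
def stabFun (G : Type*) {E R : Type*} [Group G] [MulAction G E] (h : E → R) : Subgroup G where
  carrier := {s | ∀ e, h (s • e) = h e}
  mul_mem' := by
    intro s t hs ht e
    rw [mul_smul, hs, ht]
  one_mem' := by intro e; rw [one_smul]
  inv_mem' := by
    intro s hs e
    have := hs (s⁻¹ • e)
    rw [smul_inv_smul] at this
    exact this.symm

omit [CompactSpace G] in
theorem isOpen_stabFun {R : Type*} {h : E → R} (hh : IsLocallyConstant h) :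
    IsOpen (stabFun G h : Set G) :=
  Subgroup.isOpen_of_mem_nhds _ (g := 1) (exists_nhds_inv (P := G) hh)

theorem exists_pow_mem {S : Subgroup G} (hS : IsOpen (S : Set G)) (φ : G) :
    ∃ j : ℕ, 0 < j ∧ φ ^ j ∈ S := by
  have : Finite (G ⧸ S) := Subgroup.quotient_finite_of_isOpen S hS
  have h1 : S.index ≠ 0 := by
    rw [Subgroup.index]
    exact Nat.card_pos.ne'
  obtain ⟨n, hn, _, h⟩ := Subgroup.exists_pow_mem_of_index_ne_zero h1 φ
  exact ⟨n, hn, h⟩

/-- conjugation by powers -/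
theorem conj_pow_eq {G : Type*} [Group G] {P : Subgroup G} {φ : G} {Q : ℕ}
    (h : ∀ x ∈ P, φ * x * φ⁻¹ = x ^ Q) (j : ℕ) : ∀ x ∈ P, φ ^ j * x * (φ ^ j)⁻¹ = x ^ (Q ^ j) := by
  induction j with
  | zero => intro x _; simp
  | succ n ih =>
    intro x hx
    have h1 : φ ^ (n + 1) * x * (φ ^ (n + 1))⁻¹ = φ * (φ ^ n * x * (φ ^ n)⁻¹) * φ⁻¹ := by
      rw [pow_succ']; group
    rw [h1, ih x hx, h _ (P.pow_mem hx _), ← pow_mul, pow_succ]

theorem weights (l : ℕ) [hl : Fact l.Prime] {a : E → A} {b : E → B}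
    (hae : ∀ (g : G) e, a (g • e) = g • a e)
    (hbe : ∀ (g : G) e, b (g • e) = g • b e) (h0 : ∀ n : ℕ, Conn0 (l ^ (n + 1)) a b)
    (hS : ∀ n : ℕ, Surj0 (l ^ (n + 1)) a b) (U : Subgroup G) (φ : G) (Q : ℕ) (hQ : 1 < Q)
    (hφ : ∀ x ∈ U, φ * x * φ⁻¹ = x ^ Q) {f : A → ZMod l} {g : B → ZMod l}
    (hf : IsLocallyConstant f) (hg : IsLocallyConstant g) (hfgU : ∀ u ∈ U, ∀ e,
      f (a (u • e)) - g (b (u • e)) = f (a e) - g (b e)) (hE : IsLocallyConstant
        (fun e => f (a e) - g (b e))) (u : G) (hu : u ∈ U) :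
    (∀ x, f (u • x) = f x) ∧ ∀ y, g (u • y) = g y := by
  have hl1 : 1 < l := hl.out.one_lt
  have h01 : Conn0 l a b := by simpa using h0 0
  obtain ⟨c, hc⟩ := exists_tr hae hbe h01 hf hg (hfgU u hu)
  suffices hc0 : c = 0 by
    subst hc0
    exact ⟨fun x => by rw [hc.1 x, add_zero], fun y => by rw [hc.2 y, add_zero]⟩
  by_contra hc0
  -- the integral lift
  set ht : E → ℕ := fun e => (f (a e) - g (b e)).val with hht
  have htlc : IsLocallyConstant ht := hE.comp ZMod.val
  obtain ⟨j, hj, hφj⟩ := exists_pow_mem (isOpen_stabFun (G := G) htlc) φ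
  -- choose n large
  obtain ⟨n, hn⟩ : ∃ n : ℕ, Q ^ j - 1 < l ^ (n + 1) :=
    ⟨Q ^ j - 1, lt_of_lt_of_le (Nat.lt_pow_self hl1) (Nat.pow_le_pow_right hl1.le (Nat.le_succ _))⟩
  have hne : NeZero (l ^ (n + 1)) := ⟨pow_ne_zero _ hl.out.ne_zero⟩
  obtain ⟨F, K, hF, hK, hFK⟩ := hS n (fun e => (ht e : ZMod (l ^ (n + 1)))) (htlc.comp _)
  have hinv : ∀ s : G, (∀ e, ht (s • e) = ht e) →
      ∃ d, Tr F K s d := by
    intro s hs
    refine exists_tr hae hbe (h0 n) hF hK ?_
    intro e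
    rw [← hFK, ← hFK, hs]
  obtain ⟨d, hd⟩ := hinv (φ ^ j) hφj
  obtain ⟨cn, hcn⟩ := hinv u (by intro e; simp only [hht]; rw [hfgU u hu])
  -- the reduction of cn is c
  have hdvd : l ∣ l ^ (n + 1) := dvd_pow_self l (Nat.succ_ne_zero n)
  set r : ZMod (l ^ (n + 1)) →+* ZMod l := ZMod.castHom hdvd (ZMod l) with hr
  have hrF : ∀ e, f (a e) - g (b e) = r (F (a e)) - r (K (b e)) := by
    intro e
    rw [← map_sub, ← hFK, map_natCast]
    simp only [hht]
    have : NeZero l := ⟨hl.out.ne_zero⟩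
    rw [ZMod.natCast_zmod_val]
  obtain ⟨z, hz1, hz2⟩ := sol_unique h01 hf hg (hF.comp r) (hK.comp r) hrF
  have hrc : r cn = c := by
    have h1 : Tr (fun x => r (F x)) (fun y => r (K y)) u (r cn) :=
      ⟨fun x => by simp only [hcn.1, map_add], fun y => by simp only [hcn.2, map_add]⟩
    have h2 : Tr (fun x => r (F x)) (fun y => r (K y)) u c := by
      constructor
      · intro x
        have e1 := hz1 (u • x)
        have e2 := hz1 x
        simp only [Function.comp_apply] at e1 e2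
        simp only [e1, e2, hc.1]; ring
      · intro x
        have e1 := hz2 (u • x)
        have e2 := hz2 x
        simp only [Function.comp_apply] at e1 e2
        simp only [e1, e2, hc.2]; ring
    exact h1.unique h01.1 h2
  -- compare
  have h3 : Tr F K (φ ^ j * u * (φ ^ j)⁻¹) (d + cn + -d) := (hd.mul hcn).mul hd.inv
  rw [conj_pow_eq hφ j u hu] at h3
  have h4 := h3.unique (h0 n).1 (hcn.pow (Q ^ j))
  have h5 : ((Q ^ j - 1 : ℕ) : ZMod (l ^ (n + 1))) * cn = 0 := by
    rw [Nat.cast_sub (Nat.one_le_pow _ _ (by omega))]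
    rw [nsmul_eq_mul] at h4
    push_cast at h4 ⊢
    linear_combination -h4
  -- cn is a unit
  have h6 : IsUnit cn := by
    rw [← ZMod.natCast_zmod_val cn, ZMod.isUnit_iff_coprime]
    refine Nat.Coprime.pow_right _ ?_
    rw [Nat.coprime_comm, hl.out.coprime_iff_not_dvd]
    intro hdiv
    apply hc0
    rw [← hrc, ← ZMod.natCast_zmod_val cn, map_natCast]
    exact (ZMod.natCast_eq_zero_iff _ _).2 hdiv
  have h7 : ((Q ^ j - 1 : ℕ) : ZMod (l ^ (n + 1))) = 0 := by
    obtain ⟨v, hv⟩ := h6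
    rw [← hv] at h5
    exact (Units.mul_left_eq_zero v).1 h5
  rw [ZMod.natCast_eq_zero_iff] at h7
  have h8 : 0 < Q ^ j - 1 := by
    have : 1 < Q ^ j := Nat.one_lt_pow hj.ne' hQ
    omega
  exact absurd (Nat.le_of_dvd h8 h7) (not_le.2 hn)

end Weights

end P025H970
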